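import Vale.Agent.P112.Base

/-!
`⟪ee α, ξ⟫ = ‖ξ‖ * cos (α - arg ξ)` (`Complex.norm_mul_exp_arg_mul_I`, `Complex.inner`). For `|β| ≤ 9` there is an integer `n ∈ [-4, 3]` with `|β - π/2 - n π| ≤ π/2`, and then
`|cos β| = |sin (β - π/2 - n π)| ≥ 2/π * |β - π/2 - n π| ≥ |..| / 2` (`Real.mul_abs_le_abs_sin`). So the integrand is at most the sum over `n` of `((1 + R/2 |β - b n|) ^ 2)⁻¹`, `R = s ‖ξ‖`,
and `((1 + |p|) ^ 2)⁻¹ ≤ (1 + p ^ 2)⁻¹` has integral `π` over the line (`integral_univ_inv_one_add_sq`, `Measure.integral_comp_mul_left`): each term gives at most `2 π / R`.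
-/

open MeasureTheory Set Real Filter
open scoped FourierTransform RealInnerProductSpace ContDiff ENNReal NNReal Topology

noncomputable section

namespace Vale.Agent.P112

open Vale.Agent.P117 (cv Ker Nice Sm Np)

variable {f g u v F κ q M : ℂ → ℂ} {G : ℂ → ℝ≥0∞} {ϑ : ℝ → ℂ} {c : ℕ → ℝ} {Ω E : Set ℂ}
  {a r s t δ B C D R : ℝ} {x y z : ℂ}

theorem norm_ee (α : ℝ) : ‖ee α‖ = 1 := by
  exact Complex.norm_exp_ofReal_mul_I α

theorem ee_arg (h : ‖z‖ = 1) : ee (Complex.arg z) = z := by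
  have h1 := Complex.norm_mul_exp_arg_mul_I z
  rwa [h, Complex.ofReal_one, one_mul] at h1

theorem ee_sub (α β : ℝ) : ‖ee α - ee β‖ ≤ |α - β| := by
  have e : ee α - ee β = ee β * (Complex.exp (Complex.I * (α - β : ℝ)) - 1) := by
    rw [mul_sub, mul_one, ee, ee, ← Complex.exp_add]
    congr 2
    push_cast
    ring
  rw [e, norm_mul, norm_ee, one_mul]
  exact Real.norm_exp_I_mul_ofReal_sub_one_le

theorem ang_inner (α : ℝ) (ξ : ℂ) : ⟪ee α, ξ⟫ = ‖ξ‖ * cos (α - Complex.arg ξ) := by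
  rw [cos_sub, mul_add, mul_left_comm, mul_left_comm _ (sin α), Complex.norm_mul_cos_arg,
    Complex.norm_mul_sin_arg, Complex.inner, Complex.mul_re, Complex.conj_re, Complex.conj_im, ee,
    Complex.exp_ofReal_mul_I_re, Complex.exp_ofReal_mul_I_im]
  ring

theorem ang_cos {β : ℝ} (h : |β| ≤ 9) :
    ∃ n ∈ Finset.Icc (-4 : ℤ) 3, |β - π / 2 - n * π| / 2 ≤ |cos β| := by
  have p3 := pi_gt_three
  have h1 : |β - π / 2 - round ((β - π / 2) / π) * π| ≤ π / 2 := by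
    have e : β - π / 2 - round ((β - π / 2) / π) * π =
        ((β - π / 2) / π - round ((β - π / 2) / π)) * π := by
      rw [sub_mul, div_mul_cancel₀ _ pi_ne_zero]
    rw [e, abs_mul, abs_of_pos pi_pos]
    linarith [mul_le_mul_of_nonneg_right (abs_sub_round ((β - π / 2) / π)) pi_pos.le]
  obtain ⟨n, hn⟩ : ∃ n : ℤ, |β - π / 2 - n * π| ≤ π / 2 := ⟨_, h1⟩
  obtain ⟨h2, h3⟩ := abs_le.1 hn
  obtain ⟨h4, h5⟩ := abs_le.1 h
  have h6 : (-5 : ℝ) < n := lt_of_mul_lt_mul_right (a := π) (by linarith) pi_pos.le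
  have h7 : (n : ℝ) < 4 := lt_of_mul_lt_mul_right (a := π) (by linarith) pi_pos.le
  have h8 : (-5 : ℤ) < n := by exact_mod_cast h6
  have h9 : n < 4 := by exact_mod_cast h7
  refine ⟨n, Finset.mem_Icc.2 ⟨by omega, by omega⟩, ?_⟩
  have a1 := Real.mul_abs_le_abs_sin hn
  have a2 : 1 / 2 ≤ 2 / π := by
    rw [div_le_div_iff₀ two_pos pi_pos]
    linarith [pi_le_four]
  rw [sin_sub_int_mul_pi, sin_sub_pi_div_two, abs_mul, abs_neg_one_zpow, one_mul, abs_neg] at a1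
  linarith [mul_le_mul_of_nonneg_right a2 (abs_nonneg (β - π / 2 - n * π))]

theorem ang_int (hr : 0 < r) (a : ℝ) :
    ∫⁻ α : ℝ, ENNReal.ofReal (1 + (r * (α - a)) ^ 2)⁻¹ = ENNReal.ofReal (r⁻¹ * π) := by
  rw [lintegral_sub_right_eq_self (fun α : ℝ => ENNReal.ofReal (1 + (r * α) ^ 2)⁻¹) a,
    ← ofReal_integral_eq_lintegral_ofReal (integrable_inv_one_add_sq.comp_mul_left' hr.ne')
      (Eventually.of_forall fun α => by positivity),
    Measure.integral_comp_mul_left (fun α : ℝ => (1 + α ^ 2)⁻¹) r, integral_univ_inv_one_add_sq,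
    abs_of_pos (inv_pos.2 hr), smul_eq_mul]

theorem ang (hs : 0 < s) {ξ : ℂ} (hξ : ξ ≠ 0) :
    ∫⁻ α in Icc (-5 : ℝ) 5, ENNReal.ofReal ((1 + s * |⟪ee α, ξ⟫|) ^ 2)⁻¹ ≤
      ENNReal.ofReal (100 / (s * ‖ξ‖)) := by
  have hR : 0 < s * ‖ξ‖ := mul_pos hs (norm_pos_iff.2 hξ)
  have h1 : ∀ α ∈ Icc (-5 : ℝ) 5, ENNReal.ofReal ((1 + s * |⟪ee α, ξ⟫|) ^ 2)⁻¹ ≤
      ∑ n ∈ Finset.Icc (-4 : ℤ) 3, ENNReal.ofReal
        (1 + (s * ‖ξ‖ / 2 * (α - (Complex.arg ξ + π / 2 + n * π))) ^ 2)⁻¹ := fun α hα => by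
    obtain ⟨n, hn, h2⟩ := ang_cos (β := α - Complex.arg ξ) ((abs_sub _ _).trans
      (by linarith [abs_le.2 hα, Complex.abs_arg_le_pi ξ, pi_le_four]))
    refine le_trans ?_ (Finset.single_le_sum (fun _ _ => zero_le) hn)
    refine ENNReal.ofReal_le_ofReal (inv_anti₀ (by positivity) ?_)
    have h3 : |s * ‖ξ‖ / 2 * (α - (Complex.arg ξ + π / 2 + n * π))| ≤ s * |⟪ee α, ξ⟫| := by
      rw [ang_inner, abs_mul, abs_mul, abs_of_pos (half_pos hR), abs_norm, ← sub_sub, ← sub_sub]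
      linarith [mul_le_mul_of_nonneg_left h2 hR.le]
    have h4 := pow_le_pow_left₀ (abs_nonneg _) h3 2
    rw [sq_abs] at h4
    linarith [(abs_nonneg _).trans h3]
  refine (setLIntegral_mono' measurableSet_Icc h1).trans
    ((setLIntegral_le_lintegral _ _).trans ?_)
  rw [lintegral_finsetSum _ fun n _ => by fun_prop]
  simp only [ang_int (half_pos hR)]
  rw [← ENNReal.ofReal_sum_of_nonneg fun _ _ => by positivity, Finset.sum_const, Int.card_Icc,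
    nsmul_eq_mul, inv_div]
  refine ENNReal.ofReal_le_ofReal ?_
  rw [div_mul_eq_mul_div, ← mul_div_assoc]
  refine div_le_div_of_nonneg_right ?_ hR.le
  rw [show (3 + 1 - -4 : ℤ).toNat = 8 from rfl]
  push_cast
  linarith [pi_le_four]

end Vale.Agent.P112
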