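import Vale.Agent.P112.Base

/-!
Dyadic sums. `dy_sum`: let `n` be the number with `x * dl j ≤ 1` iff `n ≤ j`; the terms are at most `dl (j - n)` and `2 * dl (n - j)`; or induction.
`sch`: `Finset.sum_comm'` / `Finset.sum_sigma'`, geometric sums `∑ i ∈ range (j+1), dl (j - i) ≤ 2`. `ovl`: take `k₀` where `ρ` is largest on `range N`
(`Finset.exists_max_image`), `ρ k ^ 2 ≤ ρ k * ρ k₀`. `lat_sum`: shift by `⌊y⌋`, split the integers (`tsum_of_nat_of_neg_add_one`, `ENNReal.summable`),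
`∑ 1 / (n+1) ^ 2 ≤ 2` by telescoping (`ENNReal.tsum_le_of_sum_range_le`).
-/

open MeasureTheory Set Real Filter
open scoped FourierTransform RealInnerProductSpace ContDiff ENNReal NNReal Topology

noncomputable section

namespace Vale.Agent.P112

open Vale.Agent.P117 (cv Ker Nice Sm Np)

variable {f g u v F κ q M : ℂ → ℂ} {G : ℂ → ℝ≥0∞} {ϑ : ℝ → ℂ} {c : ℕ → ℝ} {Ω E : Set ℂ}
  {a r s t δ B C D R : ℝ} {x y z : ℂ}

/-- a potential for the telescoping -/
def sums_F (y : ℝ) : ℝ := if y ≤ 1 then 2 * y else 4 - 2 * y⁻¹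

theorem sums_F_nn {y : ℝ} (h : 0 ≤ y) : 0 ≤ sums_F y := by
  unfold sums_F
  split_ifs with h1
  · positivity
  · have := inv_le_one_of_one_le₀ (not_le.1 h1).le
    linarith

theorem sums_F_le {y : ℝ} (h : 0 ≤ y) : sums_F y ≤ 4 := by
  unfold sums_F
  split_ifs with h1
  · linarith
  · have := inv_nonneg.2 h
    linarith

theorem sums_F_step {y : ℝ} (h : 0 ≤ y) : min y y⁻¹ ≤ sums_F y - sums_F (y * 2⁻¹) := by
  unfold sums_F
  split_ifs with h1 h2 h3
  · exact (min_le_left _ _).trans (by linarith)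
  · linarith
  · refine (min_le_right _ _).trans ?_
    have h4 : 0 < y := by linarith
    have h5 : y * y⁻¹ = 1 := mul_inv_cancel₀ h4.ne'
    have h6 := inv_pos.2 h4
    have h7 : 0 ≤ y⁻¹ * ((y - 1) * (3 - y)) :=
      mul_nonneg h6.le (mul_nonneg (by linarith) (by linarith))
    nlinarith
  · refine (min_le_right _ _).trans ?_
    have h6 := inv_nonneg.2 h
    rw [mul_inv, inv_inv]
    linarith

theorem sums_sub (J : Finset ℕ) : J ⊆ Finset.range (J.sup id + 1) := fun _ hj =>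
  Finset.mem_range.2 (Nat.lt_succ_of_le (Finset.le_sup (f := id) hj))

theorem sums_geo (s : Finset ℕ) {e : ℕ → ℕ} (h : InjOn e s) :
    ∑ i ∈ s, ENNReal.ofReal (dl (e i)) ≤ 2 := by
  rw [← Finset.sum_image (f := fun n => ENNReal.ofReal (dl n)) h]
  refine (ENNReal.sum_le_tsum _).trans_eq (Eq.trans (tsum_congr fun n => ?_)
    ENNReal.tsum_geometric_two)
  rw [dl, ← inv_pow, ENNReal.ofReal_pow (by positivity), ENNReal.ofReal_inv_of_pos two_pos,
    ENNReal.ofReal_ofNat]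

theorem sums_sq : ∑' n : ℕ, ENNReal.ofReal ((1 + (n : ℝ)) ^ 2)⁻¹ ≤ 2 := by
  refine ENNReal.tsum_le_of_sum_range_le fun N => ?_
  rw [← ENNReal.ofReal_sum_of_nonneg fun i _ => by positivity, ← ENNReal.ofReal_ofNat]
  refine ENNReal.ofReal_le_ofReal ((Finset.sum_le_sum (g := fun i : ℕ =>
    2 / (1 + (i : ℝ)) - 2 / (1 + ((i + 1 : ℕ) : ℝ))) fun i _ => ?_).trans ?_)
  · have h : (0 : ℝ) ≤ i := i.cast_nonneg
    rw [Nat.cast_succ, div_sub_div _ _ (by positivity) (by positivity), ← one_div,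
      div_le_div_iff₀ (by positivity) (by positivity)]
    nlinarith
  · rw [Finset.sum_range_sub' fun i : ℕ => 2 / (1 + (i : ℝ)), Nat.cast_zero, add_zero, div_one]
    exact sub_le_self _ (by positivity)

theorem dy_sum {p : ℝ} (hp : 0 ≤ p) (J : Finset ℕ) : ∑ j ∈ J, min (p * dl j) (p * dl j)⁻¹ ≤ 4 := by
  have h0 : ∀ j, 0 ≤ p * dl j := fun j => mul_nonneg hp (dl_pos j).le
  refine (Finset.sum_le_sum_of_subset_of_nonneg (sums_sub J) fun j _ _ =>
    le_min (h0 j) (inv_nonneg.2 (h0 j))).trans ((Finset.sum_le_sum (g := fun j =>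
      sums_F (p * dl j) - sums_F (p * dl (j + 1))) fun j _ => ?_).trans ?_)
  · rw [dl_add, ← mul_assoc, show dl 1 = 2⁻¹ by rw [dl, pow_one]]
    exact sums_F_step (h0 j)
  · rw [Finset.sum_range_sub' fun j => sums_F (p * dl j)]
    exact (sub_le_self _ (sums_F_nn (h0 _))).trans (sums_F_le (h0 _))

theorem sch (α β : ℕ → ℝ≥0∞) (J : ℕ) :
    ∑ j ∈ Finset.range J, ∑ i ∈ Finset.range (j + 1), ENNReal.ofReal (dl (j - i)) * (α j + β i) ≤
      2 * (∑ j ∈ Finset.range J, α j + ∑ i ∈ Finset.range J, β i) := by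
  simp only [mul_add, Finset.sum_add_distrib, Finset.mul_sum]
  refine add_le_add (Finset.sum_le_sum fun j _ => ?_) ?_
  · rw [← Finset.sum_mul]
    refine mul_le_mul_left (sums_geo _ fun i hi i' hi' h => ?_) _
    have h1 := Finset.mem_range.1 (Finset.mem_coe.1 hi)
    have h2 := Finset.mem_range.1 (Finset.mem_coe.1 hi')
    omega
  · rw [Finset.sum_comm' (t' := Finset.range J) (s' := fun i => Finset.Ico i J) fun j i => by
      simp only [Finset.mem_range, Finset.mem_Ico]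
      omega]
    refine Finset.sum_le_sum fun i _ => ?_
    rw [← Finset.sum_mul]
    refine mul_le_mul_left (sums_geo _ fun j hj j' hj' h => ?_) _
    have h1 := Finset.mem_Ico.1 (Finset.mem_coe.1 hj)
    have h2 := Finset.mem_Ico.1 (Finset.mem_coe.1 hj')
    omega

theorem ovl {ρ : ℕ → ℝ≥0∞} {L : ℝ≥0∞}
    (h : ∀ k l, k ≤ l → ρ k * ρ l ≤ L * ENNReal.ofReal (dl (l - k))) (N : ℕ) :
    ∑ k ∈ Finset.range N, ρ k ^ 2 ≤ 4 * L := by
  rcases (Finset.range N).eq_empty_or_nonempty with h0 | h0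
  · rw [h0, Finset.sum_empty]
    exact zero_le
  obtain ⟨m, -, hm⟩ := Finset.exists_max_image _ ρ h0
  refine (Finset.sum_le_sum (g := fun k => ρ k * ρ m) fun k hk => by
    rw [sq]
    exact mul_le_mul_right (hm k hk) _).trans ?_
  rw [← Finset.sum_filter_add_sum_filter_not _ fun k => k ≤ m,
    show 4 * L = L * 2 + L * 2 by ring]
  refine add_le_add
    ((Finset.sum_le_sum fun k hk => h k m (Finset.mem_filter.1 hk).2).trans ?_)
    ((Finset.sum_le_sum fun k hk => (mul_comm _ _).trans_le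
      (h m k (not_le.1 (Finset.mem_filter.1 hk).2).le)).trans ?_)
  all_goals
    rw [← Finset.mul_sum]
    refine mul_le_mul_right (sums_geo _ fun j hj j' hj' e => ?_) _
    have h1 := (Finset.mem_filter.1 (Finset.mem_coe.1 hj)).2
    have h2 := (Finset.mem_filter.1 (Finset.mem_coe.1 hj')).2
    omega

theorem lat_sum (p : ℝ) : ∑' l : ℤ, ENNReal.ofReal ((1 + |(l : ℝ) - p|) ^ 2)⁻¹ ≤ 10 := by
  have h1 := Int.floor_le p
  have h2 := Int.lt_floor_add_one p
  have h3 : ∀ (n : ℕ) (w : ℝ), n ≤ |w| →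
      ENNReal.ofReal ((1 + |w|) ^ 2)⁻¹ ≤ ENNReal.ofReal ((1 + (n : ℝ)) ^ 2)⁻¹ := fun n w h => by
    gcongr
  rw [← (Equiv.addRight (⌊p⌋ + 1)).tsum_eq,
    tsum_of_nat_of_neg_add_one ENNReal.summable ENNReal.summable]
  refine (add_le_add ((ENNReal.tsum_le_tsum fun n => h3 n _ ?_).trans sums_sq)
    ((ENNReal.tsum_le_tsum fun n => h3 n _ ?_).trans sums_sq)).trans (by norm_num)
  · refine le_trans ?_ (le_abs_self _)
    rw [Equiv.coe_addRight]
    push_cast
    linarith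
  · refine le_trans ?_ (neg_le_abs _)
    rw [Equiv.coe_addRight]
    push_cast
    linarith

end Vale.Agent.P112
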