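import Vale.Agent.P112.Om
import Vale.Agent.P112.Sums

/-!
Tubes that meet have comparable lengths. `X = om v x (8 s) ≤ D³ om v x s ≤ D³ r / s`, `Y = om v y (2 s')`, `p = x - t • v x`, `w = y - t' • v y`, `d = ‖p - w‖`,
`Z = ‖v x - v y‖ ≤ X + d + Y`. For `|τ| ≤ 2 s'` the points `y + τ • v y = w + (t' + τ) • v y` and `x + (t' + τ - t) • v x = p + (t' + τ) • v x` are at distance `≤ d + 4 s' Z`, so
`‖v (y + τ • v y) - v x‖ ≤ X + d + 4 s' Z`; with `τ` from `om_eq` and with `τ = 0`: `Y ≤ 2 (X + d + 4 s' Z)`, so `Y ≤ 5 (X + d)`; and `r < 2 s' Y`, `d ≤ d / s`.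
`rho_sum`: `ovl` with `L = ofReal (10 D³)`; for `k < l` use `ENNReal.biSup_mul_biSup_le` style (`iSup₂_le` after `ENNReal.iSup_mul`, `ENNReal.mul_iSup`), `geo`, and
`D³ + ‖p - w‖ / r ≤ D³ (1 + ‖p - z‖ / r) (1 + ‖w - z‖ / r)`, `sc a l = sc a k * dl (l - k)`; `k = l`: `rho_le_one`.
-/

open MeasureTheory Set Real Filter
open scoped FourierTransform RealInnerProductSpace ContDiff ENNReal NNReal Topology

noncomputable section

namespace Vale.Agent.P112

open Vale.Agent.P117 (cv Ker Nice Sm Np)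

variable {f g u v F κ q M : ℂ → ℂ} {G : ℂ → ℝ≥0∞} {ϑ : ℝ → ℂ} {c : ℕ → ℝ} {Ω E : Set ℂ}
  {a r s t δ B C D R : ℝ} {x y z : ℂ}

theorem geo (hu : ∀ x, ‖v x‖ = 1) (hv : LipschitzWith 1 v) (hD : Dbl D v) {s' t' : ℝ}
    (hs' : 0 < s') (hss : s' ≤ s) (hs : s ≤ 1 / 16) (hr : 0 < r) (hx : s * om v x s ≤ r)
    (hy : r < 2 * s' * om v y (2 * s')) (ht : |t| ≤ 2 * s) (ht' : |t'| ≤ 2 * s') :
    s ≤ 10 * s' * (D ^ 3 + ‖(x - t • v x) - (y - t' • v y)‖ / r) := by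
  have hc := hv.continuous
  have hs0 : 0 < s := hs'.trans_le hss
  have D0 : 0 ≤ D := zero_le_one.trans hD.1
  have hX : om v x (8 * s) ≤ D ^ 3 * om v x s := by
    have h1 := hD.2 x s hs0 (by linarith)
    have h2 := hD.2 x (2 * s) (by linarith) (by linarith)
    have h3 := hD.2 x (2 * (2 * s)) (by linarith) (by linarith)
    calc om v x (8 * s) = om v x (2 * (2 * (2 * s))) := by congr 1; ring
      _ ≤ D * (D * (D * om v x s)) := h3.trans (mul_le_mul_of_nonneg_left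
        (h2.trans (mul_le_mul_of_nonneg_left h1 D0)) D0)
      _ = _ := by ring
  have X0 := om_nonneg hc x (s := 8 * s) (by linarith)
  set d := ‖(x - t • v x) - (y - t' • v y)‖ with hd
  have d0 : 0 ≤ d := norm_nonneg _
  have key : ∀ τ : ℝ, |τ| ≤ 2 * s' →
      ‖v (y + τ • v y) - v x‖ ≤ om v x (8 * s) + d + 1 / 4 * ‖v x - v y‖ := fun τ hτ => by
    have h1 : |t' + τ| ≤ 4 * s' := (abs_add_le _ _).trans (by linarith)
    have h2 := le_om hc x (t := t' + τ - t) (s := 8 * s) ((abs_sub _ _).trans (by linarith))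
    have h3 := hv.dist_le_mul (x + (t' + τ - t) • v x) (y + τ • v y)
    have e : x + (t' + τ - t) • v x - (y + τ • v y) =
        ((x - t • v x) - (y - t' • v y)) + (t' + τ) • (v x - v y) := by module
    rw [dist_eq_norm, dist_eq_norm, e, NNReal.coe_one, one_mul, norm_sub_rev] at h3
    have h4 := norm_add_le ((x - t • v x) - (y - t' • v y)) ((t' + τ) • (v x - v y))
    rw [norm_smul, Real.norm_eq_abs] at h4
    have h5 := mul_le_mul_of_nonneg_right (h1.trans (by linarith : 4 * s' ≤ 1 / 4))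
      (norm_nonneg (v x - v y))
    linarith [norm_sub_le_norm_sub_add_norm_sub (v (y + τ • v y)) (v (x + (t' + τ - t) • v x)) (v x)]
  obtain ⟨τ, hτ, e⟩ := om_eq hc y (s := 2 * s') (by linarith)
  have h1 := key τ hτ
  have h2 := key 0 (by rw [abs_zero]; linarith)
  rw [zero_smul, add_zero, norm_sub_rev] at h2
  have h3 : om v y (2 * s') ≤ 5 * (om v x (8 * s) + d) := by
    rw [e]
    linarith [norm_sub_le_norm_sub_add_norm_sub (v (y + τ • v y)) (v x) (v y)]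
  have h4 : s * om v x (8 * s) ≤ D ^ 3 * r :=
    (mul_le_mul_of_nonneg_left hX hs0.le).trans
      (by rw [mul_left_comm]; exact mul_le_mul_of_nonneg_left hx (pow_nonneg D0 3))
  have h5 : r ≤ 2 * s' * (5 * (om v x (8 * s) + d)) :=
    hy.le.trans (mul_le_mul_of_nonneg_left h3 (by linarith))
  have h6 : s * (om v x (8 * s) + d) ≤ D ^ 3 * r + d := by
    linarith [mul_le_of_le_one_left d0 (by linarith : s ≤ 1)]
  have h7 := mul_le_mul_of_nonneg_left h6 hs'.le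
  have h8 := mul_le_mul_of_nonneg_left h5 hs0.le
  rw [add_div' _ _ _ hr.ne', ← mul_div_assoc, le_div_iff₀ hr]
  linarith

theorem rho_sum (hu : ∀ x, ‖v x‖ = 1) (hv : LipschitzWith 1 v) (hD : Dbl D v) (ha : 0 < a)
    (ha' : a ≤ 1 / 16) (hr : 0 < r) {Ω : ℕ → Set ℂ}
    (h1 : ∀ k, ∀ x ∈ Ω k, sc a k * om v x (sc a k) ≤ r)
    (h2 : ∀ k, ∀ x ∈ Ω (k + 1), r < 2 * sc a (k + 1) * om v x (2 * sc a (k + 1))) (z : ℂ) (N : ℕ) :
    ∑ k ∈ Finset.range N, rho (seg v (Ω k) (sc a k)) r z ^ 2 ≤ ENNReal.ofReal (40 * D ^ 3) := by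
  have D3 : 1 ≤ D ^ 3 := one_le_pow₀ hD.1
  have e : ENNReal.ofReal (40 * D ^ 3) = 4 * ENNReal.ofReal (10 * D ^ 3) := by
    rw [← ENNReal.ofReal_ofNat 4, ← ENNReal.ofReal_mul (by norm_num)]
    congr 1
    ring
  rw [e]
  refine ovl (fun k l hkl => ?_) N
  rw [← ENNReal.ofReal_mul (by positivity)]
  rcases hkl.eq_or_lt with rfl | hlt
  · refine (mul_le_one' (rho_le_one _ hr z) (rho_le_one _ hr z)).trans
      (ENNReal.one_le_ofReal.2 ?_)
    rw [Nat.sub_self, dl, pow_zero, inv_one]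
    linarith
  obtain ⟨m, rfl⟩ : ∃ m, l = m + 1 := ⟨l - 1, by omega⟩
  simp only [rho, ENNReal.iSup_mul, ENNReal.mul_iSup]
  refine iSup₂_le fun w hw => iSup₂_le fun p hp => ?_
  obtain ⟨x, hx, t, ht, ep⟩ := hp
  obtain ⟨y, hy, t', ht', ew⟩ := hw
  have e1 : sc a (m + 1) = sc a k * dl (m + 1 - k) := by
    rw [sc, sc, dl, ← Nat.add_sub_cancel' hkl, pow_add, Nat.add_sub_cancel_left]
    field_simp
  have s0 := sc_pos ha k
  have l0 := dl_pos (m + 1 - k)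
  have h3 := geo hu hv hD (sc_pos ha (m + 1))
    (e1 ▸ mul_le_of_le_one_right s0.le (dl_le_one _)) ((sc_le ha k).trans ha') hr (h1 k x hx)
    (h2 m y hy) ht ht'
  rw [← ep, ← ew, e1] at h3
  have h4 : ‖p - w‖ / r ≤ ‖p - z‖ / r + ‖w - z‖ / r := by
    rw [← add_div, norm_sub_rev w z]
    exact div_le_div_of_nonneg_right (norm_sub_le_norm_sub_add_norm_sub _ _ _) hr.le
  have a0 : 0 ≤ ‖p - z‖ / r := by positivity
  have b0 : 0 ≤ ‖w - z‖ / r := by positivity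
  generalize ‖p - z‖ / r = α at h4 a0 ⊢
  generalize ‖w - z‖ / r = β at h4 b0 ⊢
  rw [← ENNReal.ofReal_mul (by positivity), ← mul_inv]
  refine ENNReal.ofReal_le_ofReal ((inv_le_iff_one_le_mul₀ (by positivity)).2 ?_)
  have h5 : D ^ 3 + ‖p - w‖ / r ≤ D ^ 3 * ((1 + α) * (1 + β)) := by
    nlinarith [mul_nonneg a0 b0, mul_le_mul_of_nonneg_right D3 (add_nonneg a0 b0),
      mul_nonneg (zero_le_one.trans D3) (mul_nonneg a0 b0)]
  refine le_of_mul_le_mul_left ?_ s0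
  linarith [mul_le_mul_of_nonneg_left h5 (mul_pos s0 l0).le]

end Vale.Agent.P112
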