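import Vale.Agent.P112.Om
import Vale.Agent.P112.Sums

/-!
Cells of directions. `Δ = δ / s`, `y = v z / Δ`. For `p = x - t • v x` with `x` in the cell `l`, `d = ‖p - z‖`: `‖v z - v x‖ ≤ d + om v x (2 s) ≤ d + 4 D Δ ≤ 4 Δ (D + d / (4 δ))` (`s ≤ 1`), so
`1 + |l.1 - y.re| ≤ 6 D (1 + d / (4 δ))` (`Int.floor_le`, `Int.lt_floor_add_one`, `Complex.abs_re_le_norm`), same for `l.2`, `y.im`. Hence `rho ≤ ofReal (6 D) * ofReal (1 + |l.1 - y.re|)⁻¹`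
(`iSup₂_le`) and the fourth power is at most `ofReal (6 D) ^ 4 * a l.1 * b l.2`; `ENNReal.tsum_prod`, `ENNReal.tsum_mul_left`, `lat_sum`.
-/

open MeasureTheory Set Real Filter
open scoped FourierTransform RealInnerProductSpace ContDiff ENNReal NNReal Topology

noncomputable section

namespace Vale.Agent.P112

open Vale.Agent.P117 (cv Ker Nice Sm Np)

variable {f g u v F κ q M : ℂ → ℂ} {G : ℂ → ℝ≥0∞} {ϑ : ℝ → ℂ} {c : ℕ → ℝ} {Ω E : Set ℂ}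
  {a r s t δ B C D R : ℝ} {x y z : ℂ}

theorem meas_Cel (hv : Continuous v) (hΩ : MeasurableSet Ω) (Δ : ℝ) (l : ℤ × ℤ) :
    MeasurableSet (Cel v Ω Δ l) := by
  have hm : Measurable fun x => cell (v x / (Δ : ℂ)) := by
    have h1 : Measurable fun x => v x / (Δ : ℂ) := hv.measurable.div_const _
    unfold cell
    exact (Complex.measurable_re.comp h1).floor.prodMk (Complex.measurable_im.comp h1).floor
  exact hΩ.inter (hm (measurableSet_singleton l))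

theorem Cel_disj (v : ℂ → ℂ) (Ω : Set ℂ) (Δ : ℝ) :
    Pairwise (Function.onFun Disjoint (Cel v Ω Δ)) := by
  intro l m hlm
  refine Set.disjoint_left.2 fun x hx hx' => hlm ?_
  exact hx.2.symm.trans hx'.2

theorem Cel_union (v : ℂ → ℂ) (Ω : Set ℂ) (Δ : ℝ) : ⋃ l, Cel v Ω Δ l = Ω := by
  ext x
  simp only [mem_iUnion]
  exact ⟨fun ⟨_, hx⟩ => hx.1, fun hx => ⟨_, hx, rfl⟩⟩

theorem geob_cell {Δ : ℝ} {l : ℤ × ℤ} (hx : x ∈ Cel v Ω Δ l) :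
    |(l.1 : ℝ) - (v x / (Δ : ℂ)).re| ≤ 1 ∧ |(l.2 : ℝ) - (v x / (Δ : ℂ)).im| ≤ 1 := by
  have h := hx.2
  have h1 : ⌊(v x / (Δ : ℂ)).re⌋ = l.1 := congrArg Prod.fst h
  have h2 : ⌊(v x / (Δ : ℂ)).im⌋ = l.2 := congrArg Prod.snd h
  rw [← h1, ← h2]
  constructor
  · rw [abs_le]
    constructor
    · linarith [Int.lt_floor_add_one (v x / (Δ : ℂ)).re]
    · linarith [Int.floor_le (v x / (Δ : ℂ)).re]
  · rw [abs_le]
    constructor
    · linarith [Int.lt_floor_add_one (v x / (Δ : ℂ)).im]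
    · linarith [Int.floor_le (v x / (Δ : ℂ)).im]

theorem Cel_near {Δ : ℝ} (hΔ : 0 < Δ) {l : ℤ × ℤ} (hx : x ∈ Cel v Ω Δ l) :
    ‖v x - cor Δ l‖ ≤ 2 * Δ := by
  obtain ⟨h1, h2⟩ := geob_cell hx
  have hΔ' : (Δ : ℂ) ≠ 0 := by exact_mod_cast hΔ.ne'
  have e : v x - cor Δ l = (Δ : ℂ) * (v x / (Δ : ℂ) - ((l.1 : ℂ) + (l.2 : ℂ) * Complex.I)) := by
    unfold cor
    field_simp
  rw [e, norm_mul, Complex.norm_real, Real.norm_eq_abs, abs_of_pos hΔ, mul_comm]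
  refine mul_le_mul_of_nonneg_right ?_ hΔ.le
  refine (Complex.norm_le_abs_re_add_abs_im _).trans ?_
  have e1 : (v x / (Δ : ℂ) - ((l.1 : ℂ) + (l.2 : ℂ) * Complex.I)).re =
      (v x / (Δ : ℂ)).re - l.1 := by simp
  have e2 : (v x / (Δ : ℂ) - ((l.1 : ℂ) + (l.2 : ℂ) * Complex.I)).im =
      (v x / (Δ : ℂ)).im - l.2 := by simp
  rw [e1, e2, abs_sub_comm _ (l.1 : ℝ), abs_sub_comm _ (l.2 : ℝ)]
  linarith

theorem seg_mono (v : ℂ → ℂ) (h : Ω ⊆ E) (s : ℝ) : seg v Ω s ⊆ seg v E s := by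
  rintro z ⟨x, hx, t, ht, rfl⟩
  exact ⟨x, h hx, t, ht, rfl⟩

theorem geob_inv {A d D : ℝ} (hD : 1 ≤ D) (hA : 0 ≤ A) (hd : 0 ≤ d) (h : A ≤ 1 + 4 * D + d) :
    (1 + d)⁻¹ ≤ 6 * D * (1 + A)⁻¹ := by
  rw [← div_eq_mul_inv, ← one_div, div_le_div_iff₀ (by positivity) (by positivity)]
  nlinarith [mul_nonneg (sub_nonneg.2 hD) hd]

theorem geob_close (hv : LipschitzWith 1 v) (hD : Dbl D v) (hδ : 0 < δ) (hs : 0 < s)
    (hs' : s ≤ 1 / 16) (hx : s * om v x s ≤ 4 * δ) (ht : |t| ≤ 2 * s) (z : ℂ) :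
    ‖v x / ((δ / s : ℝ) : ℂ) - v z / ((δ / s : ℝ) : ℂ)‖ ≤
      4 * D + ‖x - t • v x - z‖ / (4 * δ) := by
  have hΔ : 0 < δ / s := by positivity
  have hD0 : 0 ≤ D := by linarith [hD.1]
  set d : ℝ := ‖x - t • v x - z‖ with hd
  have hd0 : 0 ≤ d := norm_nonneg _
  have h1 : ‖v (x + (-t) • v x) - v x‖ ≤ om v x (2 * s) :=
    le_om hv.continuous x (by rwa [abs_neg])
  have h2 : om v x (2 * s) ≤ D * om v x s := hD.2 x s hs (by linarith)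
  have h3 : ‖v (x - t • v x) - v z‖ ≤ d := by
    have := hv.dist_le_mul (x - t • v x) z
    rwa [dist_eq_norm, dist_eq_norm, NNReal.coe_one, one_mul] at this
  rw [neg_smul, ← sub_eq_add_neg] at h1
  have h4 : ‖v x - v z‖ ≤ d + D * om v x s := by
    calc ‖v x - v z‖ = ‖(v (x - t • v x) - v z) - (v (x - t • v x) - v x)‖ := by
          congr 1
          ring
      _ ≤ ‖v (x - t • v x) - v z‖ + ‖v (x - t • v x) - v x‖ := norm_sub_le _ _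
      _ ≤ _ := by linarith
  rw [← sub_div, norm_div, Complex.norm_real, Real.norm_eq_abs, abs_of_pos hΔ, div_le_iff₀ hΔ]
  refine h4.trans ?_
  have h5 : om v x s ≤ 4 * (δ / s) := by
    rw [← mul_div_assoc, le_div_iff₀ hs]
    linarith
  have h6 : d ≤ d / (4 * δ) * (δ / s) := by
    have e : d / (4 * δ) * (δ / s) = d / (4 * s) := by field_simp
    rw [e, le_div_iff₀ (by positivity)]
    nlinarith
  have h7 : D * om v x s ≤ D * (4 * (δ / s)) := mul_le_mul_of_nonneg_left h5 hD0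
  nlinarith

theorem geob_rho (hv : LipschitzWith 1 v) (hD : Dbl D v) (hδ : 0 < δ) (hs : 0 < s)
    (hs' : s ≤ 1 / 16) (h : ∀ x ∈ Ω, s * om v x s ≤ 4 * δ) (z : ℂ) (l : ℤ × ℤ) :
    rho (seg v (Cel v Ω (δ / s) l) s) (4 * δ) z ≤
      ENNReal.ofReal (6 * D * (1 + |(l.1 : ℝ) - (v z / ((δ / s : ℝ) : ℂ)).re|)⁻¹) ∧
    rho (seg v (Cel v Ω (δ / s) l) s) (4 * δ) z ≤
      ENNReal.ofReal (6 * D * (1 + |(l.2 : ℝ) - (v z / ((δ / s : ℝ) : ℂ)).im|)⁻¹) := by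
  constructor
  · refine iSup₂_le ?_
    rintro p ⟨x, hx, t, ht, rfl⟩
    have h1 := geob_close hv hD hδ hs hs' (h x hx.1) ht z
    have h2 := (geob_cell hx).1
    have h3 := Complex.abs_re_le_norm (v x / ((δ / s : ℝ) : ℂ) - v z / ((δ / s : ℝ) : ℂ))
    rw [Complex.sub_re] at h3
    refine ENNReal.ofReal_le_ofReal (geob_inv hD.1 (abs_nonneg _) (by positivity) ?_)
    have h4 := abs_sub_le (l.1 : ℝ) (v x / ((δ / s : ℝ) : ℂ)).re (v z / ((δ / s : ℝ) : ℂ)).re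
    linarith
  · refine iSup₂_le ?_
    rintro p ⟨x, hx, t, ht, rfl⟩
    have h1 := geob_close hv hD hδ hs hs' (h x hx.1) ht z
    have h2 := (geob_cell hx).2
    have h3 := Complex.abs_im_le_norm (v x / ((δ / s : ℝ) : ℂ) - v z / ((δ / s : ℝ) : ℂ))
    rw [Complex.sub_im] at h3
    refine ENNReal.ofReal_le_ofReal (geob_inv hD.1 (abs_nonneg _) (by positivity) ?_)
    have h4 := abs_sub_le (l.2 : ℝ) (v x / ((δ / s : ℝ) : ℂ)).im (v z / ((δ / s : ℝ) : ℂ)).im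
    linarith

theorem rho_dir (hv : LipschitzWith 1 v) (hD : Dbl D v) (hδ : 0 < δ) (hs : 0 < s)
    (hs' : s ≤ 1 / 16) (h : ∀ x ∈ Ω, s * om v x s ≤ 4 * δ) (z : ℂ) :
    ∑' l : ℤ × ℤ, rho (seg v (Cel v Ω (δ / s) l) s) (4 * δ) z ^ 4 ≤
      ENNReal.ofReal (100 * (6 * D) ^ 4) := by
  have hD0 : 0 ≤ 6 * D := by linarith [hD.1]
  set y : ℂ := v z / ((δ / s : ℝ) : ℂ) with hy
  have key : ∀ l : ℤ × ℤ, rho (seg v (Cel v Ω (δ / s) l) s) (4 * δ) z ^ 4 ≤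
      ENNReal.ofReal ((6 * D) ^ 4) * (ENNReal.ofReal ((1 + |(l.1 : ℝ) - y.re|) ^ 2)⁻¹ *
        ENNReal.ofReal ((1 + |(l.2 : ℝ) - y.im|) ^ 2)⁻¹) := by
    intro l
    obtain ⟨h1, h2⟩ := geob_rho hv hD hδ hs hs' h z l
    have p1 : 0 ≤ (1 + |(l.1 : ℝ) - y.re|)⁻¹ := by positivity
    have p2 : 0 ≤ (1 + |(l.2 : ℝ) - y.im|)⁻¹ := by positivity
    calc rho (seg v (Cel v Ω (δ / s) l) s) (4 * δ) z ^ 4
        = rho (seg v (Cel v Ω (δ / s) l) s) (4 * δ) z ^ 2 *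
          rho (seg v (Cel v Ω (δ / s) l) s) (4 * δ) z ^ 2 := by ring
      _ ≤ ENNReal.ofReal (6 * D * (1 + |(l.1 : ℝ) - y.re|)⁻¹) ^ 2 *
          ENNReal.ofReal (6 * D * (1 + |(l.2 : ℝ) - y.im|)⁻¹) ^ 2 := by gcongr
      _ = _ := by
          rw [← ENNReal.ofReal_pow (by positivity), ← ENNReal.ofReal_pow (by positivity),
            ← ENNReal.ofReal_mul (by positivity), ← ENNReal.ofReal_mul (by positivity),
            ← ENNReal.ofReal_mul (by positivity)]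
          congr 1
          simp only [← inv_pow]
          ring
  refine (ENNReal.tsum_le_tsum key).trans ?_
  rw [ENNReal.tsum_mul_left, ENNReal.tsum_prod']
  simp only [ENNReal.tsum_mul_left, ENNReal.tsum_mul_right]
  rw [ENNReal.ofReal_mul (by norm_num), mul_comm (ENNReal.ofReal 100)]
  gcongr
  calc _ ≤ (10 : ℝ≥0∞) * 10 := mul_le_mul' (lat_sum _) (lat_sum _)
    _ = _ := by
        rw [show (100 : ℝ) = ((100 : ℕ) : ℝ) by norm_num, ENNReal.ofReal_natCast]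
        norm_num

end Vale.Agent.P112
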