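import Vale.Agent.P112.Base

/-!
The time kernels. `bl.one_of_mem_closedBall`, `bl.zero_of_le_dist`, `bl.nonneg`, `bl.le_one`. `hh s N t = 0` for `|t| ≤ s / 2 ^ N` and for `2 s ≤ |t|`, so it is
bounded by `2 ^ N / s` with bounded support. `hh_sum`: `Finset.sum_Ico_succ_top`, induction on `N`. `hh_scale`: `hh s 1 t = s⁻¹ * hh 1 1 (t / s)`,
`Real.fourier_real_eq_integral_exp_smul`, `Measure.integral_comp_div`. `hh_sm`: near `t = 0` the function vanishes (`ContDiffAt.congr_of_eventuallyEq`);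
`hh_odd`: `ContDiffBump.neg`.
-/

open MeasureTheory Set Real Filter
open scoped FourierTransform RealInnerProductSpace ContDiff ENNReal NNReal Topology

noncomputable section

namespace Vale.Agent.P112

open Vale.Agent.P117 (cv Ker Nice Sm Np)

variable {f g u v F κ q M : ℂ → ℂ} {G : ℂ → ℝ≥0∞} {ϑ : ℝ → ℂ} {c : ℕ → ℝ} {Ω E : Set ℂ}
  {a r s t δ B C D R : ℝ} {x y z : ℂ}

theorem hh_bl_one (h : |t| ≤ 1) : bl t = 1 :=
  bl.one_of_mem_closedBall (by simpa [bl] using h)

theorem hh_bl_zero (h : 2 ≤ |t|) : bl t = 0 :=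
  bl.zero_of_le_dist (by simpa [bl] using h)

theorem hh_small (hs : 0 < s) (N : ℕ) (h : 2 ^ N * |t| ≤ s) : hh s N t = 0 := by
  have h1 : (1 : ℝ) ≤ 2 ^ N := one_le_pow₀ one_le_two
  have h2 : |t / s| ≤ 1 := by
    rw [abs_div, abs_of_pos hs, div_le_one hs]
    exact (le_mul_of_one_le_left (abs_nonneg t) h1).trans h
  have h3 : |2 ^ N * t / s| ≤ 1 := by
    rw [abs_div, abs_of_pos hs, div_le_one hs, abs_mul, abs_of_pos (by positivity)]
    exact h
  simp [hh, hh_bl_one h2, hh_bl_one h3]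

theorem hh_big (hs : 0 < s) (N : ℕ) (h : 2 * s ≤ |t|) : hh s N t = 0 := by
  have h1 : (1 : ℝ) ≤ 2 ^ N := one_le_pow₀ one_le_two
  have h2 : 2 ≤ |t / s| := by
    rw [abs_div, abs_of_pos hs, le_div_iff₀ hs]
    exact h
  have h3 : 2 ≤ |2 ^ N * t / s| := by
    rw [abs_div, abs_of_pos hs, le_div_iff₀ hs, abs_mul, abs_of_pos (by positivity)]
    exact h.trans (le_mul_of_one_le_left (abs_nonneg t) h1)
  simp [hh, hh_bl_zero h2, hh_bl_zero h3]

theorem hh_mul_le (s : ℝ) (N : ℕ) (t : ℝ) : ‖hh s N t‖ * |t| ≤ 1 := by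
  rcases eq_or_ne t 0 with rfl | ht
  · simp
  rw [hh, Complex.norm_real, Real.norm_eq_abs, ← abs_mul, div_mul_cancel₀ _ ht, abs_le]
  have h1 := bl.nonneg (x := t / s)
  have h2 := bl.le_one (x := t / s)
  have h3 := bl.nonneg (x := 2 ^ N * t / s)
  have h4 := bl.le_one (x := 2 ^ N * t / s)
  constructor <;> linarith

theorem hh_le (hs : 0 < s) (N : ℕ) (t : ℝ) : ‖hh s N t‖ ≤ 2 ^ N / s := by
  by_cases h : 2 ^ N * |t| ≤ s
  · rw [hh_small hs N h, norm_zero]
    positivity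
  · rw [le_div_iff₀ hs]
    calc ‖hh s N t‖ * s ≤ ‖hh s N t‖ * (2 ^ N * |t|) :=
          mul_le_mul_of_nonneg_left (not_le.1 h).le (norm_nonneg _)
      _ = 2 ^ N * (‖hh s N t‖ * |t|) := by ring
      _ ≤ 2 ^ N * 1 := mul_le_mul_of_nonneg_left (hh_mul_le s N t) (by positivity)
      _ = 2 ^ N := mul_one _

theorem hh_meas (s : ℝ) (N : ℕ) : Measurable (hh s N) := by
  have hb : Measurable (bl : ℝ → ℝ) := bl.continuous.measurable
  exact Complex.measurable_ofReal.comp (((hb.comp (measurable_id.div_const s)).sub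
    (hb.comp ((measurable_id.const_mul _).div_const s))).div measurable_id)

theorem hh_tk (hs : 0 < s) (N : ℕ) : Tk (2 * s) (hh s N) := by
  refine ⟨hh_meas s N, ?_, fun t ht => hh_big hs N ht.le⟩
  rw [← integrableOn_iff_integrable_of_support_subset (s := Icc (-(2 * s)) (2 * s))]
  · exact Measure.integrableOn_of_bounded (M := 2 ^ N / s) measure_Icc_lt_top.ne
      (hh_meas s N).aestronglyMeasurable (Eventually.of_forall fun t => hh_le hs N t)
  · intro t ht
    by_contra h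
    exact ht (hh_big hs N (not_le.1 fun h' => h (abs_le.1 h')).le)

theorem Tk.mono (h : Tk R ϑ) (hR : R ≤ r) : Tk r ϑ :=
  ⟨h.meas, h.int, fun t ht => h.supp t (hR.trans_lt ht)⟩

theorem hh_one_le (hs : 0 < s) (t : ℝ) : ‖hh s 1 t‖ ≤ 2 / s := by
  simpa only [pow_one] using hh_le hs 1 t

theorem hh_sum (a : ℝ) (k N : ℕ) (t : ℝ) :
    ∑ i ∈ Finset.Ico k (k + N), hh (sc a i) 1 t = hh (sc a k) N t := by
  induction N with
  | zero => simp [hh]
  | succ N ih =>
    rw [← add_assoc, Finset.sum_Ico_succ_top (Nat.le_add_right k N), ih]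
    have e1 : t / sc a (k + N) = 2 ^ N * t / sc a k := by
      simp only [sc, div_div_eq_mul_div]
      ring
    have e2 : 2 ^ 1 * t / sc a (k + N) = 2 ^ (N + 1) * t / sc a k := by
      simp only [sc, div_div_eq_mul_div]
      ring
    rw [hh, hh, hh, e1, e2, ← Complex.ofReal_add]
    congr 1
    ring

theorem hh_scale (hs : 0 < s) (σ : ℝ) : 𝓕 (hh s 1) σ = psi (s * σ) := by
  have hs' : (s : ℂ) ≠ 0 := Complex.ofReal_ne_zero.2 hs.ne'
  have e (t : ℝ) : hh s 1 t = (s : ℂ)⁻¹ * hh 1 1 (t / s) := by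
    simp only [hh, div_one, mul_div_assoc]
    rw [← Complex.ofReal_inv, ← Complex.ofReal_mul]
    congr 1
    rw [div_div_eq_mul_div]
    field_simp
  rw [psi, Real.fourier_real_eq_integral_exp_smul, Real.fourier_real_eq_integral_exp_smul]
  have h := Measure.integral_comp_div (fun v : ℝ =>
    Complex.exp (((-2 * π * v * (s * σ) : ℝ) : ℂ) * Complex.I) • hh 1 1 v) s
  rw [abs_of_pos hs] at h
  have h2 : ∫ v : ℝ, Complex.exp (((-2 * π * v * σ : ℝ) : ℂ) * Complex.I) • hh s 1 v =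
      (s : ℂ)⁻¹ * ∫ v : ℝ, Complex.exp (((-2 * π * (v / s) * (s * σ) : ℝ) : ℂ) * Complex.I) •
        hh 1 1 (v / s) := by
    rw [← integral_const_mul]
    refine integral_congr_ae (Eventually.of_forall fun v => ?_)
    have e2 : -2 * π * (v / s) * (s * σ) = -2 * π * v * σ := by field_simp
    simp only [e v, e2, smul_eq_mul]
    ring
  rw [h2, h, Complex.real_smul, inv_mul_cancel_left₀ hs']

theorem hh_sm : Sm (hh 1 1) := by
  refine ⟨contDiff_iff_contDiffAt.2 fun t => ?_, ?_⟩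
  · rcases eq_or_ne t 0 with rfl | ht
    · refine (contDiffAt_const (c := (0 : ℂ))).congr_of_eventuallyEq ?_
      filter_upwards [Metric.ball_mem_nhds (0 : ℝ) (by norm_num : (0 : ℝ) < 1 / 2)] with t ht
      refine hh_small one_pos 1 ?_
      rw [Metric.mem_ball, dist_zero_right, Real.norm_eq_abs] at ht
      linarith
    · have hb : ContDiff ℝ ∞ (bl : ℝ → ℝ) := bl.contDiff
      have h1 : ContDiff ℝ ∞ fun t : ℝ => bl (t / 1) - bl (2 ^ 1 * t / 1) :=
        (hb.comp (contDiff_id.div_const 1)).sub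
          (hb.comp ((contDiff_const.mul contDiff_id).div_const 1))
      exact Complex.ofRealCLM.contDiff.contDiffAt.comp t (h1.contDiffAt.div contDiffAt_id ht)
  · refine HasCompactSupport.intro (isCompact_Icc (a := (-(2 * 1) : ℝ)) (b := 2 * 1))
      fun t h => ?_
    exact hh_big one_pos 1 (not_le.1 fun h' => h (abs_le.1 h')).le

theorem hh_odd (s : ℝ) (N : ℕ) (t : ℝ) : hh s N (-t) = -hh s N t := by
  rw [hh, hh, mul_neg, neg_div, neg_div, bl.neg, bl.neg, div_neg, Complex.ofReal_neg]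

end Vale.Agent.P112
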