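import Vale.Agent.P112.KW

/-!
Pointwise bounds for convolutions. `enorm_integral_le_lintegral_enorm`, `lintegral_const_mul'`, `wr_anti`, `wr_shift`.
`kc_lip`: `integral_sub` (`P117.cv_integrable`), and `‖κ (a - z) - κ (b - z)‖ ≤ C / δ * (1+R) ^ 5 * wr 5 δ (x - z) * ‖a - b‖` by
`Convex.norm_image_sub_le_of_norm_fderiv_le` on `Metric.closedBall (x - z) (R * δ)`.
-/

open MeasureTheory Set Real Filter
open scoped FourierTransform RealInnerProductSpace ContDiff ENNReal NNReal Topology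

noncomputable section

namespace Vale.Agent.P112

open Vale.Agent.P117 (cv Ker Nice Sm Np)

variable {f g u v F κ q M : ℂ → ℂ} {G : ℂ → ℝ≥0∞} {ϑ : ℝ → ℂ} {c : ℕ → ℝ} {Ω E : Set ℂ}
  {a r s t δ B C D R : ℝ} {x y z : ℂ}

theorem klip_int {k : ℂ → ℂ} {L : ℝ} (hL : 0 ≤ L) (g : ℂ → ℂ)
    (hk : ∀ z, ‖k z‖ ≤ L * wr 5 δ (x - z)) :
    ‖∫ z, k z * g z‖ₑ ≤ ENNReal.ofReal L * wv 5 δ (fun z => ‖g z‖ₑ) x := by
  refine (enorm_integral_le_lintegral_enorm _).trans ?_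
  rw [wv, ← lintegral_const_mul' _ _ ENNReal.ofReal_ne_top]
  refine lintegral_mono fun z => ?_
  rw [enorm_mul, ← mul_assoc, W, ← ENNReal.ofReal_mul hL, ← ofReal_norm_eq_enorm (k z)]
  exact mul_le_mul_left (ENNReal.ofReal_le_ofReal (hk z)) _

theorem klip_R (hδ : 0 < δ) {p : ℂ} (hp : ‖p - x‖ ≤ R * δ) : 0 ≤ R :=
  nonneg_of_mul_nonneg_left ((norm_nonneg _).trans hp) hδ

theorem klip_w (hδ : 0 < δ) {p w : ℂ} (hp : ‖p - w‖ ≤ R * δ) :
    wr 10 δ p ≤ (1 + R) ^ 5 * wr 5 δ w :=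
  (wr_anti (by norm_num) hδ p).trans (wr_shift 5 hδ hp)

theorem kc_le (h : KC C δ κ) (g : ℂ → ℂ) {p : ℂ} (hp : ‖p - x‖ ≤ R * δ) :
    ‖cv κ g p‖ₑ ≤ ENNReal.ofReal (C * (1 + R) ^ 5) * wv 5 δ (fun z => ‖g z‖ₑ) x := by
  have hR := klip_R h.d0 hp
  have hC := h.C0
  refine klip_int (k := fun z => κ (p - z)) (by positivity) g fun z => (h.b0 _).trans ?_
  rw [mul_assoc]
  exact mul_le_mul_of_nonneg_left (klip_w h.d0 (by rwa [sub_sub_sub_cancel_right])) hC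

theorem kc_lip (h : KC C δ κ) (hg : Integrable g) {p w : ℂ} (hp : ‖p - x‖ ≤ R * δ)
    (hw : ‖w - x‖ ≤ R * δ) : ‖cv κ g p - cv κ g w‖ₑ ≤
      ENNReal.ofReal (C * (‖p - w‖ / δ) * (1 + R) ^ 5) * wv 5 δ (fun z => ‖g z‖ₑ) x := by
  have hR := klip_R h.d0 hp
  have hC := h.C0
  have hδ := h.d0
  rw [cv, cv, ← integral_sub (P117.cv_integrable h.ker hg p) (P117.cv_integrable h.ker hg w)]
  simp only [← sub_mul]
  refine klip_int (k := fun z => κ (p - z) - κ (w - z)) (by positivity) g fun z => ?_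
  have h1 := Convex.norm_image_sub_le_of_norm_fderiv_le (𝕜 := ℝ) (f := κ)
    (s := Metric.closedBall (x - z) (R * δ)) (C := C / δ * ((1 + R) ^ 5 * wr 5 δ (x - z)))
    (x := w - z) (y := p - z) (fun y _ => h.sm.differentiable one_ne_zero y)
    (fun y hy => (h.b1 y).trans (mul_le_mul_of_nonneg_left
      (klip_w hδ (mem_closedBall_iff_norm.1 hy)) (by positivity))) (convex_closedBall _ _)
    (mem_closedBall_iff_norm.2 (by rwa [sub_sub_sub_cancel_right]))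
    (mem_closedBall_iff_norm.2 (by rwa [sub_sub_sub_cancel_right]))
  rw [sub_sub_sub_cancel_right] at h1
  exact h1.trans (le_of_eq (by ring))

theorem kc_mom (h : KC C δ κ) :
    ∫⁻ p, ‖κ p‖ₑ * ENNReal.ofReal (1 + ‖p‖ / δ) ^ 6 ≤ ENNReal.ofReal C * cW := by
  have hδ := h.d0
  rw [← W_int hδ, ← lintegral_const_mul' _ _ ENNReal.ofReal_ne_top]
  refine lintegral_mono fun p => ?_
  rw [W, ← ENNReal.ofReal_mul h.C0, ← ofReal_norm_eq_enorm, ← ENNReal.ofReal_pow (by positivity),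
    ← ENNReal.ofReal_mul (norm_nonneg _)]
  refine ENNReal.ofReal_le_ofReal ?_
  calc ‖κ p‖ * (1 + ‖p‖ / δ) ^ 6 ≤ C * wr (4 + 6) δ p * (1 + ‖p‖ / δ) ^ 6 :=
        mul_le_mul_of_nonneg_right (h.b0 p) (by positivity)
    _ = C * wr 4 δ p := by rw [mul_assoc, wr_mul 4 6 hδ]
    _ ≤ _ := mul_le_mul_of_nonneg_left (wr_anti (by norm_num) hδ p) h.C0

theorem kc_l1 (h : KC C δ κ) : ∫⁻ p, ‖κ p‖ₑ ≤ ENNReal.ofReal C * cW := by
  have hδ := h.d0
  refine le_trans (lintegral_mono fun p => le_mul_of_one_le_right' (one_le_pow_of_one_le' ?_ 6))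
    (kc_mom h)
  exact ENNReal.one_le_ofReal.2 (le_add_of_nonneg_right (by positivity))

end Vale.Agent.P112
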