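import Vale.Agent.P112.Lin
import Vale.Agent.P112.HH
import Vale.Agent.P112.KLip

/-!
The error of freezing. `integral_sub` (`A_int`, `P117.cv_ker`), `enorm_integral_le_lintegral_enorm`; for `|t| ≤ 2 s`: `kc_lip` with centre `p = x - t • v x`, `R = 4`, `‖p - (x - t • w)‖ / δ ≤ 2 |t| / s`,
`hh_mul_le`, `wv_anti`, `wv_rho`; for other `t` the kernel vanishes (`lintegral_indicator`).
-/

open MeasureTheory Set Real Filter
open scoped FourierTransform RealInnerProductSpace ContDiff ENNReal NNReal Topology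

noncomputable section

namespace Vale.Agent.P112

open Vale.Agent.P117 (cv Ker Nice Sm Np)

variable {f g u v F κ q M : ℂ → ℂ} {G : ℂ → ℝ≥0∞} {ϑ : ℝ → ℂ} {c : ℕ → ℝ} {Ω E : Set ℂ}
  {a r s t δ B C D R : ℝ} {x y z : ℂ}

theorem low_err (h : KC C δ κ) (hu : Nice u) (hs : 0 < s) (hx : x ∈ Ω) {w : ℂ}
    (hw : ‖v x - w‖ ≤ 2 * (δ / s)) (N : ℕ) :
    ‖A v (hh s N) (cv κ u) x - A (fun _ => w) (hh s N) (cv κ u) x‖ₑ ≤
      ENNReal.ofReal (2 * 5 ^ 5 * C) *
        av v s (wv 3 δ fun z => rho (seg v Ω s) (4 * δ) z * ‖u z‖ₑ) x := by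
  have hδ := h.d0
  have hC := h.C0
  have hT := hh_tk hs N
  have hF : Nice (cv κ u) := (P117.cv_ker h.ker hu).nice
  unfold A av
  rw [← integral_sub (A_int hT hF v x) (A_int hT hF (fun _ => w) x), ← mul_assoc,
    ← ENNReal.ofReal_mul (by positivity), ← lintegral_const_mul' _ _ ENNReal.ofReal_ne_top,
    ← lintegral_indicator measurableSet_Icc]
  refine (enorm_integral_le_lintegral_enorm _).trans (lintegral_mono fun t => ?_)
  by_cases ht : |t| ≤ 2 * s
  swap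
  · simp [hT.supp t (not_le.1 ht)]
  rw [indicator_of_mem (mem_Icc.2 (abs_le.1 ht)), ← mul_sub, enorm_mul]
  have e : ‖(x - t • v x) - (x - t • w)‖ = |t| * ‖v x - w‖ := by
    rw [sub_sub_sub_cancel_left, ← smul_sub, norm_smul, Real.norm_eq_abs, norm_sub_rev]
  have a1 : ‖(x - t • v x) - (x - t • w)‖ ≤ |t| * (2 * (δ / s)) := by
    rw [e]
    gcongr
  have a2 : ‖(x - t • w) - (x - t • v x)‖ ≤ 4 * δ := by
    rw [norm_sub_rev]
    refine a1.trans ((mul_le_mul_of_nonneg_right ht (by positivity)).trans_eq ?_)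
    field_simp
    norm_num
  have a3 := kc_lip (x := x - t • v x) (R := 4) h hu.int (p := x - t • v x) (w := x - t • w)
    (by rw [sub_self, norm_zero]; positivity) a2
  have a4 : wv 5 δ (fun z => ‖u z‖ₑ) (x - t • v x) ≤
      wv 3 δ (fun z => rho (seg v Ω s) (4 * δ) z * ‖u z‖ₑ) (x - t • v x) :=
    (wv_anti (by norm_num) hδ _ _).trans
      (wv_rho 3 hδ (by linarith) (show x - t • v x ∈ seg v Ω s from ⟨x, hx, t, ht, rfl⟩) _)
  refine (mul_le_mul_right (a3.trans (mul_le_mul_right a4 _)) _).trans ?_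
  rw [← mul_assoc, ← ofReal_norm, ← ENNReal.ofReal_mul (norm_nonneg _)]
  refine mul_le_mul_left (ENNReal.ofReal_le_ofReal ?_) _
  have a5 := hh_mul_le s N t
  calc ‖hh s N t‖ * (C * (‖(x - t • v x) - (x - t • w)‖ / δ) * (1 + 4) ^ 5)
      ≤ ‖hh s N t‖ * (C * (|t| * (2 * (δ / s)) / δ) * (1 + 4) ^ 5) := by gcongr
    _ = ‖hh s N t‖ * |t| * (2 * 5 ^ 5 * C * s⁻¹) := by
        field_simp
        norm_num
    _ ≤ 2 * 5 ^ 5 * C * s⁻¹ := mul_le_of_le_one_left (by positivity) a5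

end Vale.Agent.P112
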