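import Vale.Agent.P112.HH
import Vale.Agent.P112.Sums

/-! Bounds for the time multipliers. -/

open MeasureTheory Set Real Filter
open scoped FourierTransform RealInnerProductSpace ContDiff ENNReal NNReal Topology

noncomputable section

namespace Vale.Agent.P112

open Vale.Agent.P117 (cv Ker Nice Sm Np)

variable {f g u v F κ q M : ℂ → ℂ} {G : ℂ → ℝ≥0∞} {ϑ : ℝ → ℂ} {c : ℕ → ℝ} {Ω E : Set ℂ}
  {a r s t δ B C D R : ℝ} {x y z : ℂ}

theorem mult_dec (φ : SchwartzMap ℝ ℂ) : ∃ C : ℝ, 0 ≤ C ∧ ∀ σ : ℝ, (1 + |σ|) ^ 2 * ‖φ σ‖ ≤ C := by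
  have h := fun σ : ℝ => SchwartzMap.one_add_le_sup_seminorm_apply (𝕜 := ℝ) (m := (2, 0))
    (k := 2) (n := 0) le_rfl le_rfl φ σ
  simp only [norm_iteratedFDeriv_zero, Real.norm_eq_abs] at h
  exact ⟨_, le_trans (by positivity) (h 0), h⟩

theorem psi_bd : ∃ C : ℝ, 0 ≤ C ∧ Differentiable ℝ psi ∧ Continuous (deriv psi) ∧ ∀ σ : ℝ,
    ‖psi σ‖ ≤ C * |σ| ∧ (1 + |σ|) ^ 2 * ‖psi σ‖ ≤ C ∧ (1 + |σ|) ^ 2 * ‖deriv psi σ‖ ≤ C := by
  obtain ⟨φ, hφ⟩ : ∃ φ : SchwartzMap ℝ ℂ, psi = φ :=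
    ⟨𝓕 (hh_sm.cs.toSchwartzMap hh_sm.smooth), rfl⟩
  have h0 : psi 0 = 0 := by
    have h := integral_neg_eq_self (hh 1 1) volume
    simp only [hh_odd, integral_neg] at h
    rw [psi, Real.fourier_real_eq]
    simpa using self_eq_neg.1 h.symm
  obtain ⟨C, c0, h1⟩ := mult_dec φ
  obtain ⟨D, d0, h2⟩ := mult_dec (SchwartzMap.derivCLM ℝ ℂ φ)
  simp only [SchwartzMap.derivCLM_apply] at h2
  rw [hφ] at h0 ⊢
  refine ⟨C + D, by positivity, φ.differentiable, (SchwartzMap.derivCLM ℝ ℂ φ).continuous,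
    fun σ => ⟨?_, by linarith [h1 σ], by linarith [h2 σ]⟩⟩
  have h3 := convex_univ.norm_image_sub_le_of_norm_deriv_le (f := φ) (C := C + D)
    (fun x _ => φ.differentiableAt) (fun x _ => le_trans (le_mul_of_one_le_left (norm_nonneg _)
      (one_le_pow₀ (le_add_of_nonneg_right (abs_nonneg x)))) ((h2 x).trans (by linarith)))
    (mem_univ 0) (mem_univ σ)
  simpa [h0] using h3

theorem hh_four : ∃ B : ℝ, ∀ s : ℝ, 0 < s → ∀ (N : ℕ) (σ : ℝ), ‖𝓕 (hh s N) σ‖ ≤ B := by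
  obtain ⟨C, c0, -, -, h⟩ := psi_bd
  have h1 : ∀ τ : ℝ, τ ≠ 0 → ‖psi τ‖ ≤ C * min |τ| |τ|⁻¹ := fun τ hτ => by
    rw [mul_min_of_nonneg _ _ c0]
    refine le_min (h τ).1 ?_
    have h2 := abs_pos.2 hτ
    rw [le_mul_inv_iff₀ h2]
    nlinarith [(h τ).2.1, norm_nonneg (psi τ), mul_nonneg (norm_nonneg (psi τ)) (sq_nonneg |τ|),
      mul_nonneg (norm_nonneg (psi τ)) h2.le]
  have h2 : ∀ τ : ℝ, ‖psi τ‖ ≤ C * min |τ| |τ|⁻¹ := fun τ => by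
    rcases eq_or_ne τ 0 with rfl | hτ
    · simpa using (h 0).1
    · exact h1 τ hτ
  refine ⟨C * 4, fun s hs N σ => ?_⟩
  have e : hh s N = fun t => ∑ i ∈ Finset.Ico 0 (0 + N), hh (sc s i) 1 t :=
    funext fun t => by rw [hh_sum, sc, pow_zero, div_one]
  have e2 := P117.inv_sum (Finset.Ico 0 (0 + N)) (fun i _ => (hh_tk (sc_pos hs i) 1).int) (-σ)
  simp only [Real.fourierInv_eq_fourier_neg, neg_neg] at e2
  rw [e, e2]
  refine (norm_sum_le _ _).trans (le_trans (Finset.sum_le_sum fun i _ => ?_)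
    ((Finset.mul_sum _ _ _).ge.trans (mul_le_mul_of_nonneg_left
      (dy_sum (mul_nonneg hs.le (abs_nonneg σ)) _) c0)))
  have e3 : |sc s i * σ| = s * |σ| * dl i := by
    rw [abs_mul, abs_of_pos (sc_pos hs i), sc, dl]
    ring
  rw [hh_scale (sc_pos hs i), ← e3]
  exact h2 _

end Vale.Agent.P112
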