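import Vale.Agent.P112.Base

/-!
The weights. `finite_integral_one_add_norm` (dimension 2 < 3), scaling by `Measure.map_addHaar_smul` / `lintegral_map` or `Measure.integral_comp_smul`;
`wv_l2`: `P117.young_enn` with `p = 2` (`ENNReal.rpow_ofNat`); `wv_rho`: `W (N+1) δ (c - z) = W N δ (c - z) * ofReal (1 + ‖c - z‖ / δ)⁻¹` and `le_rho`.
-/

open MeasureTheory Set Real Filter
open scoped FourierTransform RealInnerProductSpace ContDiff ENNReal NNReal Topology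

noncomputable section

namespace Vale.Agent.P112

open Vale.Agent.P117 (cv Ker Nice Sm Np)

variable {f g u v F κ q M : ℂ → ℂ} {G : ℂ → ℝ≥0∞} {ϑ : ℝ → ℂ} {c : ℕ → ℝ} {Ω E : Set ℂ}
  {a r s t δ B C D R : ℝ} {x y z : ℂ}

theorem wr_pos (N : ℕ) (hδ : 0 < δ) (u : ℂ) : 0 < wr N δ u := by
  unfold wr
  positivity

theorem wr_mul (N K : ℕ) (hδ : 0 < δ) (u : ℂ) : wr (N + K) δ u * (1 + ‖u‖ / δ) ^ K = wr N δ u := by
  have h : 0 < 1 + ‖u‖ / δ := by positivity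
  unfold wr
  generalize 1 + ‖u‖ / δ = m at h
  rw [pow_add]
  field_simp

theorem wr_anti {N K : ℕ} (h : N ≤ K) (hδ : 0 < δ) (u : ℂ) : wr K δ u ≤ wr N δ u :=
  inv_anti₀ (by positivity) (mul_le_mul_of_nonneg_left
    (pow_le_pow_right₀ (le_add_of_nonneg_right (by positivity)) h) (sq_nonneg δ))

theorem wr_shift (N : ℕ) (hδ : 0 < δ) {p w : ℂ} (h : ‖p - w‖ ≤ R * δ) :
    wr N δ p ≤ (1 + R) ^ N * wr N δ w := by
  have hR : 0 ≤ R := (mul_nonneg_iff_of_pos_right hδ).1 ((norm_nonneg _).trans h)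
  have h1 : ‖w‖ / δ ≤ ‖p‖ / δ + R := by
    rw [div_add' _ _ _ hδ.ne']
    exact div_le_div_of_nonneg_right (by linarith [norm_sub_norm_le w p, norm_sub_rev w p]) hδ.le
  have h2 : 0 ≤ ‖p‖ / δ := by positivity
  have h3 : (1 + ‖w‖ / δ) ^ N ≤ (1 + R) ^ N * (1 + ‖p‖ / δ) ^ N := by
    rw [← mul_pow]
    exact pow_le_pow_left₀ (by positivity) (by nlinarith) N
  unfold wr
  rw [← div_eq_mul_inv, le_div_iff₀ (by positivity), inv_mul_le_iff₀ (by positivity), mul_assoc,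
    mul_comm _ ((1 + R) ^ N)]
  exact mul_le_mul_of_nonneg_left h3 (sq_nonneg δ)

theorem cW_ne_top : cW ≠ ⊤ := by
  have h := finite_integral_one_add_norm (E := ℂ) (μ := volume) (r := (3 : ℕ))
    (by rw [Complex.finrank_real_complex]; norm_num)
  refine ne_of_lt (lt_of_eq_of_lt (lintegral_congr fun u => ?_) h)
  rw [W, wr, Real.rpow_neg (by positivity), Real.rpow_natCast, one_pow, one_mul, div_one]

theorem W_int (hδ : 0 < δ) : ∫⁻ u, W 3 δ u = cW := by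
  have h := lintegral_map_equiv (μ := (volume : Measure ℂ)) (W 3 δ) (MeasurableEquiv.smul₀ δ hδ.ne')
  have e : ((MeasurableEquiv.smul₀ δ hδ.ne' : ℂ ≃ᵐ ℂ) : ℂ → ℂ) = (δ • ·) := rfl
  have h2 : 0 < (δ ^ 2)⁻¹ := by positivity
  have e2 : ∀ u : ℂ, W 3 δ (δ • u) = ENNReal.ofReal (δ ^ 2)⁻¹ * W 3 1 u := fun u => by
    rw [W, W, ← ENNReal.ofReal_mul h2.le, wr, wr, norm_smul, Real.norm_of_nonneg hδ.le,
      mul_div_cancel_left₀ _ hδ.ne', one_pow, one_mul, div_one, mul_inv]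
  rw [e, Measure.map_addHaar_smul _ hδ.ne', lintegral_smul_measure, Complex.finrank_real_complex,
    abs_of_pos h2] at h
  simp only [e2] at h
  rw [lintegral_const_mul _ (meas_W 3 1), smul_eq_mul] at h
  exact (ENNReal.mul_right_inj (ENNReal.ofReal_pos.2 h2).ne' ENNReal.ofReal_ne_top).1 h

theorem wv_anti {N K : ℕ} (h : N ≤ K) (hδ : 0 < δ) (G : ℂ → ℝ≥0∞) (x : ℂ) : wv K δ G x ≤ wv N δ G x :=
  lintegral_mono fun _ => mul_le_mul_left (ENNReal.ofReal_le_ofReal (wr_anti h hδ _)) _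

theorem wv_l2 (hδ : 0 < δ) (hG : Measurable G) : Q (wv 3 δ G) ≤ cW ^ 2 * Q G := by
  have h := P117.young_enn (p := 2) one_le_two (meas_W 3 δ) hG
  simp only [ENNReal.rpow_ofNat] at h
  rwa [W_int hδ] at h

theorem wv_rho (N : ℕ) (hδ : 0 < δ) (hr : δ ≤ r) (hx : x ∈ E) (G : ℂ → ℝ≥0∞) :
    wv (N + 1) δ G x ≤ wv N δ (fun z => rho E r z * G z) x := by
  refine lintegral_mono fun z => ?_
  rw [← mul_assoc]
  refine mul_le_mul_left (le_trans ?_ (mul_le_mul_right (le_rho hx r z) _)) _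
  have r0 : 0 < r := hδ.trans_le hr
  rw [W, W, ← ENNReal.ofReal_mul (wr_pos N hδ _).le, ← wr_mul N 1 hδ, pow_one, mul_assoc]
  refine ENNReal.ofReal_le_ofReal (le_mul_of_one_le_right (wr_pos _ hδ _).le ?_)
  rw [← div_eq_mul_inv, one_le_div (by positivity)]
  exact add_le_add_right (div_le_div_of_nonneg_left (norm_nonneg _) hδ hr) 1

theorem wv_bdd (hδ : 0 < δ) {L : ℝ≥0∞} (h : ∀ z, G z ≤ L) (x : ℂ) : wv 3 δ G x ≤ cW * L := by
  refine (lintegral_mono fun z => mul_le_mul_right (h z) _).trans_eq ?_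
  rw [← W_int hδ, ← lintegral_mul_const _ (meas_W 3 δ)]
  exact lintegral_sub_left_eq_self (fun z => W 3 δ z * L) x

end Vale.Agent.P112
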