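import Vale.Agent.P112.Base

/-!
Inequalities for `Q`. `cs`: `ENNReal.lintegral_mul_le_Lp_mul_Lq` with `Real.HolderConjugate.two_two`. `mink`: `ENNReal.lintegral_Lp_add_le` gives
`Q (∑ m < n, b m) ^ (1/2) ≤ (∑ m < n, c m) * N ^ (1/2)` by induction; then `ENNReal.tsum_eq_iSup_nat`, `lintegral_iSup` (squares of a monotone supremum), or Fatou
`lintegral_liminf_le`. `cake`: `F x ^ 2 = ∫⁻ l in Ioi 0, ofReal (2 l) * indicator` (also when `F x = ⊤`), then `lintegral_lintegral_swap`.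
-/

open MeasureTheory Set Real Filter
open scoped FourierTransform RealInnerProductSpace ContDiff ENNReal NNReal Topology

noncomputable section

namespace Vale.Agent.P112

open Vale.Agent.P117 (cv Ker Nice Sm Np)

variable {f g u v F κ q M : ℂ → ℂ} {G : ℂ → ℝ≥0∞} {ϑ : ℝ → ℂ} {c : ℕ → ℝ} {Ω E : Set ℂ}
  {a r s t δ B C D R : ℝ} {x y z : ℂ}

theorem mink_sq (a : ℝ≥0∞) : (a ^ (1 / 2 : ℝ)) ^ 2 = a := by
  rw [← ENNReal.rpow_natCast, ← ENNReal.rpow_mul]
  norm_num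

theorem cs {X : Type} [MeasurableSpace X] (μ : Measure X) {F G : X → ℝ≥0∞} (hF : Measurable F)
    (hG : Measurable G) : (∫⁻ x, F x * G x ∂μ) ^ 2 ≤ (∫⁻ x, F x ^ 2 ∂μ) * ∫⁻ x, G x ^ 2 ∂μ := by
  have h := ENNReal.lintegral_mul_le_Lp_mul_Lq μ Real.HolderConjugate.two_two hF.aemeasurable
    hG.aemeasurable
  simp only [Pi.mul_apply, ENNReal.rpow_two] at h
  refine (pow_le_pow_left' h 2).trans_eq ?_
  rw [mul_pow, mink_sq, mink_sq]

theorem csw {X : Type} [MeasurableSpace X] (μ : Measure X) {w G : X → ℝ≥0∞} (hw : Measurable w)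
    (hG : Measurable G) : (∫⁻ x, w x * G x ∂μ) ^ 2 ≤ (∫⁻ x, w x ∂μ) * ∫⁻ x, w x * G x ^ 2 ∂μ := by
  have h := cs μ (hw.pow_const (1 / 2 : ℝ)) ((hw.pow_const (1 / 2 : ℝ)).mul hG)
  simpa only [Pi.mul_apply, ← mul_assoc, ← sq, mul_pow, mink_sq] using h

theorem mink_amgm (a b : ℝ≥0∞) : a * b ≤ a ^ 2 + b ^ 2 := by
  rcases le_total a b with h | h
  · exact (mul_le_mul_left h b).trans (by rw [sq b]; exact le_add_self)
  · exact (mul_le_mul_right h a).trans (by rw [sq a]; exact le_self_add)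

theorem amgm {F : ℂ → ℝ≥0∞} (hF : Measurable F) (G : ℂ → ℝ≥0∞) : ∫⁻ x, F x * G x ≤ Q F + Q G := by
  rw [Q, Q, ← lintegral_add_left (hF.pow_const 2)]
  exact lintegral_mono fun x => mink_amgm _ _

theorem amgm' {F : ℂ → ℝ≥0∞} (hF : Measurable F) (G : ℂ → ℝ≥0∞) (hB : 0 < B) :
    ∫⁻ x, F x * G x ≤ ENNReal.ofReal B * Q F + (ENNReal.ofReal B)⁻¹ * Q G := by
  have h0 : ENNReal.ofReal B ≠ 0 := by simpa using hB
  have h1 : ENNReal.ofReal B ≠ ⊤ := ENNReal.ofReal_ne_top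
  generalize ENNReal.ofReal B = L at h0 h1
  rw [Q, Q, ← lintegral_const_mul' _ _ h1, ← lintegral_const_mul' _ _ (ENNReal.inv_ne_top.2 h0),
    ← lintegral_add_left ((hF.pow_const 2).const_mul _)]
  refine lintegral_mono fun x => ?_
  have h := mul_le_mul_right (mink_amgm (L * F x) (G x)) L⁻¹
  rwa [mul_add, ← mul_assoc, ← mul_assoc, ENNReal.inv_mul_cancel h0 h1, one_mul, mul_pow, sq L,
    ← mul_assoc, ← mul_assoc, ENNReal.inv_mul_cancel h0 h1, one_mul] at h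

theorem mink_add (a b : ℝ≥0∞) : (a + b) ^ 2 ≤ 2 * (a ^ 2 + b ^ 2) := by
  have h := ENNReal.rpow_add_le_mul_rpow_add_rpow a b (p := 2) one_le_two
  norm_num at h
  exact h

theorem Q_add {F : ℂ → ℝ≥0∞} (hF : Measurable F) (G : ℂ → ℝ≥0∞) :
    Q (fun x => F x + G x) ≤ 2 * (Q F + Q G) := by
  rw [Q, Q, Q, ← lintegral_add_left (hF.pow_const 2), ← lintegral_const_mul' _ _ (by simp)]
  exact lintegral_mono fun x => mink_add _ _

theorem Q_mul (L : ℝ≥0∞) (hG : Measurable G) : Q (fun x => L * G x) = L ^ 2 * Q G := by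
  simp only [Q, mul_pow]
  exact lintegral_const_mul _ (hG.pow_const 2)

theorem Q_disj {Ω : ℕ → Set ℂ} (hΩ : ∀ k, MeasurableSet (Ω k))
    (hd : Pairwise (Function.onFun Disjoint Ω)) {b : ℕ → ℂ → ℝ≥0∞} (hb : ∀ k, Measurable (b k))
    (N : ℕ) : Q (fun x => ∑ k ∈ Finset.range N, (Ω k).indicator (b k) x) =
      ∑ k ∈ Finset.range N, ∫⁻ x in Ω k, b k x ^ 2 := by
  simp only [Q, ← lintegral_indicator (hΩ _)]
  rw [← lintegral_finsetSum _ fun k _ => ((hb k).pow_const 2).indicator (hΩ k)]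
  refine lintegral_congr fun x => ?_
  rw [sq, Finset.sum_mul_sum]
  refine Finset.sum_congr rfl fun k hk => ?_
  rw [Finset.sum_eq_single_of_mem k hk fun j _ hj => ?_]
  · by_cases h : x ∈ Ω k <;> simp [h, sq]
  · by_cases h : x ∈ Ω k
    · rw [indicator_of_notMem (Set.disjoint_left.1 (hd hj.symm) h), mul_zero]
    · rw [indicator_of_notMem h, zero_mul]

theorem mink_fin {b : ℕ → ℂ → ℝ≥0∞} (hb : ∀ m, Measurable (b m)) {e : ℕ → ℝ≥0∞} {N : ℝ≥0∞}
    (h : ∀ m, Q (b m) ≤ e m ^ 2 * N) (n : ℕ) : Q (fun x => ∑ m ∈ Finset.range n, b m x) ^ (1 / 2 : ℝ)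
      ≤ (∑ m ∈ Finset.range n, e m) * N ^ (1 / 2 : ℝ) := by
  induction n with
  | zero => simp [Q]
  | succ n ih =>
    have h1 := ENNReal.lintegral_Lp_add_le (μ := volume) (p := 2)
      (Finset.measurable_fun_sum (Finset.range n) fun m _ => hb m).aemeasurable
      (hb n).aemeasurable one_le_two
    simp only [Pi.add_apply, ENNReal.rpow_two] at h1
    have h2 : Q (b n) ^ (1 / 2 : ℝ) ≤ e n * N ^ (1 / 2 : ℝ) := by
      refine (ENNReal.rpow_le_rpow (h n) (by norm_num)).trans_eq ?_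
      rw [ENNReal.mul_rpow_of_nonneg _ _ (by norm_num), ← ENNReal.rpow_natCast, ← ENNReal.rpow_mul]
      norm_num
    simp only [Finset.sum_range_succ, add_mul]
    exact h1.trans (add_le_add ih h2)

theorem mink {b : ℕ → ℂ → ℝ≥0∞} (hb : ∀ m, Measurable (b m)) {e : ℕ → ℝ≥0∞} {N : ℝ≥0∞}
    (h : ∀ m, Q (b m) ≤ e m ^ 2 * N) : Q (fun x => ∑' m, b m x) ≤ (∑' m, e m) ^ 2 * N := by
  have hm : ∀ x, Monotone fun n => ∑ m ∈ Finset.range n, b m x := fun x i j hij =>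
    Finset.sum_le_sum_of_subset (Finset.range_mono hij)
  have h1 : ∀ x, (∑' m, b m x) ^ 2 = ⨆ n, (∑ m ∈ Finset.range n, b m x) ^ 2 := fun x => by
    rw [ENNReal.tsum_eq_iSup_nat, ENNReal.iSup_pow_of_ne_zero two_ne_zero]
  simp only [Q, h1]
  rw [lintegral_iSup (fun n => (Finset.measurable_fun_sum _ fun m _ => hb m).pow_const 2)
    fun i j hij x => pow_le_pow_left' (hm x hij) 2]
  refine iSup_le fun n => ?_
  have h2 := pow_le_pow_left' (mink_fin hb h n) 2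
  rw [mink_sq, mul_pow, mink_sq] at h2
  refine h2.trans ?_
  gcongr
  exact ENNReal.sum_le_tsum _

end Vale.Agent.P112
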