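import Vale.Agent.P112.Bil
import Vale.Agent.P112.Mink
import Vale.Agent.P112.KW

/-! Trivial bounds. -/

open MeasureTheory Set Real Filter
open scoped FourierTransform RealInnerProductSpace ContDiff ENNReal NNReal Topology

noncomputable section

namespace Vale.Agent.P112

open Vale.Agent.P117 (cv Ker Nice Sm Np)

variable {f g u v F κ q M : ℂ → ℂ} {G : ℂ → ℝ≥0∞} {ϑ : ℝ → ℂ} {c : ℕ → ℝ} {Ω E : Set ℂ}
  {a r s t δ B C D R : ℝ} {x y z : ℂ}

theorem triv_gen (hv : LipschitzWith 2 v) (μ : Measure ℝ) [SFinite μ] {w : ℝ → ℝ≥0∞}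
    (hw : Measurable w) (h : ∀ᵐ t ∂μ, w t ≠ 0 → |t| ≤ 1 / 4) (hG : Measurable G) :
    Q (fun x => ∫⁻ t, w t * G (x - t • v x) ∂μ) ≤ 4 * (∫⁻ t, w t ∂μ) ^ 2 * Q G := by
  have hc := hv.continuous
  have hm : Measurable fun p : ℂ × ℝ => G (p.1 - p.2 • v p.1) :=
    hG.comp (Continuous.measurable (by fun_prop))
  have hm2 : Measurable fun p : ℂ × ℝ => w p.2 * G (p.1 - p.2 • v p.1) ^ 2 :=
    (hw.comp measurable_snd).mul (hm.pow_const 2)
  calc Q (fun x => ∫⁻ t, w t * G (x - t • v x) ∂μ)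
      ≤ ∫⁻ x, (∫⁻ t, w t ∂μ) * ∫⁻ t, w t * G (x - t • v x) ^ 2 ∂μ :=
        lintegral_mono fun x => csw μ hw (hG.comp (Continuous.measurable (by fun_prop)))
    _ = (∫⁻ t, w t ∂μ) * ∫⁻ t, (∫⁻ x, w t * G (x - t • v x) ^ 2) ∂μ := by
        rw [lintegral_const_mul _ (Measurable.lintegral_prod_right (f := fun (x : ℂ) (t : ℝ) =>
          w t * G (x - t • v x) ^ 2) hm2), lintegral_lintegral_swap hm2.aemeasurable]
    _ ≤ (∫⁻ t, w t ∂μ) * ∫⁻ t, w t * (4 * Q G) ∂μ := by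
        gcongr 1
        refine lintegral_mono_ae (h.mono fun t ht => ?_)
        rw [lintegral_const_mul (f := fun x => G (x - t • v x) ^ 2) _
          ((hG.comp (Continuous.measurable (by fun_prop))).pow_const 2)]
        by_cases h0 : w t = 0
        · simp [h0]
        · exact mul_le_mul_right (Q_comp hv (ht h0) hG) _
    _ = 4 * (∫⁻ t, w t ∂μ) ^ 2 * Q G := by
        rw [lintegral_mul_const _ hw]
        ring

theorem av_l2 (hv : LipschitzWith 2 v) (hs : 0 < s) (hs' : s ≤ 1 / 8) (hG : Measurable G) :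
    Q (av v s G) ≤ 64 * Q G := by
  have hc := hv.continuous
  have h1 := triv_gen hv (volume.restrict (Icc (-(2 * s)) (2 * s))) (w := fun _ => 1)
    measurable_const ((ae_restrict_mem measurableSet_Icc).mono fun t ht _ =>
      abs_le.2 ⟨by linarith [ht.1], by linarith [ht.2]⟩) hG
  simp only [one_mul, lintegral_const, Measure.restrict_apply MeasurableSet.univ, univ_inter,
    Real.volume_Icc] at h1
  have h2 := Q_mul (G := fun x => ∫⁻ t in Icc (-(2 * s)) (2 * s), G (x - t • v x))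
    (ENNReal.ofReal s⁻¹) (Measurable.lintegral_prod_right (f := fun x (t : ℝ) => G (x - t • v x))
      (hG.comp (Continuous.measurable (by fun_prop))))
  refine h2.trans_le ((mul_le_mul_right h1 _).trans_eq ?_)
  have h3 : ENNReal.ofReal s⁻¹ * ENNReal.ofReal (2 * s - -(2 * s)) = 4 := by
    rw [← ENNReal.ofReal_mul (by positivity), show s⁻¹ * (2 * s - -(2 * s)) = 4 by
      field_simp; ring]
    norm_num
  calc _ = 4 * (ENNReal.ofReal s⁻¹ * ENNReal.ofReal (2 * s - -(2 * s))) ^ 2 * Q G := by ring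
    _ = _ := by rw [h3]; norm_num

theorem triv (hv : LipschitzWith 2 v) (h : Tk (1 / 4) ϑ) (hF : Measurable F) :
    n2 (A v ϑ F) ≤ 4 * ENNReal.ofReal (∫ t, ‖ϑ t‖) ^ 2 * n2 F := by
  rw [ofReal_integral_norm_eq_lintegral_enorm h.int]
  refine le_trans ?_ (triv_gen (G := fun x => ‖F x‖ₑ) hv volume h.meas.enorm
    (Eventually.of_forall fun t ht => not_lt.1 fun hl => ht (by simp [h.supp t hl])) hF.enorm)
  refine lintegral_mono fun x => ?_
  refine pow_le_pow_left' ((enorm_integral_le_lintegral_enorm _).trans_eq ?_) 2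
  simp only [enorm_mul]

theorem tail_sum (hv : LipschitzWith 2 v) (ha : 0 < a) (ha' : a ≤ 1 / 8) (hδ : 0 < δ)
    {ρ : ℕ → ℂ → ℝ≥0∞} (hρ : ∀ k, Measurable (ρ k)) {L : ℝ≥0∞} {N : ℕ}
    (hL : ∀ z, ∑ k ∈ Finset.range N, ρ k z ^ 2 ≤ L) (hG : Measurable G) :
    ∑ k ∈ Finset.range N, Q (av v (sc a k) (wv 3 δ fun z => ρ k z * G z)) ≤
      64 * cW ^ 2 * L * Q G := by
  calc _ ≤ ∑ k ∈ Finset.range N, 64 * (cW ^ 2 * Q fun z => ρ k z * G z) :=
        Finset.sum_le_sum fun k _ => (av_l2 hv (sc_pos ha k) ((sc_le ha k).trans ha')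
          (meas_wv 3 δ ((hρ k).mul hG))).trans (mul_le_mul_right (wv_l2 hδ ((hρ k).mul hG)) _)
    _ = 64 * cW ^ 2 * ∫⁻ z, ∑ k ∈ Finset.range N, (ρ k z * G z) ^ 2 := by
        rw [lintegral_finsetSum (f := fun k z => (ρ k z * G z) ^ 2) _
          fun k _ => ((hρ k).mul hG).pow_const 2, Finset.mul_sum]
        exact Finset.sum_congr rfl fun k _ => by rw [mul_assoc]; rfl
    _ ≤ 64 * cW ^ 2 * ∫⁻ z, L * G z ^ 2 := by
        gcongr with z
        simp only [mul_pow, ← Finset.sum_mul]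
        exact mul_le_mul_left (hL z) _
    _ = _ := by
        rw [lintegral_const_mul _ (hG.pow_const 2), ← mul_assoc]
        rfl

end Vale.Agent.P112
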