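import Vale.Agent.P112.LowA
import Vale.Agent.P112.LowB
import Vale.Agent.P112.Geo
import Vale.Agent.P112.GeoB
import Vale.Agent.P112.Triv
import Vale.Agent.P112.Mult

/-!
The flat part. For each `k`: `Ω = Lo v δ a k`, `s = sc a k`, `Δ = δ / s`; `lintegral_iUnion` over the cells (`Cel_union`, `Cel_disj`, `meas_Cel`); on the cell `l`:
`‖A v ..‖ₑ ^ 2 ≤ 2 ‖A (fun _ => cor Δ l) ..‖ₑ ^ 2 + 2 err ^ 2` with `err` from `low_err` for `Ω` (it does not depend on `l`, so its sum over `l` is at most `Q err`); `low_main` on the cell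
(`Cel_near`, `hh_four`, `hh_tk`); `rho_cell ^ 6 ≤ rho_Ω ^ 2 * rho_cell ^ 4` (`rho_mono`, `seg_mono`), `lintegral_tsum`, `rho_dir`. Sum over `k`: `rho_sum` with `r = 4 δ` (`sc_succ`), `tail_sum`.
First prove the bound for one `k` as a lemma.
-/

open MeasureTheory Set Real Filter
open scoped FourierTransform RealInnerProductSpace ContDiff ENNReal NNReal Topology

noncomputable section

namespace Vale.Agent.P112

open Vale.Agent.P117 (cv Ker Nice Sm Np)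

variable {f g u v F κ q M : ℂ → ℂ} {G : ℂ → ℝ≥0∞} {ϑ : ℝ → ℂ} {c : ℕ → ℝ} {Ω E : Set ℂ}
  {a r s t δ B C D R : ℝ} {x y z : ℂ}

theorem low_sq (p q : ℝ≥0∞) : (p + q) ^ 2 ≤ 2 * p ^ 2 + 2 * q ^ 2 := by
  rcases eq_or_ne p ⊤ with rfl | hp
  · simp
  rcases eq_or_ne q ⊤ with rfl | hq
  · simp
  lift p to ℝ≥0 using hp
  lift q to ℝ≥0 using hq
  norm_cast
  rw [← NNReal.coe_le_coe]
  push_cast
  nlinarith [sq_nonneg ((p : ℝ) - q)]

theorem low_cells (hv : LipschitzWith 1 v) (hD : Dbl D v) (hδ : 0 < δ) (hs : 0 < s)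
    (hs' : s ≤ 1 / 16) (hf : ∀ x ∈ Ω, s * om v x s ≤ 4 * δ) (hG : Measurable G) :
    ∑' l : ℤ × ℤ, ∫⁻ z, rho (seg v (Cel v Ω (δ / s) l) s) (4 * δ) z ^ 6 * G z ≤
      ENNReal.ofReal (100 * (6 * D) ^ 4) * ∫⁻ z, rho (seg v Ω s) (4 * δ) z ^ 2 * G z := by
  have h4 : 0 < 4 * δ := by positivity
  have hm : ∀ l : ℤ × ℤ, AEMeasurable
      (fun z => rho (seg v (Cel v Ω (δ / s) l) s) (4 * δ) z ^ 6 * G z) volume := fun l =>
    (((meas_rho _ h4).pow_const 6).mul hG).aemeasurable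
  rw [← lintegral_tsum hm, ← lintegral_const_mul' _ _ ENNReal.ofReal_ne_top]
  refine lintegral_mono fun z => ?_
  refine le_trans (ENNReal.tsum_le_tsum (g := fun l : ℤ × ℤ =>
    rho (seg v (Cel v Ω (δ / s) l) s) (4 * δ) z ^ 4 * (rho (seg v Ω s) (4 * δ) z ^ 2 * G z))
      fun l => ?_) ?_
  · have h1 : rho (seg v (Cel v Ω (δ / s) l) s) (4 * δ) z ≤ rho (seg v Ω s) (4 * δ) z :=
      rho_mono (seg_mono v (fun _ hx => hx.1) s) _ _
    rw [← mul_assoc, show 6 = 4 + 2 from rfl, pow_add]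
    gcongr
  · rw [ENNReal.tsum_mul_right]
    exact mul_le_mul_left (rho_dir hv hD hδ hs hs' hf z) _

theorem low_one (h : KC C δ κ) (hv : LipschitzWith 1 v) (hD : Dbl D v) (hΩ : MeasurableSet Ω)
    (hs : 0 < s) (hs' : s ≤ 1 / 16) (hf : ∀ x ∈ Ω, s * om v x s ≤ 4 * δ) (n : ℕ)
    (hB : ∀ σ, ‖𝓕 (hh s n) σ‖ ≤ B) (hu : Nice u) :
    ∫⁻ x in Ω, ‖A v (hh s n) (cv κ u) x‖ₑ ^ 2 ≤
      2 * ENNReal.ofReal (2 * 5 ^ 5 * C) ^ 2 *
          Q (av v s (wv 3 δ fun z => rho (seg v Ω s) (4 * δ) z * ‖u z‖ₑ)) +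
        2 * (64 * (ENNReal.ofReal B * (ENNReal.ofReal C * cW)) ^ 2) *
          ENNReal.ofReal (100 * (6 * D) ^ 4) *
          ∫⁻ z, rho (seg v Ω s) (4 * δ) z ^ 2 * ‖u z‖ₑ ^ 2 := by
  have hδ := h.d0
  have h4 : 0 < 4 * δ := by positivity
  have hc := hv.continuous
  set e : ℂ → ℝ≥0∞ := av v s (wv 3 δ fun z => rho (seg v Ω s) (4 * δ) z * ‖u z‖ₑ) with he
  set L : ℝ≥0∞ := ENNReal.ofReal (2 * 5 ^ 5 * C) with hL
  set K : ℝ≥0∞ := 64 * (ENNReal.ofReal B * (ENNReal.ofReal C * cW)) ^ 2 with hK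
  have hem : Measurable e := meas_av hc s (meas_wv 3 δ ((meas_rho _ h4).mul hu.meas.enorm))
  have hem' : Measurable fun x => 2 * L ^ 2 * e x ^ 2 := (hem.pow_const 2).const_mul _
  have hun : ∀ H : ℂ → ℝ≥0∞, ∫⁻ x in Ω, H x = ∑' l : ℤ × ℤ, ∫⁻ x in Cel v Ω (δ / s) l, H x :=
    fun H => by
      rw [← lintegral_iUnion (meas_Cel hc hΩ (δ / s)) (Cel_disj v Ω (δ / s)), Cel_union]
  have h1 : ∀ l : ℤ × ℤ, ∫⁻ x in Cel v Ω (δ / s) l, ‖A v (hh s n) (cv κ u) x‖ₑ ^ 2 ≤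
      (∫⁻ x in Cel v Ω (δ / s) l, 2 * L ^ 2 * e x ^ 2) + 2 * K *
        ∫⁻ z, rho (seg v (Cel v Ω (δ / s) l) s) (4 * δ) z ^ 6 * ‖u z‖ₑ ^ 2 := fun l => by
    have hn : ∀ x ∈ Cel v Ω (δ / s) l, ‖v x - cor (δ / s) l‖ ≤ 2 * (δ / s) := fun x hx =>
      Cel_near (div_pos hδ hs) hx
    have h2 := low_main h (meas_Cel hc hΩ (δ / s) l) hs (hh_tk hs n) hB hn hu
    refine le_trans (setLIntegral_mono' (meas_Cel hc hΩ (δ / s) l) (g := fun x =>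
      2 * L ^ 2 * e x ^ 2 + 2 * ‖A (fun _ => cor (δ / s) l) (hh s n) (cv κ u) x‖ₑ ^ 2)
        fun x hx => ?_) ?_
    · have h3 := low_err h hu hs (Ω := Ω) hx.1 (hn x hx) n
      have h5 : ‖A v (hh s n) (cv κ u) x‖ₑ ≤
          L * e x + ‖A (fun _ => cor (δ / s) l) (hh s n) (cv κ u) x‖ₑ := by
        refine le_trans ?_ (add_le_add_left h3 _)
        refine le_trans (le_of_eq ?_) (enorm_add_le _ _)
        rw [sub_add_cancel]
      refine (pow_le_pow_left' h5 2).trans ((low_sq _ _).trans (le_of_eq ?_))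
      rw [mul_pow, mul_assoc]
    · rw [lintegral_add_left hem', lintegral_const_mul' 2 _ ENNReal.ofNat_ne_top, mul_assoc 2 K]
      gcongr
  rw [hun]
  refine (ENNReal.tsum_le_tsum h1).trans ?_
  rw [ENNReal.tsum_add, ← hun, ENNReal.tsum_mul_left, mul_assoc (2 * K)]
  refine add_le_add ?_ (mul_le_mul_right
    (low_cells hv hD hδ hs hs' hf (hu.meas.enorm.pow_const 2)) _)
  rw [lintegral_const_mul _ (hem.pow_const 2)]
  exact mul_le_mul_right (setLIntegral_le_lintegral _ _) _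

theorem low (D C₀ : ℝ) : ∃ C : ℝ≥0∞, C ≠ ⊤ ∧ ∀ v : ℂ → ℂ, (∀ x, ‖v x‖ = 1) → LipschitzWith 1 v →
    Dbl D v → ∀ a : ℝ, 0 < a → a ≤ 1 / 16 → ∀ (δ : ℝ) (κ : ℂ → ℂ), KC C₀ δ κ →
    ∀ (N : ℕ) (u : ℂ → ℂ), Nice u →
    ∑ k ∈ Finset.range N, ∫⁻ x in Lo v δ a k, ‖A v (hh (sc a k) (N - k)) (cv κ u) x‖ₑ ^ 2 ≤
      C * n2 u := by
  obtain ⟨B, hB⟩ := hh_four
  have hW := cW_ne_top
  refine ⟨2 * ENNReal.ofReal (2 * 5 ^ 5 * C₀) ^ 2 * (64 * cW ^ 2 * ENNReal.ofReal (40 * D ^ 3)) +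
    2 * (64 * (ENNReal.ofReal B * (ENNReal.ofReal C₀ * cW)) ^ 2) *
      ENNReal.ofReal (100 * (6 * D) ^ 4) * ENNReal.ofReal (40 * D ^ 3), by finiteness,
    fun v hu1 hv hD a ha ha' δ κ h N u hu => ?_⟩
  have hδ := h.d0
  have h4 : 0 < 4 * δ := by positivity
  have hL : ∀ z, ∑ k ∈ Finset.range N, rho (seg v (Lo v δ a k) (sc a k)) (4 * δ) z ^ 2 ≤
      ENNReal.ofReal (40 * D ^ 3) := fun z =>
    rho_sum hu1 hv hD ha ha' h4 (Ω := Lo v δ a) (fun k x hx => hx.1) (fun k x hx => by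
      rw [← sc_succ]
      exact hx.2 k (Nat.lt_succ_self k)) z N
  have hm : ∀ k, Measurable (rho (seg v (Lo v δ a k) (sc a k)) (4 * δ)) := fun k => meas_rho _ h4
  refine (Finset.sum_le_sum fun k _ => low_one h hv hD (meas_Lo hv.continuous δ a k) (sc_pos ha k)
    ((sc_le ha k).trans ha') (fun x hx => hx.1) (N - k) (hB _ (sc_pos ha k) _) hu).trans ?_
  have hm' : ∀ k ∈ Finset.range N, Measurable fun z =>
      rho (seg v (Lo v δ a k) (sc a k)) (4 * δ) z ^ 2 * ‖u z‖ₑ ^ 2 := fun k _ =>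
    ((hm k).pow_const 2).mul (hu.meas.enorm.pow_const 2)
  rw [Finset.sum_add_distrib, ← Finset.mul_sum, ← Finset.mul_sum, add_mul]
  refine add_le_add ((mul_le_mul_right
    (tail_sum (lip_two hv) ha (by linarith) hδ hm hL hu.meas.enorm) _).trans
      (mul_assoc _ _ _).ge) (le_trans (mul_le_mul_right ?_ _) (mul_assoc _ _ _).ge)
  rw [← lintegral_finsetSum _ hm', n2, ← lintegral_const_mul' _ _ ENNReal.ofReal_ne_top]
  refine lintegral_mono fun z => ?_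
  rw [← Finset.sum_mul]
  exact mul_le_mul_left (hL z) _

end Vale.Agent.P112
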