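import Vale.Agent.P112.High
import Vale.Agent.P112.Low

/-!
One band. `band_pt`: `A v (hh a N) F x = ∑ k ∈ Ico 0 N, A v (hh (sc a k) 1) F x` (`hh_sum`, `A_sumk`). If some `k < N` has `sc a k * om ≤ 4 δ` take the least one `k₀` (`Nat.find`): `x ∈ Lo v δ a k₀`,
split the sum at `k₀` (`Finset.sum_Ico_consecutive`), the upper part is `A v (hh (sc a k₀) (N - k₀)) F x`; each `k < k₀` has `x ∈ Hi v δ (sc a k) m` for some `m` (`mem_Hi`, `ENNReal.le_tsum`),
`Summable.tsum_finsetSum` / `ENNReal.tsum_comm`. Otherwise all `k < N` are of that kind. `band`: `Q_add`, `Q_disj`, `low`, `mink` with `high`, `dbl`, `kern`;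
`∑' m, C * ofReal (|c m| + dl m) ≠ ⊤` (`ENNReal.ofReal_tsum_of_nonneg`, `Summable.abs`, `summable_geometric_two`).
-/

open MeasureTheory Set Real Filter
open scoped FourierTransform RealInnerProductSpace ContDiff ENNReal NNReal Topology

noncomputable section

namespace Vale.Agent.P112

open Vale.Agent.P117 (cv Ker Nice Sm Np)

variable {f g u v F κ q M : ℂ → ℂ} {G : ℂ → ℝ≥0∞} {ϑ : ℝ → ℂ} {c : ℕ → ℝ} {Ω E : Set ℂ}
  {a r s t δ B C D R : ℝ} {x y z : ℂ}

theorem band_seg (ha : 0 < a) (hF : Nice F) (v : ℂ → ℂ) (k n : ℕ) (x : ℂ) :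
    A v (hh (sc a k) n) F x = ∑ i ∈ Finset.Ico k (k + n), A v (hh (sc a i) 1) F x := by
  have e : hh (sc a k) n = fun t => ∑ i ∈ Finset.Ico k (k + n), hh (sc a i) 1 t :=
    funext fun t => (hh_sum a k n t).symm
  rw [e, A_sumk (fun i => hh_tk (sc_pos ha i) 1) hF]

theorem band_hi (hδ : 0 < δ) (b : ℕ → ℂ → ℂ) {k N : ℕ} (hk : k ≤ N)
    (h : ∀ i < k, 4 * δ < sc a i * om v x (sc a i)) :
    ‖∑ i ∈ Finset.Ico 0 k, b i x‖ₑ ≤ ∑' m, ∑ i ∈ Finset.range N,
      (Hi v δ (sc a i) m).indicator (fun x => ‖b i x‖ₑ) x := by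
  rw [Summable.tsum_finsetSum fun _ _ => ENNReal.summable, ← Finset.range_eq_Ico]
  refine (enorm_sum_le _ _).trans (le_trans (Finset.sum_le_sum fun i hi => ?_)
    (Finset.sum_le_sum_of_subset (Finset.range_mono hk)))
  obtain ⟨m, hm⟩ := mem_Hi hδ (h i (Finset.mem_range.1 hi))
  refine le_trans (le_of_eq ?_) (ENNReal.le_tsum m)
  rw [indicator_of_mem hm]

theorem band_pt (hδ : 0 < δ) (ha : 0 < a) (hF : Nice F) (v : ℂ → ℂ) (N : ℕ) (x : ℂ) :
    ‖A v (hh a N) F x‖ₑ ≤ (∑ k ∈ Finset.range N, (Lo v δ a k).indicator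
      (fun x => ‖A v (hh (sc a k) (N - k)) F x‖ₑ) x) + ∑' m, ∑ k ∈ Finset.range N,
        (Hi v δ (sc a k) m).indicator (fun x => ‖A v (hh (sc a k) 1) F x‖ₑ) x := by
  have e0 : A v (hh a N) F x = ∑ i ∈ Finset.Ico 0 N, A v (hh (sc a i) 1) F x := by
    have := band_seg ha hF v 0 N x
    rwa [zero_add, sc, pow_zero, div_one] at this
  by_cases h : ∃ k, k < N ∧ sc a k * om v x (sc a k) ≤ 4 * δ
  · classical
    obtain ⟨h1, h2⟩ := Nat.find_spec h
    have h3 : ∀ i < Nat.find h, 4 * δ < sc a i * om v x (sc a i) := fun i hi =>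
      not_le.1 fun h' => Nat.find_min h hi ⟨hi.trans h1, h'⟩
    generalize Nat.find h = k at h1 h2 h3
    have e1 := band_seg ha hF v k (N - k) x
    rw [Nat.add_sub_cancel' h1.le] at e1
    rw [e0, ← Finset.sum_Ico_consecutive _ (Nat.zero_le k) h1.le, ← e1, add_comm]
    refine (enorm_add_le _ _).trans (add_le_add ?_
      (band_hi hδ (fun i => A v (hh (sc a i) 1) F) h1.le h3))
    have hx : x ∈ Lo v δ a k := ⟨h2, h3⟩
    refine le_trans (le_of_eq ?_) (Finset.single_le_sum (f := fun k => (Lo v δ a k).indicator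
      (fun x => ‖A v (hh (sc a k) (N - k)) F x‖ₑ) x) (fun _ _ => zero_le)
      (Finset.mem_range.2 h1))
    rw [indicator_of_mem hx]
  · rw [e0]
    exact le_add_left (band_hi hδ (fun i => A v (hh (sc a i) 1) F) le_rfl fun i hi =>
      not_le.1 fun h' => h ⟨i, hi, h'⟩)

theorem band (hc : Summable c) : ∃ C : ℝ≥0∞, C ≠ ⊤ ∧ ∀ v, Fld c v → ∀ a : ℝ, 0 < a →
    a ≤ 1 / 16 → ∀ (j N : ℕ) (u : ℂ → ℂ), Nice u → n2 (A v (hh a N) (P j u)) ≤ C * n2 u := by
  obtain ⟨D, hD⟩ := dbl hc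
  obtain ⟨C₀, hK⟩ := kern
  obtain ⟨Cl, hCl, Hl⟩ := low D C₀
  obtain ⟨Ch, hCh, Hh⟩ := high D
  have hs : Summable fun m => |c m| + dl m := by
    refine hc.abs.add (summable_geometric_two.congr fun m => ?_)
    rw [dl, one_div, inv_pow]
  have hE : ∑' m, Ch * ENNReal.ofReal (|c m| + dl m) ≠ ⊤ := by
    rw [ENNReal.tsum_mul_left, ← ENNReal.ofReal_tsum_of_nonneg
      (fun m => add_nonneg (abs_nonneg _) (dl_pos m).le) hs]
    exact ENNReal.mul_ne_top hCh ENNReal.ofReal_ne_top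
  refine ⟨2 * (Cl + (∑' m, Ch * ENNReal.ofReal (|c m| + dl m)) ^ 2),
    ENNReal.mul_ne_top (by simp) (ENNReal.add_ne_top.2 ⟨hCl, ENNReal.pow_ne_top hE⟩),
    fun v hv a ha ha' j N u hu => ?_⟩
  have hc' : Continuous v := hv.lip.continuous
  have hP : Nice (P j u) := (P_ker j hu).nice
  have hm : ∀ k n, Measurable fun x => ‖A v (hh (sc a k) n) (P j u) x‖ₑ := fun k n =>
    (meas_A hc' (hh_tk (sc_pos ha k) n).meas hP.meas).enorm
  have h1 : Q (fun x => ∑ k ∈ Finset.range N, (Lo v (dl j) a k).indicator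
      (fun x => ‖A v (hh (sc a k) (N - k)) (P j u) x‖ₑ) x) ≤ Cl * n2 u := by
    rw [Q_disj (meas_Lo hc' _ a) (Lo_disj v _ a) fun k => hm k (N - k)]
    exact Hl v hv.unit hv.lip (hD v hv) a ha ha' _ _ (hK j).1 N u hu
  have h2 : Q (fun x => ∑' m, ∑ k ∈ Finset.range N, (Hi v (dl j) (sc a k) m).indicator
      (fun x => ‖A v (hh (sc a k) 1) (P j u) x‖ₑ) x) ≤
      (∑' m, Ch * ENNReal.ofReal (|c m| + dl m)) ^ 2 * n2 u := by
    refine mink (fun m => Finset.measurable_sum _ fun k _ =>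
      (hm k 1).indicator (meas_Hi hc' _ _ m)) fun m => ?_
    rw [Q_disj (fun k => meas_Hi hc' _ _ m) (Hi_disj hc' ha _ m) fun k => hm k 1]
    exact Hh c v hv (hD v hv) a ha ha' j m N u hu
  have h3 := Q_add (Finset.measurable_sum (Finset.range N) fun k _ =>
    (hm k (N - k)).indicator (meas_Lo hc' (dl j) a k)) fun x => ∑' m, ∑ k ∈ Finset.range N,
      (Hi v (dl j) (sc a k) m).indicator (fun x => ‖A v (hh (sc a k) 1) (P j u) x‖ₑ) x
  refine le_trans (lintegral_mono fun x => pow_le_pow_left' (band_pt (dl_pos j) ha hP v N x) 2)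
    (h3.trans ?_)
  rw [mul_assoc, add_mul]
  exact mul_le_mul_right (add_le_add h1 h2) 2

end Vale.Agent.P112
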