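import Vale.Agent.P112.Off
import Vale.Agent.P112.Band

/-!
Assembly of the diagonal and off diagonal terms.
-/

open MeasureTheory Set Real Filter
open scoped FourierTransform RealInnerProductSpace ContDiff ENNReal NNReal Topology

noncomputable section

namespace Vale.Agent.P112

open Vale.Agent.P117 (cv Ker Nice Sm Np)

variable {f g u v F κ q M : ℂ → ℂ} {G : ℂ → ℝ≥0∞} {ϑ : ℝ → ℂ} {c : ℕ → ℝ} {Ω E : Set ℂ}
  {a r s t δ B C D R : ℝ} {x y z : ℂ}

theorem asm_half (α : ℕ → ℝ≥0∞) (T : Finset ℕ) :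
    ∑ j ∈ T, ∑ _i ∈ T.filter (fun i => ¬j + 3 ≤ i ∧ ¬i + 3 ≤ j), α j ≤ 5 * ∑ j ∈ T, α j := by
  rw [Finset.mul_sum]
  refine Finset.sum_le_sum fun j _ => ?_
  rw [Finset.sum_const, nsmul_eq_mul]
  gcongr
  have h : (T.filter (fun i => ¬j + 3 ≤ i ∧ ¬i + 3 ≤ j)).card ≤ 5 := by
    refine (Finset.card_le_card (t := Finset.Ico (j - 2) (j + 3)) fun i hi => ?_).trans ?_
    · simp only [Finset.mem_filter, Finset.mem_Ico] at hi ⊢
      omega
    · rw [Nat.card_Ico]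
      omega
  exact_mod_cast h

theorem asm_cnt (α β : ℕ → ℝ≥0∞) (T : Finset ℕ) :
    ∑ j ∈ T, ∑ i ∈ T.filter (fun i => ¬j + 3 ≤ i ∧ ¬i + 3 ≤ j), (α j + β i) ≤
      5 * ∑ j ∈ T, α j + 5 * ∑ j ∈ T, β j := by
  simp only [Finset.sum_add_distrib]
  refine add_le_add (asm_half α T) (le_trans (le_of_eq ?_) (asm_half β T))
  refine Finset.sum_comm' fun j i => ?_
  simp only [Finset.mem_filter]
  tauto

theorem asm_split (l : ℕ → ℕ → ℂ) (T : Finset ℕ) :
    ∑ j ∈ T, ∑ i ∈ T, l j i - ∑ j ∈ T, ∑ i ∈ T.filter (fun i => ¬j + 3 ≤ i ∧ ¬i + 3 ≤ j), l j i =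
      ∑ i ∈ T, ∑ j ∈ T.filter (fun j => j + 3 ≤ i), l j i +
        ∑ j ∈ T, ∑ i ∈ T.filter (fun i => i + 3 ≤ j), l j i := by
  simp only [Finset.sum_filter]
  rw [Finset.sum_comm (f := fun i j => if j + 3 ≤ i then l j i else 0), ← Finset.sum_add_distrib,
    ← Finset.sum_sub_distrib]
  refine Finset.sum_congr rfl fun j _ => ?_
  rw [← Finset.sum_add_distrib, ← Finset.sum_sub_distrib]
  refine Finset.sum_congr rfl fun i _ => ?_
  by_cases h1 : j + 3 ≤ i
  · have h2 : ¬i + 3 ≤ j := by omega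
    simp [h1, h2]
  · by_cases h2 : i + 3 ≤ j <;> simp [h1, h2]

theorem asm_time (ha : 0 < a) (ha' : a ≤ 1 / 16) (N : ℕ) {Z : ℝ → ℂ} {L : ℝ≥0∞}
    (h : ∀ t, t ≠ 0 → |t| ≤ 1 / 4 → ‖Z t‖ₑ ≤ ENNReal.ofReal |t| * L) :
    ‖∫ t, hh a N t * Z t‖ₑ ≤ L := by
  refine (enorm_integral_le_lintegral_enorm _).trans ?_
  have h1 : ∀ t, ‖hh a N t * Z t‖ₑ ≤ (Icc (-(1 / 4) : ℝ) (1 / 4)).indicator (fun _ => L) t := by
    intro t
    by_cases h0 : hh a N t = 0
    · simp [h0]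
    have ht : |t| ≤ 1 / 4 := by
      by_contra hc
      exact h0 ((hh_tk ha N).supp t (by linarith [not_le.1 hc]))
    have ht0 : t ≠ 0 := by
      rintro rfl
      exact h0 (by simp [hh])
    rw [indicator_of_mem (show t ∈ Icc (-(1 / 4) : ℝ) (1 / 4) from abs_le.1 ht), enorm_mul]
    refine (mul_le_mul_right (h t ht0 ht) _).trans ?_
    rw [← mul_assoc, ← ofReal_norm_eq_enorm, ← ENNReal.ofReal_mul (norm_nonneg _)]
    exact mul_le_of_le_one_left' (ENNReal.ofReal_le_one.2 (hh_mul_le a N t))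
  refine (lintegral_mono h1).trans ?_
  rw [lintegral_indicator_const measurableSet_Icc, Real.volume_Icc]
  exact mul_le_of_le_one_right' (ENNReal.ofReal_le_one.2 (by norm_num))

theorem asm (hc : Summable c) : ∃ C : ℝ≥0∞, C ≠ ⊤ ∧ ∀ v, Fld c v → ∀ a : ℝ, 0 < a →
    a ≤ 1 / 16 → ∀ (N J : ℕ) (f g : ℂ → ℂ), Nice f → Nice g →
    ‖∫ x, A v (hh a N) (S J f) x * S J g x‖ₑ ≤ C * (n2 f + n2 g) := by
  obtain ⟨C₁, h₁, H₁⟩ := band hc
  obtain ⟨C₂, h₂, H₂⟩ := off_up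
  obtain ⟨C₃, h₃, H₃⟩ := off_low
  refine ⟨45 * (C₁ + 1) + (C₂ + C₃), by finiteness, fun v hv a ha ha' N J f g hf hg => ?_⟩
  have hvc := hv.lip.continuous
  have hk := hh_tk ha N
  obtain ⟨u, hu, hPu, hsu⟩ := fat hf
  obtain ⟨w, hw, hPw, hsw⟩ := fat hg
  have nf := fun j => (P_ker j hf).nice
  have ng := fun j => (P_ker j hg).nice
  set T := Finset.range (J + 1) with hT
  have e1 : ∀ t, lam v t (S J f) (S J g) = ∑ j ∈ T, ∑ i ∈ T, lam v t (P j f) (P i g) := by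
    intro t
    rw [show S J f = fun z => ∑ j ∈ T, P j f z from funext (S_sum J hf),
      lam_sum_left hvc t nf (S_ker J hg).nice]
    refine Finset.sum_congr rfl fun j _ => ?_
    rw [show S J g = fun z => ∑ j ∈ T, P j g z from funext (S_sum J hg),
      lam_sum_right hvc t (nf j) ng]
  set Dg : ℝ → ℂ := fun t => ∑ j ∈ T, ∑ i ∈ T.filter (fun i => ¬j + 3 ≤ i ∧ ¬i + 3 ≤ j),
    hh a N t * lam v t (P j f) (P i g) with hDg
  have iD : ∀ j, Integrable fun t => ∑ i ∈ T.filter (fun i => ¬j + 3 ≤ i ∧ ¬i + 3 ≤ j),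
      hh a N t * lam v t (P j f) (P i g) := fun j =>
    integrable_finset_sum _ fun i _ => pair_int hvc hk (nf j) (ng i)
  have e2 : ∫ t, Dg t = ∑ j ∈ T, ∑ i ∈ T.filter (fun i => ¬j + 3 ≤ i ∧ ¬i + 3 ≤ j),
      ∫ x, A v (hh a N) (P j f) x * P i g x := by
    rw [hDg, integral_finset_sum _ fun j _ => iD j]
    refine Finset.sum_congr rfl fun j _ => ?_
    rw [integral_finset_sum _ fun i _ => pair_int hvc hk (nf j) (ng i)]
    exact Finset.sum_congr rfl fun i _ => (pair_eq hvc hk (nf j) (ng i)).symm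
  have b2 : ‖∫ t, Dg t‖ₑ ≤ 45 * (C₁ + 1) * (n2 f + n2 g) := by
    rw [e2]
    refine (enorm_sum_le _ _).trans ((Finset.sum_le_sum fun j _ => (enorm_sum_le _ _).trans
      (Finset.sum_le_sum (g := fun i => C₁ * n2 (u j) + n2 (w i)) fun i _ => ?_)).trans
      ((asm_cnt _ _ T).trans ?_))
    · refine (enorm_integral_le_lintegral_enorm _).trans ?_
      simp only [enorm_mul]
      refine (amgm (meas_A hvc hk.meas (nf j).meas).enorm _).trans (add_le_add ?_ ?_)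
      · rw [← hPu j]
        exact H₁ v hv a ha ha' j N _ (hu j)
      · rw [← hPw i]
        exact P_n2 i (hw i)
    · rw [← Finset.mul_sum]
      calc 5 * (C₁ * ∑ j ∈ T, n2 (u j)) + 5 * ∑ j ∈ T, n2 (w j)
          ≤ 5 * ((C₁ + 1) * (9 * n2 f)) + 5 * ((C₁ + 1) * (9 * n2 g)) := by
            gcongr
            · exact le_self_add
            · exact hsu T
            · exact (hsw T).trans (le_mul_of_one_le_left' le_add_self)
        _ = 45 * (C₁ + 1) * (n2 f + n2 g) := by ring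
  have b3 : ‖(∫ t, hh a N t * lam v t (S J f) (S J g)) - ∫ t, Dg t‖ₑ ≤
      (C₂ + C₃) * (n2 f + n2 g) := by
    rw [← integral_sub (pair_int hvc hk (S_ker J hf).nice (S_ker J hg).nice)
      (integrable_finset_sum _ fun j _ => iD j)]
    simp only [e1, ← Finset.mul_sum, ← mul_sub, asm_split]
    refine asm_time ha ha' N fun t ht0 ht => (enorm_add_le _ _).trans ?_
    have a1 := (enorm_sum_le _ _).trans ((Finset.sum_le_sum fun i _ => enorm_sum_le _ _).trans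
      (H₂ v (lip_two hv.lip) t ht f g hf hg (J + 1)))
    have a2 := (enorm_sum_le _ _).trans (H₃ v hv.lip t ht0 ht f g hf hg (J + 1))
    exact (add_le_add a1 a2).trans (le_of_eq (by ring))
  rw [pair_eq hvc hk (S_ker J hf).nice (S_ker J hg).nice, add_mul,
    ← add_sub_cancel (∫ t, Dg t) (∫ t, hh a N t * lam v t (S J f) (S J g))]
  exact (enorm_add_le _ _).trans (add_le_add b2 b3)

end Vale.Agent.P112
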