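import Vale.Agent.P112.Stmt
import Vale.Agent.P117.Plan
import Vale.Agent.P117.Schur

/-! Internal definitions for P112. FROZEN. See skeleton/P112/GUIDE.md. -/

open MeasureTheory Set Real Filter
open scoped FourierTransform RealInnerProductSpace ContDiff ENNReal Topology

noncomputable section

namespace Vale.Agent.P112

open Vale.Agent.P117 (cv Ker Nice Sm Np)

/-- the integral of the square -/
def Q (g : ℂ → ℝ≥0∞) : ℝ≥0∞ := ∫⁻ x, g x ^ 2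
/-- the square of the norm -/
def n2 (f : ℂ → ℂ) : ℝ≥0∞ := ∫⁻ x, ‖f x‖ₑ ^ 2
/-- admissible fields -/
structure Fld (c : ℕ → ℝ) (v : ℂ → ℂ) : Prop where
  unit : ∀ x, ‖v x‖ = 1
  lip : LipschitzWith 1 v
  sub : Sub (fun m => c m ^ 2) v
/-- the real weight at scale `δ` -/
def wr (N : ℕ) (δ : ℝ) (u : ℂ) : ℝ := (δ ^ 2 * (1 + ‖u‖ / δ) ^ N)⁻¹
/-- the weight at scale `δ` -/
def W (N : ℕ) (δ : ℝ) (u : ℂ) : ℝ≥0∞ := ENNReal.ofReal (wr N δ u)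
/-- convolution with the weight -/
def wv (N : ℕ) (δ : ℝ) (g : ℂ → ℝ≥0∞) (x : ℂ) : ℝ≥0∞ := ∫⁻ z, W N δ (x - z) * g z
/-- the mass of the weight -/
def cW : ℝ≥0∞ := ∫⁻ u, W 3 1 u
/-- kernels at scale `δ` -/
structure KC (C δ : ℝ) (κ : ℂ → ℂ) : Prop where
  C0 : 0 ≤ C
  d0 : 0 < δ
  ker : Ker κ
  sm : ContDiff ℝ 1 κ
  b0 : ∀ u, ‖κ u‖ ≤ C * wr 10 δ u
  b1 : ∀ u, ‖fderiv ℝ κ u‖ ≤ C / δ * wr 10 δ u
/-- dyadic lengths -/
def dl (j : ℕ) : ℝ := (2 ^ j)⁻¹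
/-- a bump in the plane -/
def bmp : ContDiffBump (0 : ℂ) := ⟨1, 2, one_pos, one_lt_two⟩
/-- low pass multiplier -/
def lp (j : ℕ) (ξ : ℂ) : ℂ := (bmp (dl j • ξ) : ℝ)
/-- band multiplier -/
def pm : ℕ → ℂ → ℂ
  | 0 => lp 0
  | j + 1 => fun ξ => lp (j + 1) ξ - lp j ξ
/-- band part -/
def P (j : ℕ) (f : ℂ → ℂ) : ℂ → ℂ := cv (𝓕⁻ (pm j)) f
/-- low part -/
def S (j : ℕ) (f : ℂ → ℂ) : ℂ → ℂ := cv (𝓕⁻ (lp j)) f
/-- integration along the field -/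
def A (v : ℂ → ℂ) (ϑ : ℝ → ℂ) (F : ℂ → ℂ) (x : ℂ) : ℂ := ∫ t : ℝ, ϑ t * F (x - t • v x)
/-- the pairing at a fixed time -/
def lam (u : ℂ → ℂ) (t : ℝ) (F G : ℂ → ℂ) : ℂ := ∫ x, F (x - t • u x) * G x
/-- a bump on the line -/
def bl : ContDiffBump (0 : ℝ) := ⟨1, 2, one_pos, one_lt_two⟩
/-- smooth truncation of `1 / t` to `s / 2 ^ N ≤ |t| ≤ 2 s` -/
def hh (s : ℝ) (N : ℕ) (t : ℝ) : ℂ := (((bl (t / s) - bl (2 ^ N * t / s)) / t : ℝ) : ℂ)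
/-- the scales -/
def sc (a : ℝ) (k : ℕ) : ℝ := a / 2 ^ k
/-- the variation of the field along its segment -/
def om (v : ℂ → ℂ) (x : ℂ) (s : ℝ) : ℝ :=
  sSup ((fun t : ℝ => ‖v (x + t • v x) - v x‖) '' Icc (-s) s)
/-- doubling -/
def Dbl (D : ℝ) (v : ℂ → ℂ) : Prop :=
  1 ≤ D ∧ ∀ x σ, 0 < σ → 2 * σ ≤ 1 → om v x (2 * σ) ≤ D * om v x σ
/-- the union of the segments -/
def seg (v : ℂ → ℂ) (Ω : Set ℂ) (s : ℝ) : Set ℂ :=
  {z | ∃ x ∈ Ω, ∃ t : ℝ, |t| ≤ 2 * s ∧ z = x - t • v x}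
/-- closeness to a set -/
def rho (E : Set ℂ) (r : ℝ) (z : ℂ) : ℝ≥0∞ := ⨆ a ∈ E, ENNReal.ofReal (1 + ‖a - z‖ / r)⁻¹
/-- the cell of the lattice -/
def cell (w : ℂ) : ℤ × ℤ := (⌊w.re⌋, ⌊w.im⌋)
/-- unit vectors -/
def ee (α : ℝ) : ℂ := Complex.exp (α * Complex.I)
/-- few points of `Ω` with direction close to `α` on each segment of direction `α` -/
def Thin (v : ℂ → ℂ) (Ω : Set ℂ) (s Δ θ : ℝ) : Prop := ∀ (α : ℝ) (z : ℂ),
  volume {σ : ℝ | |σ| ≤ s ∧ z - σ • ee α ∈ Ω ∧ |α - Complex.arg (v (z - σ • ee α))| ≤ Δ} ≤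
    ENNReal.ofReal (θ * s)
/-- the points of level `m` at scale `s` -/
def Hi (v : ℂ → ℂ) (δ s : ℝ) (m : ℕ) : Set ℂ :=
  {x | 2 ^ m * (4 * δ) < s * om v x s ∧ s * om v x s ≤ 2 ^ (m + 1) * (4 * δ)}
/-- the points whose first flat scale is `k` -/
def Lo (v : ℂ → ℂ) (δ a : ℝ) (k : ℕ) : Set ℂ :=
  {x | sc a k * om v x (sc a k) ≤ 4 * δ ∧ ∀ i < k, 4 * δ < sc a i * om v x (sc a i)}
/-- positive average along the segment -/
def av (v : ℂ → ℂ) (s : ℝ) (G : ℂ → ℝ≥0∞) (x : ℂ) : ℝ≥0∞ :=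
  ENNReal.ofReal s⁻¹ * ∫⁻ t in Icc (-(2 * s)) (2 * s), G (x - t • v x)
/-- a compactly supported kernel with mean zero -/
structure QK (C : ℝ) (q : ℂ → ℂ) : Prop where
  C0 : 0 ≤ C
  ker : Ker q
  supp : ∀ u, 1 ≤ ‖u‖ → q u = 0
  sm : ContDiff ℝ ∞ (𝓕 q)
  low : ∀ ξ : ℂ, 1 / 2 ≤ ‖ξ‖ → ‖ξ‖ ≤ 2 → 1 ≤ C * ‖𝓕 q ξ‖
  sq : ∀ (ξ : ℂ) (J : Finset ℕ), ∑ j ∈ J, ‖𝓕 q (dl j • ξ)‖ ^ 2 ≤ C
  l1 : ∫ u, ‖q u‖ ≤ C
/-- the rescaled kernel -/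
def qs (q : ℂ → ℂ) (j : ℕ) (u : ℂ) : ℂ := ((4 : ℝ) ^ j : ℝ) * q ((2 : ℝ) ^ j • u)
/-- time kernels -/
structure Tk (R : ℝ) (ϑ : ℝ → ℂ) : Prop where
  meas : Measurable ϑ
  int : Integrable ϑ
  supp : ∀ t, R < |t| → ϑ t = 0
/-- the Fourier transform of the basic time kernel -/
def psi : ℝ → ℂ := 𝓕 (hh 1 1)
/-- the multiplier in the direction `α` -/
def ma (s : ℝ) (M : ℂ → ℂ) (α : ℝ) (ξ : ℂ) : ℂ := psi (s * ⟪ee α, ξ⟫) * M ξ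
/-- its derivative in `α` -/
def mb (s : ℝ) (M : ℂ → ℂ) (α : ℝ) (ξ : ℂ) : ℂ :=
  ((s * ⟪Complex.I * ee α, ξ⟫ : ℝ) : ℂ) * deriv psi (s * ⟪ee α, ξ⟫) * M ξ
/-- the points whose direction is in a given cell -/
def Cel (v : ℂ → ℂ) (Ω : Set ℂ) (Δ : ℝ) (l : ℤ × ℤ) : Set ℂ := {x ∈ Ω | cell (v x / (Δ : ℂ)) = l}
/-- the corner of a cell -/
def cor (Δ : ℝ) (l : ℤ × ℤ) : ℂ := (Δ : ℂ) * ((l.1 : ℂ) + (l.2 : ℂ) * Complex.I)
/-- the sharp truncation of `1 / t` -/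
def kk (a ε : ℝ) : ℝ → ℂ := {t : ℝ | ε < |t| ∧ |t| < a}.indicator fun t => (t : ℂ)⁻¹

variable {f g : ℂ → ℂ} {v : ℂ → ℂ}

theorem n2_eq (f : ℂ → ℂ) : n2 f = Np volume 2 f := (P117.Np_two _ _).symm

theorem n2_fourier_le (hg : Integrable g) : n2 (𝓕 g) ≤ n2 g := by
  simpa only [n2_eq] using P117.planch hg

theorem n2_inv_le (hg : Integrable g) : n2 (𝓕⁻ g) ≤ n2 g := by
  simpa only [n2_eq] using P117.planch_inv hg

theorem dl_pos (j : ℕ) : 0 < dl j := by unfold dl; positivity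

theorem dl_le_one (j : ℕ) : dl j ≤ 1 := inv_le_one_of_one_le₀ (one_le_pow₀ one_le_two)

theorem dl_add (i j : ℕ) : dl (i + j) = dl i * dl j := by simp only [dl, pow_add, mul_inv]

theorem sc_pos {a : ℝ} (ha : 0 < a) (k : ℕ) : 0 < sc a k := by unfold sc; positivity

theorem sc_le {a : ℝ} (ha : 0 < a) (k : ℕ) : sc a k ≤ a :=
  div_le_self ha.le (one_le_pow₀ one_le_two)

theorem sc_succ (a : ℝ) (k : ℕ) : sc a k = 2 * sc a (k + 1) := by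
  simp only [sc, pow_succ]
  field_simp

theorem lip_two (h : LipschitzWith 1 v) : LipschitzWith 2 v := h.weaken (by norm_num)

theorem meas_W (N : ℕ) (δ : ℝ) : Measurable (W N δ) := by unfold W wr; fun_prop

theorem meas_wv (N : ℕ) (δ : ℝ) {G : ℂ → ℝ≥0∞} (hG : Measurable G) : Measurable (wv N δ G) :=
  Measurable.lintegral_prod_right (f := fun x z => W N δ (x - z) * G z)
    (((meas_W N δ).comp (measurable_fst.sub measurable_snd)).mul (hG.comp measurable_snd))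

theorem meas_A (hv : Continuous v) {ϑ : ℝ → ℂ} (hϑ : Measurable ϑ) {F : ℂ → ℂ}
    (hF : Measurable F) : Measurable (A v ϑ F) :=
  (StronglyMeasurable.integral_prod_right (f := fun x (t : ℝ) => ϑ t * F (x - t • v x))
    (Measurable.stronglyMeasurable ((hϑ.comp measurable_snd).mul (hF.comp
      (Continuous.measurable (by fun_prop)))))).measurable

theorem meas_av (hv : Continuous v) (s : ℝ) {G : ℂ → ℝ≥0∞} (hG : Measurable G) :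
    Measurable (av v s G) :=
  (Measurable.lintegral_prod_right (f := fun x (t : ℝ) => G (x - t • v x))
    (hG.comp (Continuous.measurable (by fun_prop)))).const_mul _

theorem meas_rho (E : Set ℂ) {r : ℝ} (hr : 0 < r) : Measurable (rho E r) :=
  (lowerSemicontinuous_biSup fun a _ => Continuous.lowerSemicontinuous
    (ENNReal.continuous_ofReal.comp (Continuous.inv₀ (by fun_prop) fun z => by positivity))).measurable

theorem le_rho {E : Set ℂ} {a : ℂ} (ha : a ∈ E) (r : ℝ) (z : ℂ) :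
    ENNReal.ofReal (1 + ‖a - z‖ / r)⁻¹ ≤ rho E r z :=
  le_iSup₂ (f := fun a (_ : a ∈ E) => ENNReal.ofReal (1 + ‖a - z‖ / r)⁻¹) a ha

theorem rho_le_one (E : Set ℂ) {r : ℝ} (hr : 0 < r) (z : ℂ) : rho E r z ≤ 1 :=
  iSup₂_le fun a _ => ENNReal.ofReal_le_one.2
    (inv_le_one_of_one_le₀ (le_add_of_nonneg_right (by positivity)))

theorem rho_mono {E E' : Set ℂ} (h : E ⊆ E') (r : ℝ) (z : ℂ) : rho E r z ≤ rho E' r z :=
  iSup₂_le fun _ ha => le_rho (h ha) r z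

theorem nice_indicator (hf : Nice f) {E : Set ℂ} (hE : MeasurableSet E) :
    Nice (E.indicator f) :=
  ⟨hf.meas.indicator hE, hf.int.indicator hE,
    let ⟨C, hC⟩ := hf.bdd; ⟨C, fun x => (norm_indicator_le_norm_self _ _).trans (hC x)⟩⟩

theorem nice_n2 (hf : Nice f) : n2 f ≠ ⊤ := by
  obtain ⟨C, hC⟩ := hf.bdd
  refine ne_top_of_le_ne_top (ENNReal.mul_ne_top (ENNReal.ofReal_ne_top (r := C)) hf.int.2.ne) ?_
  rw [← lintegral_const_mul _ hf.meas.enorm]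
  refine lintegral_mono fun x => ?_
  rw [sq]
  gcongr
  rw [← ofReal_norm_eq_enorm]
  exact ENNReal.ofReal_le_ofReal (hC x)

end Vale.Agent.P112
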