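import Vale.Agent.P112.Base

/-!
Maps `x ↦ x - t • u x` are bi-Lipschitz. `vol_pre`: `AntilipschitzWith.hausdorffMeasure_preimage_le` with `d = 2`;
`μH[2]` is an additive Haar measure on the plane (`isAddHaarMeasure_hausdorffMeasure`, `Complex.finrank_real_complex`),
so `volume = k • μH[2]` (`Measure.isAddLeftInvariant_eq_smul` or `isAddHaarMeasure_eq_smul`).
`comp_le`: the map is antilipschitz with constant 2, so `map Φ volume ≤ 4 • volume` (`Measure.le_iff`,
`lintegral_map`, `lintegral_mono'`, `lintegral_smul_measure`). `exists_inv`: for each `z` the map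
`x ↦ z + t • v x` is a contraction (`ContractingWith.fixedPoint`), call the fixed point `Ψ z`, `u z = - v (Ψ z)`;
`Ψ` is Lipschitz with constant 4/3.
-/

open MeasureTheory Set Real Filter
open scoped FourierTransform RealInnerProductSpace ContDiff ENNReal NNReal Topology

noncomputable section

namespace Vale.Agent.P112

open Vale.Agent.P117 (cv Ker Nice Sm Np)

variable {f g u v F κ q M : ℂ → ℂ} {G : ℂ → ℝ≥0∞} {ϑ : ℝ → ℂ} {c : ℕ → ℝ} {Ω E : Set ℂ}
  {a r s t δ B C D R : ℝ} {x y z : ℂ}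

theorem vol_pre {Φ : ℂ → ℂ} {K : ℝ≥0} (h : AntilipschitzWith K Φ) (E : Set ℂ) :
    volume (Φ ⁻¹' E) ≤ (K : ℝ≥0∞) ^ 2 * volume E := by
  have h1 := h.hausdorffMeasure_preimage_le (d := (Module.finrank ℝ ℂ : ℕ)) (Nat.cast_nonneg _) E
  rw [Measure.isAddLeftInvariant_eq_smul (volume : Measure ℂ)
    (Measure.hausdorffMeasure (Module.finrank ℝ ℂ : ℕ)), Measure.smul_apply, Measure.smul_apply,
    ENNReal.smul_def, ENNReal.smul_def, smul_eq_mul, smul_eq_mul, mul_left_comm]
  rw [ENNReal.rpow_natCast] at h1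
  exact mul_le_mul_right (h1.trans_eq (by rw [Complex.finrank_real_complex])) _

theorem bil_le {K : ℝ≥0} (hu : LipschitzWith K u) (ht : |t| ≤ 1 / 4) (x y : ℂ) :
    ‖t • u x - t • u y‖ ≤ K / 4 * ‖x - y‖ := by
  rw [← smul_sub, norm_smul, Real.norm_eq_abs]
  exact (mul_le_mul ht (hu.norm_sub_le x y) (norm_nonneg _) (by norm_num)).trans_eq (by ring)

theorem comp_le (hu : LipschitzWith 2 u) (ht : |t| ≤ 1 / 4) (hG : Measurable G) :
    ∫⁻ x, G (x - t • u x) ≤ 4 * ∫⁻ x, G x := by
  have h1 : AntilipschitzWith 2 fun x => x - t • u x := AntilipschitzWith.of_le_mul_dist fun x y => by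
    have h2 := bil_le hu ht x y
    have h3 := norm_add_le (x - t • u x - (y - t • u y)) (t • u x - t • u y)
    rw [show x - t • u x - (y - t • u y) + (t • u x - t • u y) = x - y by ring] at h3
    simp only [dist_eq_norm, NNReal.coe_ofNat] at h2 ⊢
    linarith
  have h2 : Measurable fun x => x - t • u x :=
    (continuous_id.sub (hu.continuous.const_smul t)).measurable
  rw [← lintegral_map hG h2, ← smul_eq_mul, ← lintegral_smul_measure]
  refine lintegral_mono' (Measure.le_iff.2 fun E hE => ?_) le_rfl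
  rw [Measure.map_apply h2 hE, Measure.smul_apply, smul_eq_mul]
  exact (vol_pre h1 E).trans_eq (by norm_num)

theorem Q_comp (hu : LipschitzWith 2 u) (ht : |t| ≤ 1 / 4) (hG : Measurable G) :
    Q (fun x => G (x - t • u x)) ≤ 4 * Q G :=
  comp_le (G := fun x => G x ^ 2) hu ht (hG.pow_const 2)

theorem exists_inv (hv : LipschitzWith 1 v) (ht : |t| ≤ 1 / 4) :
    ∃ u : ℂ → ℂ, LipschitzWith 2 u ∧ (∀ x, (x - t • v x) - t • u (x - t • v x) = x) ∧
      ∀ z, (z - t • u z) - t • v (z - t • u z) = z := by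
  have h1 : ∀ z, ContractingWith (1 / 4) fun x => z + t • v x := fun z =>
    ⟨by norm_num, LipschitzWith.of_dist_le_mul fun x y => by
      simpa [dist_eq_norm] using bil_le hv ht x y⟩
  have h2 : ∀ z, z + t • v ((h1 z).fixedPoint _) = (h1 z).fixedPoint _ := fun z =>
    (h1 z).fixedPoint_isFixedPt
  have h3 : ∀ z, z - t • -v ((h1 z).fixedPoint _) = (h1 z).fixedPoint _ := fun z => by
    rw [smul_neg, sub_neg_eq_add, h2]
  refine ⟨fun z => -v ((h1 z).fixedPoint _), LipschitzWith.of_dist_le_mul fun z w => ?_,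
    fun x => (h3 _).trans ((h1 _).fixedPoint_unique (sub_add_cancel _ _)).symm,
    fun z => by rw [h3, sub_eq_iff_eq_add, h2]⟩
  have h4 := h2 z
  have h5 := h2 w
  generalize (h1 z).fixedPoint _ = p at h4 ⊢
  generalize (h1 w).fixedPoint _ = p' at h5 ⊢
  have h6 := bil_le hv ht p p'
  have h7 := norm_add_le (z - w) (t • v p - t • v p')
  have h8 := hv.norm_sub_le p p'
  rw [show z - w + (t • v p - t • v p') = p - p' by linear_combination h4 - h5] at h7
  rw [dist_neg_neg]
  simp only [dist_eq_norm, NNReal.coe_ofNat, NNReal.coe_one] at h6 h8 ⊢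
  linarith [norm_nonneg (z - w)]

end Vale.Agent.P112
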