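import Vale.Agent.P112.Base

/-!
Layer cake formula for squares. Pointwise: `b ^ 2 = ∫⁻ l in Ioi 0, ofReal (2 l) * (if ofReal l < b then 1 else 0)` for `b : ℝ≥0∞`
(`b = ⊤`: the integral is at least `volume (Ioi 1) = ⊤`; else `setLIntegral` over `Ioo 0 b.toReal`, `ofReal_integral_eq_lintegral_ofReal`, `integral_id`),
then `lintegral_lintegral_swap` with the weight `w`.
-/

open MeasureTheory Set Real Filter
open scoped FourierTransform RealInnerProductSpace ContDiff ENNReal NNReal Topology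

noncomputable section

namespace Vale.Agent.P112

open Vale.Agent.P117 (cv Ker Nice Sm Np)

variable {f g u v F κ q M : ℂ → ℂ} {G : ℂ → ℝ≥0∞} {ϑ : ℝ → ℂ} {c : ℕ → ℝ} {Ω E : Set ℂ}
  {a r s t δ B C D R : ℝ} {x y z : ℂ}

theorem cake_meas (b : ℝ≥0∞) : MeasurableSet {l : ℝ | ENNReal.ofReal l < b} :=
  measurableSet_lt ENNReal.measurable_ofReal measurable_const

theorem cake_gen {F w : ℂ → ℝ≥0∞} (hF : Measurable F) (hw : Measurable w) {k : ℝ → ℝ≥0∞}
    (hk : Measurable k) {K : ℝ≥0∞ → ℝ≥0∞}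
    (h : ∀ b, K b = ∫⁻ l in Ioi (0 : ℝ), {l : ℝ | ENNReal.ofReal l < b}.indicator k l) :
    ∫⁻ x, K (F x) * w x =
      ∫⁻ l in Ioi (0 : ℝ), k l * ∫⁻ x in {x | ENNReal.ofReal l < F x}, w x := by
  have hm : Measurable (Function.uncurry fun (x : ℂ) (l : ℝ) =>
      {p : ℂ × ℝ | ENNReal.ofReal p.2 < F p.1}.indicator (fun p => k p.2 * w p.1) (x, l)) :=
    ((hk.comp measurable_snd).mul (hw.comp measurable_fst)).indicator
      (measurableSet_lt (ENNReal.measurable_ofReal.comp measurable_snd) (hF.comp measurable_fst))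
  refine Eq.trans (lintegral_congr fun x => ?_) ((lintegral_lintegral_swap
    (ν := volume.restrict (Ioi (0 : ℝ))) hm.aemeasurable).trans (lintegral_congr fun l => ?_))
  · rw [h, ← lintegral_mul_const _ (hk.indicator (cake_meas _))]
    refine lintegral_congr fun l => ?_
    by_cases e : ENNReal.ofReal l < F x <;> simp [indicator, e]
  · have hs : MeasurableSet {x | ENNReal.ofReal l < F x} := measurableSet_lt measurable_const hF
    rw [← lintegral_indicator hs, ← lintegral_const_mul _ (hw.indicator hs)]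
    refine lintegral_congr fun x => ?_
    by_cases e : ENNReal.ofReal l < F x <;> simp [indicator, e]

theorem cake_fin {t : ℝ} (k : ℝ → ℝ≥0∞) :
    ∫⁻ l in Ioi (0 : ℝ), {l : ℝ | ENNReal.ofReal l < ENNReal.ofReal t}.indicator k l =
      ∫⁻ l in Ioo (0 : ℝ) t, k l := by
  rw [lintegral_indicator (cake_meas _), Measure.restrict_restrict (cake_meas _)]
  congr 2
  ext l
  exact ⟨fun h => ⟨h.2, (ENNReal.ofReal_lt_ofReal_iff_of_nonneg (le_of_lt h.2)).1 h.1⟩,
    fun h => ⟨(ENNReal.ofReal_lt_ofReal_iff_of_nonneg h.1.le).2 h.2, h.1⟩⟩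

theorem cake_top (k : ℝ → ℝ≥0∞) (h : ∀ l, 1 < l → 1 ≤ k l) :
    ∫⁻ l in Ioi (0 : ℝ), {l : ℝ | ENNReal.ofReal l < ⊤}.indicator k l = ⊤ := by
  simp only [ENNReal.ofReal_lt_top, ofPred_true, indicator_univ]
  refine top_le_iff.1 (le_trans ?_ (lintegral_mono_set (Ioi_subset_Ioi zero_le_one)))
  refine le_trans (le_of_eq ?_) (setLIntegral_mono' measurableSet_Ioi fun l hl => h l hl)
  rw [setLIntegral_one, Real.volume_Ioi]

theorem cake {F w : ℂ → ℝ≥0∞} (hF : Measurable F) (hw : Measurable w) :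
    ∫⁻ x, F x ^ 2 * w x =
      ∫⁻ l in Ioi (0 : ℝ), ENNReal.ofReal (2 * l) * ∫⁻ x in {x | ENNReal.ofReal l < F x}, w x := by
  refine cake_gen hF hw (k := fun l => ENNReal.ofReal (2 * l))
    (ENNReal.measurable_ofReal.comp (measurable_const_mul 2)) (K := fun b => b ^ 2) fun b => ?_
  induction b using ENNReal.recTopCoe with
  | top =>
    rw [cake_top _ fun l hl => ENNReal.one_le_ofReal.2 (by linarith)]
    simp
  | coe t =>
    have i : IntegrableOn (fun l : ℝ => 2 * l) (Ioo 0 t) :=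
      ((by fun_prop : Continuous fun l : ℝ => 2 * l).integrableOn_Icc).mono_set Ioo_subset_Icc_self
    have n : 0 ≤ᵐ[volume.restrict (Ioo (0 : ℝ) t)] fun l : ℝ => 2 * l := by
      filter_upwards [ae_restrict_mem measurableSet_Ioo] with l hl
      exact mul_nonneg zero_le_two hl.1.le
    rw [← ENNReal.ofReal_coe_nnreal, cake_fin, ← ENNReal.ofReal_pow t.coe_nonneg]
    refine Eq.trans ?_ (ofReal_integral_eq_lintegral_ofReal i n)
    rw [← integral_Ioc_eq_integral_Ioo, ← intervalIntegral.integral_of_le t.coe_nonneg,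
      intervalIntegral.integral_const_mul, integral_id]
    congr 1
    ring

theorem cake1 {F w : ℂ → ℝ≥0∞} (hF : Measurable F) (hw : Measurable w) :
    ∫⁻ x, F x * w x = ∫⁻ l in Ioi (0 : ℝ), ∫⁻ x in {x | ENNReal.ofReal l < F x}, w x := by
  have e := cake_gen hF hw (k := fun _ => 1) measurable_const (K := fun b => b) fun b => by
    induction b using ENNReal.recTopCoe with
    | top => rw [cake_top _ fun _ _ => le_rfl]
    | coe t =>
      rw [← ENNReal.ofReal_coe_nnreal, cake_fin, setLIntegral_one, Real.volume_Ioo, sub_zero]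
  simpa only [one_mul] using e

end Vale.Agent.P112
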