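import Vale.Agent.P112.Rep
import Vale.Agent.P112.Cake

/-!
Carleson embedding for a bounded symbol. `car_sq`: for nice `b` the function `y ↦ ∫ z, qs q j (z - y) * b z` is `cv (fun p => qs q j (-p)) b`, nice, with transform `𝓕 q (dl j • (-ξ)) * 𝓕 b ξ`; `plan_eq`, `hq.sq`.
`car`: `cake` on both sides (`w = 1` on the right), `lintegral_finset_sum`; fix `l`, `O = {x | ofReal l < N x}`. If `volume O = ⊤` the right side is `⊤` (`0 < C` from `hq.low`). Else `b = O.indicator β` is nice;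
for `ofReal l < h j y` the ball of radius `dl j` about `y` is inside `O`, so `β` can be replaced by `b` (`qs_supp`); `n2 b ≤ ofReal (B ^ 2) * volume O`.
-/

open MeasureTheory Set Real Filter
open scoped FourierTransform RealInnerProductSpace ContDiff ENNReal NNReal Topology

noncomputable section

namespace Vale.Agent.P112

open Vale.Agent.P117 (cv Ker Nice Sm Np)

variable {f g u v F κ q M : ℂ → ℂ} {G : ℂ → ℝ≥0∞} {ϑ : ℝ → ℂ} {c : ℕ → ℝ} {Ω E : Set ℂ}
  {a r s t δ B C D R : ℝ} {x y z : ℂ}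

theorem car_neg (h : Ker κ) : Ker fun p => κ (-p) :=
  ⟨h.cont.comp continuous_neg, h.int.comp_neg, let ⟨B, hB⟩ := h.bdd; ⟨B, fun _ => hB _⟩⟩

theorem car_four (κ : ℂ → ℂ) (ξ : ℂ) : 𝓕 (fun p => κ (-p)) ξ = 𝓕 κ (-ξ) := by
  rw [← Real.fourierInv_eq_fourier_comp_neg, Real.fourierInv_eq_fourier_neg]

theorem car_sum {X : Type} [MeasurableSpace X] (μ : Measure X) (J : Finset ℕ)
    (F : ℕ → X → ℝ≥0∞) : ∑ j ∈ J, ∫⁻ a, F j a ∂μ ≤ ∫⁻ a, ∑ j ∈ J, F j a ∂μ := by
  induction J using Finset.induction_on with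
  | empty => simp
  | insert j J hj ih =>
    simp only [Finset.sum_insert hj]
    exact (add_le_add le_rfl ih).trans (le_lintegral_add _ _)

theorem car_en (w : ℂ) : ‖w‖ₑ ^ 2 = ENNReal.ofReal (‖w‖ ^ 2) := by
  rw [ENNReal.ofReal_pow (norm_nonneg _), ofReal_norm]

theorem car_sq (hq : QK C q) (hg : Nice g) (J : Finset ℕ) :
    ∑ j ∈ J, n2 (fun y => ∫ z, qs q j (z - y) * g z) ≤ ENNReal.ofReal C * n2 g := by
  have e : ∀ j, n2 (fun y => ∫ z, qs q j (z - y) * g z) =
      ∫⁻ ξ, ‖𝓕 q (dl j • -ξ)‖ₑ ^ 2 * ‖𝓕 g ξ‖ₑ ^ 2 := fun j => by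
    have k := car_neg (qs_ker hq.ker j)
    have e1 : (fun y => ∫ z, qs q j (z - y) * g z) = cv (fun p => qs q j (-p)) g := by
      funext y
      simp only [cv, neg_sub]
    rw [e1, ← plan_eq (P117.cv_nice k.nice hg)]
    refine lintegral_congr fun ξ => ?_
    rw [P117.fourier_cv k.int hg.int, car_four, qs_four, enorm_mul, mul_pow]
  simp only [e]
  refine (car_sum _ _ _).trans (le_trans ?_ (mul_le_mul_right (n2_fourier_le hg.int) _))
  rw [n2, ← lintegral_const_mul' _ _ ENNReal.ofReal_ne_top]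
  refine lintegral_mono fun ξ => ?_
  rw [← Finset.sum_mul]
  refine mul_le_mul_left ?_ _
  simp only [car_en]
  rw [← ENNReal.ofReal_sum_of_nonneg fun j _ => sq_nonneg _]
  exact ENNReal.ofReal_le_ofReal (hq.sq _ J)

theorem car_meas (hq : QK C q) (hg : Measurable g) (j : ℕ) :
    Measurable fun y => ∫ z, qs q j (z - y) * g z := by
  exact (StronglyMeasurable.integral_prod_right (f := fun y z => qs q j (z - y) * g z)
    (Measurable.stronglyMeasurable (((qs_ker hq.ker j).cont.measurable.comp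
      (measurable_snd.sub measurable_fst)).mul (hg.comp measurable_snd)))).measurable

theorem car_lvl (hq : QK C q) {β : ℂ → ℝ} (hβ : Measurable β) (hB0 : 0 < B) (hB : ∀ z, |β z| ≤ B)
    {h : ℕ → ℂ → ℝ≥0∞} (hh : ∀ j, Measurable (h j)) {N : ℂ → ℝ≥0∞} (hN : Measurable N)
    (J : Finset ℕ) (hle : ∀ j ∈ J, ∀ y x, ‖x - y‖ < dl j → h j y ≤ N x) (τ : ℝ≥0∞) :
    ∑ j ∈ J, ∫⁻ y in {y | τ < h j y}, ‖∫ z, qs q j (z - y) * (β z : ℂ)‖ₑ ^ 2 ≤
      ENNReal.ofReal (C * B ^ 2) * volume {x | τ < N x} := by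
  have hO : MeasurableSet {x | τ < N x} := measurableSet_lt measurable_const hN
  have hC : 0 < C := by
    have k := hq.low 1 (by norm_num) (by norm_num)
    refine hq.C0.lt_of_ne fun e => ?_
    rw [← e, zero_mul] at k
    linarith
  by_cases hv : volume {x | τ < N x} = ⊤
  · rw [hv, ENNReal.mul_top (ENNReal.ofReal_pos.2 (by positivity)).ne']
    exact le_top
  have mβ : Measurable fun z => (β z : ℂ) := Complex.measurable_ofReal.comp hβ
  have nβ : ∀ z, ‖(β z : ℂ)‖ ≤ B := fun z => by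
    rw [Complex.norm_real]
    exact hB z
  have hb : Nice ({x | τ < N x}.indicator fun z => (β z : ℂ)) :=
    ⟨mβ.indicator hO, (integrable_indicator_iff hO).2 (Measure.integrableOn_of_bounded hv
      mβ.aestronglyMeasurable (Eventually.of_forall nβ)),
      B, fun z => (norm_indicator_le_norm_self _ _).trans (nβ z)⟩
  have h2 : n2 ({x | τ < N x}.indicator fun z => (β z : ℂ)) ≤
      ENNReal.ofReal (B ^ 2) * volume {x | τ < N x} := by
    rw [← setLIntegral_const, ← lintegral_indicator hO]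
    refine lintegral_mono fun z => ?_
    by_cases hz : z ∈ {x | τ < N x}
    · rw [indicator_of_mem hz, indicator_of_mem hz, car_en]
      exact ENNReal.ofReal_le_ofReal (pow_le_pow_left₀ (norm_nonneg _) (nβ z) 2)
    · rw [indicator_of_notMem hz]
      simp
  rw [ENNReal.ofReal_mul hq.C0, mul_assoc]
  refine le_trans (Finset.sum_le_sum fun j hj => ?_)
    ((car_sq hq hb J).trans (mul_le_mul_right h2 _))
  refine le_trans (le_of_eq (setLIntegral_congr_fun (measurableSet_lt measurable_const (hh j))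
    fun y hy => ?_)) (setLIntegral_le_lintegral _ _)
  refine congrArg (fun w : ℂ => ‖w‖ₑ ^ 2) (integral_congr_ae (Eventually.of_forall fun z => ?_))
  by_cases hz : ‖z - y‖ < dl j
  · have k : z ∈ {x | τ < N x} := lt_of_lt_of_le hy (hle j hj y z hz)
    simp only [indicator_of_mem k]
  · simp only [qs_supp hq (not_lt.1 hz), zero_mul]

theorem car (hq : QK C q) {β : ℂ → ℝ} (hβ : Measurable β) (hB0 : 0 < B) (hB : ∀ z, |β z| ≤ B)
    {h : ℕ → ℂ → ℝ≥0∞} (hh : ∀ j, Measurable (h j)) {N : ℂ → ℝ≥0∞} (hN : Measurable N)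
    (J : Finset ℕ) (hle : ∀ j ∈ J, ∀ y x, ‖x - y‖ < dl j → h j y ≤ N x) :
    ∑ j ∈ J, Q (fun y => h j y * ‖∫ z, qs q j (z - y) * (β z : ℂ)‖ₑ) ≤
      ENNReal.ofReal (C * B ^ 2) * Q N := by
  have mβ : Measurable fun z => (β z : ℂ) := Complex.measurable_ofReal.comp hβ
  have e1 : ∀ j, Q (fun y => h j y * ‖∫ z, qs q j (z - y) * (β z : ℂ)‖ₑ) =
      ∫⁻ l in Ioi (0 : ℝ), ENNReal.ofReal (2 * l) * ∫⁻ y in {y | ENNReal.ofReal l < h j y},
        ‖∫ z, qs q j (z - y) * (β z : ℂ)‖ₑ ^ 2 := fun j => by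
    rw [← cake (hh j) ((car_meas hq mβ j).enorm.pow_const 2)]
    exact lintegral_congr fun y => mul_pow _ _ _
  have e2 : Q N = ∫⁻ l in Ioi (0 : ℝ), ENNReal.ofReal (2 * l) *
      volume {x | ENNReal.ofReal l < N x} := by
    have k := cake (w := fun _ => 1) hN measurable_const
    simpa only [Q, mul_one, setLIntegral_one] using k
  simp only [e1]
  rw [e2, ← lintegral_const_mul' _ _ ENNReal.ofReal_ne_top]
  refine (car_sum _ _ _).trans (lintegral_mono fun l => ?_)
  rw [← Finset.mul_sum, mul_left_comm]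
  exact mul_le_mul_right (car_lvl hq hβ hB0 hB hh hN J hle _) _

end Vale.Agent.P112
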