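import Vale.Agent.P112.HH

/-!
`kk_split`: `N` least with `a / 2 ^ N ≤ ε`, so `N ≥ 1` and `ε < 2 σ`, `σ = a / 2 ^ N`, `2 σ ≤ a`. `ρ = kk - hh a N` vanishes for `|t| ≤ σ`, for `2 σ ≤ |t| < a` and for `2 a ≤ |t|`; it is at most `2 / σ` on
`|t| ≤ 2 σ` and `1 / a` on `a ≤ |t| ≤ 2 a` (`hh_mul_le`), so `‖ρ t‖ ≤ (Icc (-2σ) (2σ)).indicator (2/σ) t + (Icc (-2a) (2a)).indicator (1/a) t`, integral `≤ 12`.
`trunc_lim`: with `w = v x`, `trunc = ∫ t in the set, (f (x - t • w) - f x) / t` since `∫ 1 / t = 0` on the symmetric set (`integral_neg_eq_self` for the indicator); the integrand is bounded by `K ‖w‖`;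
`tendsto_integral_filter_of_dominated_convergence` for the indicators, limit `∫ t in {0 < |t| < a}`.
-/

open MeasureTheory Set Real Filter
open scoped FourierTransform RealInnerProductSpace ContDiff ENNReal NNReal Topology

noncomputable section

namespace Vale.Agent.P112

open Vale.Agent.P117 (cv Ker Nice Sm Np)

variable {f g u v F κ q M : ℂ → ℂ} {G : ℂ → ℝ≥0∞} {ϑ : ℝ → ℂ} {c : ℕ → ℝ} {Ω E : Set ℂ}
  {a r s t δ B C D R : ℝ} {x y z : ℂ}

theorem cut_meas (a ε : ℝ) : MeasurableSet {t : ℝ | ε < |t| ∧ |t| < a} :=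
  (measurableSet_lt measurable_const measurable_id.abs).inter
    (measurableSet_lt measurable_id.abs measurable_const)

theorem cut_fin (a ε : ℝ) : volume {t : ℝ | ε < |t| ∧ |t| < a} ≠ ⊤ :=
  ne_top_of_le_ne_top (measure_Icc_lt_top (a := -a) (b := a)).ne
    (measure_mono fun _ ht => abs_le.1 ht.2.le)

theorem cut_mul_le (a ε t : ℝ) : ‖kk a ε t‖ * |t| ≤ 1 := by
  unfold kk
  by_cases h : t ∈ {t : ℝ | ε < |t| ∧ |t| < a}
  · rw [indicator_of_mem h, norm_inv, Complex.norm_real, Real.norm_eq_abs]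
    exact inv_mul_le_one
  · rw [indicator_of_notMem h]
    simp

theorem kk_tk {ε : ℝ} (hε : 0 < ε) (a : ℝ) : Tk a (kk a ε) := by
  have hm : Measurable fun t : ℝ => (t : ℂ)⁻¹ := Complex.measurable_ofReal.inv
  refine ⟨hm.indicator (cut_meas a ε), (integrable_indicator_iff (cut_meas a ε)).2
    (Measure.integrableOn_of_bounded (M := ε⁻¹) (cut_fin a ε) hm.aestronglyMeasurable ?_),
    fun t ht => indicator_of_notMem (fun h => lt_asymm ht h.2) _⟩
  refine (ae_restrict_iff' (cut_meas a ε)).2 (Eventually.of_forall fun t ht => ?_)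
  rw [norm_inv, Complex.norm_real, Real.norm_eq_abs]
  exact inv_anti₀ hε ht.1.le

theorem trunc_eq (v : ℂ → ℂ) (a ε : ℝ) (f : ℂ → ℂ) : trunc v a ε f = A v (kk a ε) f := by
  funext x
  unfold trunc A kk
  rw [← integral_indicator (cut_meas a ε)]
  refine integral_congr_ae (Eventually.of_forall fun t => ?_)
  by_cases h : t ∈ {t : ℝ | ε < |t| ∧ |t| < a}
  · simp only [indicator_of_mem h]
    rw [div_eq_inv_mul]
  · simp only [indicator_of_notMem h, zero_mul]

theorem cut_one {t : ℝ} (h : |t| ≤ 1) : bl t = 1 :=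
  bl.one_of_mem_closedBall (by simpa [bl] using h)

theorem cut_zero {t : ℝ} (h : 2 ≤ |t|) : bl t = 0 :=
  bl.zero_of_le_dist (by simpa [bl] using h)

theorem kk_split {ε : ℝ} (hε : 0 < ε) (ha : ε < a) : ∃ (N : ℕ) (ρ : ℝ → ℂ), Tk (2 * a) ρ ∧
    ∫ t, ‖ρ t‖ ≤ 12 ∧ kk a ε = fun t => hh a N t + ρ t := by
  have ha0 : 0 < a := hε.trans ha
  have hex : ∃ N : ℕ, sc a N ≤ ε := by
    obtain ⟨N, hN⟩ := pow_unbounded_of_one_lt (a / ε) (one_lt_two (α := ℝ))
    refine ⟨N, ?_⟩
    rw [div_lt_iff₀ hε] at hN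
    unfold sc
    rw [div_le_iff₀ (by positivity)]
    linarith
  classical
  have h1 := Nat.find_spec hex
  have h0 : Nat.find hex ≠ 0 := fun h => by
    rw [h] at h1
    simp only [sc, pow_zero, div_one] at h1
    linarith
  obtain ⟨m, hm⟩ := Nat.exists_eq_succ_of_ne_zero h0
  have h2 : ε < sc a m := not_le.1 (Nat.find_min hex (by omega))
  have h3 : sc a m ≤ a := sc_le ha0 m
  rw [hm] at h1
  rw [sc_succ] at h2 h3
  have hσ := sc_pos ha0 (m + 1)
  have hdiv : ∀ t : ℝ, |2 ^ (m + 1) * t / a| = |t| / sc a (m + 1) := fun t => by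
    unfold sc
    rw [abs_div, abs_mul, abs_of_pos ha0, abs_of_pos (by positivity : (0 : ℝ) < 2 ^ (m + 1))]
    field_simp
  have hdiv' : ∀ t : ℝ, |t / a| = |t| / a := fun t => by rw [abs_div, abs_of_pos ha0]
  change sc a (m + 1) ≤ ε at h1
  generalize sc a (m + 1) = σ at h1 h2 h3 hσ hdiv
  have tk := kk_tk hε a
  have th := hh_tk ha0 (m + 1)
  refine ⟨m + 1, fun t => kk a ε t - hh a (m + 1) t, ⟨tk.meas.sub th.meas, tk.int.sub th.int,
    fun t ht => by rw [tk.supp t (by linarith), th.supp t ht, sub_zero]⟩, ?_,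
    funext fun t => by ring⟩
  have i1 : Integrable ((Icc (-(2 * σ)) (2 * σ)).indicator fun _ : ℝ => 2 / σ) :=
    (integrable_indicator_iff measurableSet_Icc).2 (integrableOn_const measure_Icc_lt_top.ne)
  have i2 : Integrable ((Icc (-(2 * a)) (2 * a)).indicator fun _ : ℝ => 1 / a) :=
    (integrable_indicator_iff measurableSet_Icc).2 (integrableOn_const measure_Icc_lt_top.ne)
  refine (integral_mono (tk.int.sub th.int).norm (i1.add i2) fun t => ?_).trans (le_of_eq ?_)
  · have n1 : 0 ≤ (Icc (-(2 * σ)) (2 * σ)).indicator (fun _ : ℝ => 2 / σ) t :=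
      indicator_nonneg (fun _ _ => by positivity) t
    have n2 : 0 ≤ (Icc (-(2 * a)) (2 * a)).indicator (fun _ : ℝ => 1 / a) t :=
      indicator_nonneg (fun _ _ => by positivity) t
    have b1 := cut_mul_le a ε t
    have b2 := hh_mul_le a (m + 1) t
    have p1 := norm_nonneg (kk a ε t)
    have p2 := norm_nonneg (hh a (m + 1) t)
    change ‖kk a ε t - hh a (m + 1) t‖ ≤ _ + _
    rcases le_or_gt |t| σ with c1 | c1
    · have e1 : kk a ε t = 0 := indicator_of_notMem (fun h => by linarith [h.1]) _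
      have e2 : hh a (m + 1) t = 0 := by
        unfold hh
        rw [cut_one (by rw [hdiv', div_le_one ha0]; linarith),
          cut_one (by rw [hdiv, div_le_one hσ]; exact c1)]
        simp
      rw [e1, e2, sub_zero, norm_zero]
      exact add_nonneg n1 n2
    rcases le_or_gt |t| (2 * σ) with c2 | c2
    · rw [indicator_of_mem (mem_Icc.2 (abs_le.1 c2))]
      refine (norm_sub_le _ _).trans (le_add_of_le_of_nonneg ?_ n2)
      rw [le_div_iff₀ hσ]
      nlinarith
    rcases lt_or_ge |t| a with c3 | c3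
    · have e1 : kk a ε t = (t : ℂ)⁻¹ := indicator_of_mem
        (show t ∈ {t : ℝ | ε < |t| ∧ |t| < a} from ⟨by linarith, c3⟩) _
      have e2 : hh a (m + 1) t = (t : ℂ)⁻¹ := by
        unfold hh
        rw [cut_one (by rw [hdiv', div_le_one ha0]; linarith),
          cut_zero (by rw [hdiv, le_div_iff₀ hσ]; linarith)]
        simp
      rw [e1, e2, sub_self, norm_zero]
      exact add_nonneg n1 n2
    have e1 : kk a ε t = 0 := indicator_of_notMem (fun h => by linarith [h.2]) _
    rw [e1, zero_sub, norm_neg]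
    rcases le_or_gt |t| (2 * a) with c4 | c4
    · rw [indicator_of_mem (mem_Icc.2 (abs_le.1 c4)) fun _ : ℝ => 1 / a]
      refine le_add_of_nonneg_of_le n1 ?_
      rw [le_div_iff₀ ha0]
      nlinarith
    · rw [th.supp t c4, norm_zero]
      exact add_nonneg n1 n2
  · rw [integral_add' i1 i2, integral_indicator measurableSet_Icc,
      integral_indicator measurableSet_Icc, setIntegral_const, setIntegral_const,
      Real.volume_real_Icc_of_le (by linarith), Real.volume_real_Icc_of_le (by linarith),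
      smul_eq_mul, smul_eq_mul]
    field_simp
    ring

theorem trunc_lim {K : ℝ≥0} (hf : LipschitzWith K f) (v : ℂ → ℂ) (a : ℝ) (x : ℂ) :
    Tendsto (fun ε => trunc v a ε f x) (𝓝[>] 0) (𝓝 (hil v a f x)) := by
  have hc := hf.continuous
  have hm : Measurable fun t : ℝ => (f (x - t • v x) - f x) / (t : ℂ) :=
    (Continuous.measurable (by fun_prop)).div Complex.measurable_ofReal
  have hb : ∀ t : ℝ, ‖(f (x - t • v x) - f x) / (t : ℂ)‖ ≤ K * ‖v x‖ := fun t => by
    have h := hf.dist_le_mul (x - t • v x) x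
    rw [dist_eq_norm, dist_eq_norm, sub_sub_cancel_left, norm_neg, norm_smul] at h
    rw [norm_div, Complex.norm_real]
    refine div_le_of_le_mul₀ (norm_nonneg _) (by positivity) (h.trans (le_of_eq ?_))
    ring
  have key : ∀ ε : ℝ, 0 < ε → trunc v a ε f x = ∫ t, {t : ℝ | ε < |t| ∧ |t| < a}.indicator
      (fun t : ℝ => (f (x - t • v x) - f x) / (t : ℂ)) t := fun ε hε => by
    have h0 : ∫ t, kk a ε t = 0 := by
      have h1 := integral_neg_eq_self (kk a ε) volume
      have h2 : ∀ t, kk a ε (-t) = -kk a ε t := fun t => by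
        unfold kk
        by_cases h : t ∈ {t : ℝ | ε < |t| ∧ |t| < a}
        · rw [indicator_of_mem h, indicator_of_mem (by simpa using h)]
          simp
        · rw [indicator_of_notMem h, indicator_of_notMem (by simpa using h), neg_zero]
      simp only [h2, integral_neg] at h1
      linear_combination (-1 / 2 : ℂ) * h1
    have i1 : Integrable ({t : ℝ | ε < |t| ∧ |t| < a}.indicator
        fun t : ℝ => (f (x - t • v x) - f x) / (t : ℂ)) :=
      (integrable_indicator_iff (cut_meas a ε)).2 (Measure.integrableOn_of_bounded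
        (cut_fin a ε) hm.aestronglyMeasurable (Eventually.of_forall hb))
    have h3 := integral_add i1 ((kk_tk hε a).int.mul_const (f x))
    rw [integral_mul_const, h0, zero_mul, add_zero] at h3
    rw [← h3, trunc_eq]
    refine integral_congr_ae (Eventually.of_forall fun t => ?_)
    unfold kk
    by_cases h : t ∈ {t : ℝ | ε < |t| ∧ |t| < a}
    · simp only [indicator_of_mem h]
      ring
    · simp only [indicator_of_notMem h, zero_mul, add_zero]
  refine tendsto_nhds_limUnder ⟨∫ t, {t : ℝ | 0 < |t| ∧ |t| < a}.indicator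
      (fun t : ℝ => (f (x - t • v x) - f x) / (t : ℂ)) t, ?_⟩
  refine Tendsto.congr' (eventually_mem_nhdsWithin.mono fun ε hε => (key ε hε).symm) ?_
  refine tendsto_integral_filter_of_dominated_convergence
    ((Icc (-a) a).indicator fun _ => (K : ℝ) * ‖v x‖)
    (Eventually.of_forall fun ε => (hm.indicator (cut_meas a ε)).aestronglyMeasurable)
    (Eventually.of_forall fun ε => Eventually.of_forall fun t => ?_)
    ((integrable_indicator_iff measurableSet_Icc).2 (integrableOn_const measure_Icc_lt_top.ne))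
    (Eventually.of_forall fun t => ?_)
  · by_cases h : t ∈ {t : ℝ | ε < |t| ∧ |t| < a}
    · rw [indicator_of_mem h, indicator_of_mem (mem_Icc.2 (abs_le.1 h.2.le))]
      exact hb t
    · rw [indicator_of_notMem h, norm_zero]
      exact indicator_nonneg (fun _ _ => by positivity) t
  · refine tendsto_const_nhds.congr' ?_
    by_cases h : t ∈ {t : ℝ | 0 < |t| ∧ |t| < a}
    · filter_upwards [Ioo_mem_nhdsGT h.1] with ε hε
      rw [indicator_of_mem h, indicator_of_mem
        (show t ∈ {t : ℝ | ε < |t| ∧ |t| < a} from ⟨hε.2, h.2⟩)]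
    · filter_upwards [self_mem_nhdsWithin] with ε hε
      rw [indicator_of_notMem h, indicator_of_notMem fun h' => h ⟨lt_trans hε h'.1, h'.2⟩]

end Vale.Agent.P112
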