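import Vale.Agent.P112.Sob

/-!
Functions with few oscillations along `e` do not concentrate on thin sets. `g = 𝓕⁻ M`, `g' = 𝓕⁻ (fun ξ => 2 π I ⟪e, ξ⟫ * M ξ)`, both continuous (`P117.continuous_inv`);
`σ ↦ g (x + σ • e)` has derivative `g' (x + σ • e)` (`hasDerivAt_integral_of_dominated_loc_of_deriv_le`, `Real.fourierInv_eq'`). `sob1` at `a = 0`; integrate over `Ω`,
swap, translate (`lintegral_add_right_eq_self`), swap back, use `h`; cancel `ofReal s`; `n2_inv_le` twice; `8 π ^ 2 ≤ 80` (`Real.pi_lt_d2`).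
-/

open MeasureTheory Set Real Filter
open scoped FourierTransform RealInnerProductSpace ContDiff ENNReal NNReal Topology

noncomputable section

namespace Vale.Agent.P112

open Vale.Agent.P117 (cv Ker Nice Sm Np)

variable {f g u v F κ q M : ℂ → ℂ} {G : ℂ → ℝ≥0∞} {ϑ : ℝ → ℂ} {c : ℕ → ℝ} {Ω E : Set ℂ}
  {a r s t δ B C D R : ℝ} {x y z : ℂ}

theorem den_norm (e ξ : ℂ) (w : ℂ) :
    ‖(2 * π * Complex.I * (⟪e, ξ⟫ : ℝ)) * w‖ = 2 * π * |⟪e, ξ⟫| * ‖w‖ := by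
  generalize ⟪e, ξ⟫ = r
  simp [abs_of_pos Real.pi_pos]

theorem den_le (e ξ : ℂ) (w : ℂ) :
    ‖(2 * π * Complex.I * (⟪e, ξ⟫ : ℝ)) * w‖ ≤ 2 * π * ‖e‖ * (‖ξ‖ * ‖w‖) := by
  rw [den_norm, ← mul_assoc (2 * π * ‖e‖), mul_assoc (2 * π) ‖e‖]
  have := abs_real_inner_le_norm e ξ
  have := Real.pi_pos
  gcongr

theorem den_int (hm : Measurable M) (hM' : Integrable fun ξ => ‖ξ‖ * ‖M ξ‖) (e : ℂ) :
    Integrable fun ξ => (2 * π * Complex.I * (⟪e, ξ⟫ : ℝ)) * M ξ := by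
  refine (hM'.const_mul (2 * π * ‖e‖)).mono' (Measurable.aestronglyMeasurable ?_)
    (Eventually.of_forall fun ξ => den_le e ξ _)
  exact (Continuous.measurable (by fun_prop)).mul hm

theorem den_deriv (hm : Measurable M) (hM : Integrable M)
    (hM' : Integrable fun ξ => ‖ξ‖ * ‖M ξ‖) (e x : ℂ) (σ : ℝ) :
    HasDerivAt (fun σ : ℝ => 𝓕⁻ M (x + σ • e))
      (𝓕⁻ (fun ξ => (2 * π * Complex.I * (⟪e, ξ⟫ : ℝ)) * M ξ) (x + σ • e)) σ := by
  simp only [Real.fourierInv_eq']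
  have hn : ∀ (r : ℝ) (w : ℂ), ‖Complex.exp ((r : ℂ) * Complex.I) • w‖ = ‖w‖ := fun r w => by
    rw [norm_smul, Complex.norm_exp_ofReal_mul_I, one_mul]
  have hme : ∀ (τ : ℝ) {N : ℂ → ℂ}, Measurable N → AEStronglyMeasurable
      (fun ξ => Complex.exp (((2 * π * ⟪ξ, x + τ • e⟫ : ℝ) : ℂ) * Complex.I) • N ξ) volume :=
    fun τ N hN => by
      have : Continuous fun ξ : ℂ => Complex.exp (((2 * π * ⟪ξ, x + τ • e⟫ : ℝ) : ℂ) * Complex.I) := by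
        fun_prop
      exact (this.measurable.smul hN).aestronglyMeasurable
  refine (hasDerivAt_integral_of_dominated_loc_of_deriv_le (s := univ) univ_mem
    (F := fun (τ : ℝ) ξ => Complex.exp (((2 * π * ⟪ξ, x + τ • e⟫ : ℝ) : ℂ) * Complex.I) • M ξ)
    (F' := fun (τ : ℝ) ξ => Complex.exp (((2 * π * ⟪ξ, x + τ • e⟫ : ℝ) : ℂ) * Complex.I) •
      ((2 * π * Complex.I * (⟪e, ξ⟫ : ℝ)) * M ξ))
    (bound := fun ξ => 2 * π * ‖e‖ * (‖ξ‖ * ‖M ξ‖))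
    (Eventually.of_forall fun τ => hme τ hm) ?_
    (hme σ ((Continuous.measurable (by fun_prop)).mul hm))
    (Eventually.of_forall fun ξ τ _ => (hn _ _).trans_le (den_le e ξ _)) (hM'.const_mul _)
    (Eventually.of_forall fun ξ τ _ => ?_)).2
  · exact hM.norm.mono' (hme σ hm) (Eventually.of_forall fun ξ => (hn _ _).le)
  · have h1 : HasDerivAt (fun τ : ℝ => 2 * π * ⟪ξ, x + τ • e⟫) (2 * π * ⟪e, ξ⟫) τ := by
      simp only [inner_add_right, inner_smul_right, real_inner_comm ξ e]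
      simpa using (((hasDerivAt_id τ).mul_const ⟪ξ, e⟫).const_add ⟪ξ, x⟫).const_mul (2 * π)
    have h2 := ((h1.ofReal_comp.mul_const Complex.I).cexp).smul_const (M ξ)
    refine h2.congr_deriv ?_
    simp only [smul_eq_mul]
    push_cast
    ring

theorem den_swap {H : ℂ → ℝ≥0∞} (hH : Measurable H) (e : ℂ) (hΩ : MeasurableSet Ω) {L : ℝ≥0∞}
    (h : ∀ z, volume {σ : ℝ | |σ| ≤ s ∧ z - σ • e ∈ Ω} ≤ L) :
    ∫⁻ x in Ω, ∫⁻ σ in Icc (-s) s, H (x + σ • e) ≤ L * ∫⁻ z, H z := by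
  have m1 : Measurable fun p : ℂ × ℝ => p.1 + p.2 • e := Continuous.measurable (by fun_prop)
  have m2 : Measurable fun p : ℝ × ℂ => p.2 - p.1 • e := Continuous.measurable (by fun_prop)
  have a1 : ∀ σ : ℝ, ∫⁻ x in Ω, H (x + σ • e) =
      ∫⁻ z, Ω.indicator (fun _ => (1 : ℝ≥0∞)) (z - σ • e) * H z := fun σ => by
    rw [← lintegral_indicator hΩ, ← lintegral_add_right_eq_self
      (fun z => Ω.indicator (fun _ => (1 : ℝ≥0∞)) (z - σ • e) * H z) (σ • e)]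
    refine lintegral_congr fun x => ?_
    rw [add_sub_cancel_right]
    by_cases hx : x ∈ Ω <;> simp [hx]
  rw [lintegral_lintegral_swap (f := fun (x : ℂ) (σ : ℝ) => H (x + σ • e))
    (hH.comp m1).aemeasurable]
  simp only [a1]
  rw [lintegral_lintegral_swap
    (f := fun (σ : ℝ) (z : ℂ) => Ω.indicator (fun _ => (1 : ℝ≥0∞)) (z - σ • e) * H z)
    (((measurable_const.indicator hΩ).comp m2).mul
    (hH.comp measurable_snd)).aemeasurable, ← lintegral_const_mul _ hH]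
  refine lintegral_mono fun z => ?_
  have m3 : MeasurableSet {σ : ℝ | z - σ • e ∈ Ω} :=
    hΩ.preimage (Continuous.measurable (by fun_prop))
  have a2 : ∀ σ : ℝ, Ω.indicator (fun _ => (1 : ℝ≥0∞)) (z - σ • e) =
      {σ : ℝ | z - σ • e ∈ Ω}.indicator (fun _ => (1 : ℝ≥0∞)) σ := fun σ => rfl
  simp only [a2]
  rw [lintegral_mul_const _ (measurable_const.indicator m3), lintegral_indicator_const m3,
    one_mul, Measure.restrict_apply m3]
  refine mul_le_mul_left (le_trans (le_of_eq ?_) (h z)) _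
  congr 1
  ext σ
  simp only [mem_inter_iff, mem_ofPred_eq, mem_Icc, abs_le]
  tauto

theorem den (hm : Measurable M) (hM : Integrable M) (hM' : Integrable fun ξ => ‖ξ‖ * ‖M ξ‖)
    (e : ℂ) (hs : 0 < s) (hΩ : MeasurableSet Ω) {θ : ℝ}
    (h : ∀ z, volume {σ : ℝ | |σ| ≤ s ∧ z - σ • e ∈ Ω} ≤ ENNReal.ofReal (θ * s)) :
    ∫⁻ x in Ω, ‖𝓕⁻ M x‖ₑ ^ 2 ≤
      ENNReal.ofReal θ * ∫⁻ ξ, ENNReal.ofReal (1 + 80 * (s * ⟪e, ξ⟫) ^ 2) * ‖M ξ‖ₑ ^ 2 := by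
  have hI := den_int hm hM' e
  have hd := den_deriv hm hM hM' e
  have hmm : Measurable fun ξ => (2 * π * Complex.I * (⟪e, ξ⟫ : ℝ)) * M ξ :=
    (Continuous.measurable (by fun_prop)).mul hm
  have hpt : ∀ ξ, ‖M ξ‖ₑ ^ 2 + ENNReal.ofReal (2 * s ^ 2) *
      ‖(2 * π * Complex.I * (⟪e, ξ⟫ : ℝ)) * M ξ‖ₑ ^ 2 ≤
      ENNReal.ofReal (1 + 80 * (s * ⟪e, ξ⟫) ^ 2) * ‖M ξ‖ₑ ^ 2 := fun ξ => by
    rw [← ofReal_norm, ← ofReal_norm, ← ENNReal.ofReal_pow (norm_nonneg _),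
      ← ENNReal.ofReal_pow (norm_nonneg _), ← ENNReal.ofReal_mul (by positivity),
      ← ENNReal.ofReal_mul (by positivity), ← ENNReal.ofReal_add (by positivity) (by positivity),
      den_norm]
    refine ENNReal.ofReal_le_ofReal ?_
    have p1 : π ^ 2 ≤ 10 := by nlinarith [Real.pi_lt_d2, Real.pi_pos]
    have p2 : 0 ≤ (s * ⟪e, ξ⟫) ^ 2 * ‖M ξ‖ ^ 2 := by positivity
    have p3 : 2 * s ^ 2 * (2 * π * |⟪e, ξ⟫| * ‖M ξ‖) ^ 2 =
        8 * π ^ 2 * ((s * ⟪e, ξ⟫) ^ 2 * ‖M ξ‖ ^ 2) := by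
      rw [mul_pow, mul_pow, sq_abs]
      ring
    rw [p3]
    nlinarith
  have hsum : n2 M + ENNReal.ofReal (2 * s ^ 2) *
      n2 (fun ξ => (2 * π * Complex.I * (⟪e, ξ⟫ : ℝ)) * M ξ) ≤
      ∫⁻ ξ, ENNReal.ofReal (1 + 80 * (s * ⟪e, ξ⟫) ^ 2) * ‖M ξ‖ₑ ^ 2 := by
    unfold n2
    rw [← lintegral_const_mul _ (hmm.enorm.pow_const 2),
      ← lintegral_add_left (hm.enorm.pow_const 2)]
    exact lintegral_mono hpt
  generalize (fun ξ => (2 * π * Complex.I * (⟪e, ξ⟫ : ℝ)) * M ξ) = M' at hI hd hsum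
  have c1 := P117.continuous_inv hM
  have c2 := P117.continuous_inv hI
  have n1 := n2_inv_le hM
  have n2' := n2_inv_le hI
  generalize 𝓕⁻ M = g at *
  generalize 𝓕⁻ M' = g' at *
  have m1 : Measurable fun x => ‖g x‖ₑ ^ 2 := c1.measurable.enorm.pow_const 2
  have m2 : Measurable fun x => ‖g' x‖ₑ ^ 2 := c2.measurable.enorm.pow_const 2
  have a1 : ∀ x, ENNReal.ofReal s * ‖g x‖ₑ ^ 2 ≤ ∫⁻ σ in Icc (-s) s,
      (‖g (x + σ • e)‖ₑ ^ 2 + ENNReal.ofReal (2 * s ^ 2) * ‖g' (x + σ • e)‖ₑ ^ 2) := fun x => by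
    have := sob1 (hd x) (c2.comp (by fun_prop)) 0 hs
    simpa only [zero_smul, add_zero, zero_sub, zero_add] using this
  have a2 := den_swap (H := fun x => ‖g x‖ₑ ^ 2 + ENNReal.ofReal (2 * s ^ 2) * ‖g' x‖ₑ ^ 2)
    (m1.add (m2.const_mul _)) e hΩ h
  have a3 := (lintegral_mono (μ := volume.restrict Ω) a1).trans a2
  rw [lintegral_const_mul _ m1, lintegral_add_left m1, lintegral_const_mul _ m2,
    ENNReal.ofReal_mul' hs.le, mul_comm (ENNReal.ofReal θ), mul_assoc,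
    ENNReal.mul_le_mul_iff_right (ENNReal.ofReal_pos.2 hs).ne' ENNReal.ofReal_ne_top] at a3
  refine a3.trans (mul_le_mul_right (le_trans ?_ hsum) _)
  exact add_le_add n1 (mul_le_mul_right n2' _)

end Vale.Agent.P112
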