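import Vale.Agent.P112.LPa

/-!
`fat`: `u j = cv (𝓕⁻ (pf j)) f` with `pf j ξ = lp (j+1) ξ - if 2 ≤ j then lp (j-2) ξ else 0`, which is `Sm`, equals 1 where `pm j ξ ≠ 0`
(`pm_out`, `pm_in`, `lp_one`, `lp_zero`), and is the sum of at most three consecutive `pm i ξ`; `∑ ‖pf j ξ‖ ^ 2 ≤ 9`
(`‖a+b+c‖² ≤ 3 (..)` and `pm_sq`). `P_eq`, `P117.fourier_cv`, `Sm.fourier_inv`, `P117.cv_eq`, `n2_inv_le`, `n2_fourier_le`, `lintegral_finset_sum`.
`S_lim`: `plan_eq` for the nice function `f - S J f`, its transform is `(1 - lp J) 𝓕 f`; `tendsto_lintegral_of_dominated_convergence`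
with bound `4 ‖𝓕 f‖ₑ ^ 2`.
-/

open MeasureTheory Set Real Filter
open scoped FourierTransform RealInnerProductSpace ContDiff ENNReal NNReal Topology

noncomputable section

namespace Vale.Agent.P112

open Vale.Agent.P117 (cv Ker Nice Sm Np)

variable {f g u v F κ q M : ℂ → ℂ} {G : ℂ → ℝ≥0∞} {ϑ : ℝ → ℂ} {c : ℕ → ℝ} {Ω E : Set ℂ}
  {a r s t δ B C D R : ℝ} {x y z : ℂ}

/-- the previous band -/
def lp_pb : ℕ → ℂ → ℂ
  | 0 => fun _ => 0
  | j + 1 => pm j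

/-- the fattened band -/
def lp_pf (j : ℕ) (ξ : ℂ) : ℂ := pm (j + 1) ξ + pm j ξ + lp_pb j ξ

theorem lp_add {m m' : ℂ → ℂ} (h : Sm m) (h' : Sm m') : Sm fun ξ => m ξ + m' ξ :=
  ⟨h.smooth.add h'.smooth, h.cs.add h'.cs⟩

theorem lp_pf_sm (j : ℕ) : Sm (lp_pf j) := by
  refine lp_add (lp_add (pm_sm _) (pm_sm _)) ?_
  rcases j with _ | j
  · exact ⟨contDiff_const, HasCompactSupport.zero⟩
  · exact pm_sm j

theorem lp_pf_one {j : ℕ} {ξ : ℂ} (h : pm j ξ ≠ 0) : lp_pf j ξ = 1 := by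
  have h1 := lp_one (pm_out h).le
  rcases j with _ | _ | j
  · simp only [lp_pf, lp_pb, pm, h1]
    ring
  · simp only [lp_pf, lp_pb, pm, h1]
    ring
  · simp only [lp_pf, lp_pb, pm, h1, lp_zero (pm_in h).le]
    ring

theorem lp_pf_sq (J : Finset ℕ) (ξ : ℂ) : ∑ j ∈ J, ‖lp_pf j ξ‖ ^ 2 ≤ 9 := by
  have h1 : ∀ j ∈ J, ‖lp_pf j ξ‖ ^ 2 ≤
      3 * (‖pm (j + 1) ξ‖ ^ 2 + ‖pm j ξ‖ ^ 2 + ‖lp_pb j ξ‖ ^ 2) := fun j _ => by
    refine (pow_le_pow_left₀ (norm_nonneg _) norm_add₃_le 2).trans ?_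
    nlinarith [sq_nonneg (‖pm (j + 1) ξ‖ - ‖pm j ξ‖), sq_nonneg (‖pm (j + 1) ξ‖ - ‖lp_pb j ξ‖),
      sq_nonneg (‖pm j ξ‖ - ‖lp_pb j ξ‖)]
  have h2 : ∑ j ∈ J, ‖pm (j + 1) ξ‖ ^ 2 ≤ 1 := by
    have := pm_sq (J.map ⟨Nat.succ, Nat.succ_injective⟩) ξ
    rwa [Finset.sum_map] at this
  have h3 : ∑ j ∈ J, ‖lp_pb j ξ‖ ^ 2 ≤ 1 := by
    obtain ⟨n, hn⟩ := J.exists_nat_subset_range
    refine (Finset.sum_le_sum_of_subset_of_nonneg
      (hn.trans (Finset.range_subset_range.2 n.le_succ)) fun _ _ _ => sq_nonneg _).trans ?_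
    rw [Finset.sum_range_succ']
    simpa [lp_pb] using pm_sq (Finset.range n) ξ
  refine (Finset.sum_le_sum h1).trans ?_
  rw [← Finset.mul_sum, Finset.sum_add_distrib, Finset.sum_add_distrib]
  linarith [pm_sq J ξ]

theorem lp_enorm (z : ℂ) : ‖z‖ₑ ^ 2 = ENNReal.ofReal (‖z‖ ^ 2) := by
  rw [← ofReal_norm_eq_enorm, ENNReal.ofReal_pow (norm_nonneg _)]

theorem lp_sub (hf : Nice f) (hg : Nice g) : Nice fun x => f x - g x :=
  let ⟨C, hC⟩ := hf.bdd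
  let ⟨D, hD⟩ := hg.bdd
  ⟨hf.meas.sub hg.meas, hf.int.sub hg.int, C + D, fun x =>
    (norm_sub_le _ _).trans (add_le_add (hC x) (hD x))⟩

theorem lp_four_sub (hf : Integrable f) (hg : Integrable g) (ξ : ℂ) :
    𝓕 (fun x => f x - g x) ξ = 𝓕 f ξ - 𝓕 g ξ := by
  simp only [Real.fourier_eq, smul_sub]
  exact integral_sub ((Real.fourierIntegral_convergent_iff ξ).2 hf)
    ((Real.fourierIntegral_convergent_iff ξ).2 hg)

theorem fat (hf : Nice f) : ∃ u : ℕ → ℂ → ℂ, (∀ j, Nice (u j)) ∧ (∀ j, P j (u j) = P j f) ∧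
    ∀ J : Finset ℕ, ∑ j ∈ J, n2 (u j) ≤ 9 * n2 f := by
  have h1 : ∀ j, Nice (cv (𝓕⁻ (lp_pf j)) f) := fun j => P117.cv_nice (lp_pf_sm j).ker_inv.nice hf
  refine ⟨fun j => cv (𝓕⁻ (lp_pf j)) f, h1, fun j => ?_, fun J => ?_⟩
  · rw [P_eq j (h1 j).int, P_eq j hf.int]
    congr 1
    funext ξ
    rw [P117.fourier_cv (lp_pf_sm j).ker_inv.int hf.int, (lp_pf_sm j).fourier_inv]
    by_cases h : pm j ξ = 0
    · rw [h, zero_mul, zero_mul]
    · rw [lp_pf_one h, one_mul]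
  · have h2 : ∀ j ∈ J, n2 (cv (𝓕⁻ (lp_pf j)) f) ≤ ∫⁻ ξ, ‖lp_pf j ξ * 𝓕 f ξ‖ₑ ^ 2 := fun j _ => by
      rw [funext (P117.cv_eq (lp_pf_sm j).ker.int hf.int)]
      exact n2_inv_le (P117.integrable_mul_fourier (lp_pf_sm j).ker.int hf.int)
    have h3 := (P117.continuous_fourier hf.int).measurable
    refine (Finset.sum_le_sum h2).trans ?_
    rw [← lintegral_finsetSum (f := fun j ξ => ‖lp_pf j ξ * 𝓕 f ξ‖ₑ ^ 2) _ fun j _ =>
      (((lp_pf_sm j).ker.cont.measurable.mul h3).enorm.pow_const 2)]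
    refine le_trans ?_ (mul_le_mul_right (n2_fourier_le hf.int) 9)
    rw [n2, ← lintegral_const_mul _ (h3.enorm.pow_const 2)]
    refine lintegral_mono fun ξ => ?_
    simp only [enorm_mul, mul_pow, ← Finset.sum_mul]
    refine mul_le_mul_left ?_ _
    simp only [lp_enorm]
    rw [← ENNReal.ofReal_sum_of_nonneg fun _ _ => sq_nonneg _]
    exact (ENNReal.ofReal_le_ofReal (lp_pf_sq J ξ)).trans_eq (ENNReal.ofReal_ofNat 9)

theorem S_lim (hf : Nice f) : Tendsto (fun J => n2 fun x => f x - S J f x) atTop (𝓝 0) := by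
  have h1 : ∀ J, (n2 fun x => f x - S J f x) = ∫⁻ ξ, ‖(1 - lp J ξ) * 𝓕 f ξ‖ₑ ^ 2 := fun J => by
    rw [← plan_eq (lp_sub hf (S_ker J hf).nice), n2]
    refine lintegral_congr fun ξ => ?_
    rw [lp_four_sub hf.int (S_ker J hf).int, S, P117.fourier_cv (lp_sm J).ker_inv.int hf.int,
      (lp_sm J).fourier_inv, sub_mul, one_mul]
  have h3 := (P117.continuous_fourier hf.int).measurable
  simp only [h1]
  have h4 := tendsto_lintegral_of_dominated_convergence (μ := volume) (f := fun _ : ℂ => 0)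
    (F := fun J ξ => ‖(1 - lp J ξ) * 𝓕 f ξ‖ₑ ^ 2) (fun ξ => 4 * ‖𝓕 f ξ‖ₑ ^ 2)
    (fun J => ((measurable_const.sub (lp_sm J).ker.cont.measurable).mul h3).enorm.pow_const 2)
    (fun J => Eventually.of_forall fun ξ => ?_) ?_ (Eventually.of_forall fun ξ => ?_)
  · rwa [lintegral_zero] at h4
  · simp only [enorm_mul, mul_pow]
    refine mul_le_mul_left ?_ _
    have h5 : ‖1 - lp J ξ‖ ≤ 2 := (norm_sub_le _ _).trans (by linarith [lp_norm J ξ, norm_one (α := ℂ)])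
    rw [lp_enorm]
    exact (ENNReal.ofReal_le_ofReal ((pow_le_pow_left₀ (norm_nonneg _) h5 2).trans_eq
      (by norm_num))).trans_eq (ENNReal.ofReal_ofNat 4)
  · rw [lintegral_const_mul _ (h3.enorm.pow_const 2)]
    exact ENNReal.mul_ne_top ENNReal.ofNat_ne_top
      (ne_top_of_le_ne_top (nice_n2 hf) (n2_fourier_le hf.int))
  · refine tendsto_const_nhds.congr' ?_
    filter_upwards [(tendsto_pow_atTop_atTop_of_one_lt (one_lt_two (α := ℝ))).eventually_ge_atTop ‖ξ‖]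
      with J hJ
    rw [lp_one hJ, sub_self, zero_mul, enorm_zero, zero_pow two_ne_zero]

end Vale.Agent.P112
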