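import Vale.Agent.P112.Base

/-! Linearity and Fubini. -/

open MeasureTheory Set Real Filter
open scoped FourierTransform RealInnerProductSpace ContDiff ENNReal NNReal Topology

noncomputable section

namespace Vale.Agent.P112

open Vale.Agent.P117 (cv Ker Nice Sm Np)

variable {f g u v F κ q M : ℂ → ℂ} {G : ℂ → ℝ≥0∞} {ϑ : ℝ → ℂ} {c : ℕ → ℝ} {Ω E : Set ℂ}
  {a r s t δ B C D R : ℝ} {x y z : ℂ}

theorem A_int (h : Tk R ϑ) (hF : Nice F) (v : ℂ → ℂ) (x : ℂ) :
    Integrable fun t : ℝ => ϑ t * F (x - t • v x) := by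
  obtain ⟨C, hC⟩ := hF.bdd
  exact h.int.mul_bdd (c := C)
    (hF.meas.comp (Continuous.measurable (by fun_prop))).aestronglyMeasurable
    (Eventually.of_forall fun _ => hC _)

theorem A_bd (h : Tk R ϑ) (hF : Nice F) (v : ℂ → ℂ) : ∃ L : ℝ, ∀ x, ‖A v ϑ F x‖ ≤ L := by
  obtain ⟨C, hC⟩ := hF.bdd
  refine ⟨∫ t, ‖ϑ t‖ * C, fun x => norm_integral_le_of_norm_le (h.int.norm.mul_const C)
    (Eventually.of_forall fun t => ?_)⟩
  rw [norm_mul]
  exact mul_le_mul_of_nonneg_left (hC _) (norm_nonneg _)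

theorem A_add (h : Tk R ϑ) (hf : Nice f) (hg : Nice g) (v : ℂ → ℂ) (x : ℂ) :
    A v ϑ (fun z => f z + g z) x = A v ϑ f x + A v ϑ g x := by
  simp only [A, mul_add]
  exact integral_add (A_int h hf v x) (A_int h hg v x)

theorem A_sub (h : Tk R ϑ) (hf : Nice f) (hg : Nice g) (v : ℂ → ℂ) (x : ℂ) :
    A v ϑ (fun z => f z - g z) x = A v ϑ f x - A v ϑ g x := by
  simp only [A, mul_sub]
  exact integral_sub (A_int h hf v x) (A_int h hg v x)

theorem A_sum (h : Tk R ϑ) {H : ℕ → ℂ → ℂ} (hH : ∀ j, Nice (H j)) (J : Finset ℕ) (v : ℂ → ℂ)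
    (x : ℂ) : A v ϑ (fun z => ∑ j ∈ J, H j z) x = ∑ j ∈ J, A v ϑ (H j) x := by
  simp only [A, Finset.mul_sum]
  exact integral_finsetSum J fun j _ => A_int h (hH j) v x

theorem A_addk {ϑ' : ℝ → ℂ} (h : Tk R ϑ) (h' : Tk r ϑ') (hF : Nice F) (v : ℂ → ℂ) (x : ℂ) :
    A v (fun t => ϑ t + ϑ' t) F x = A v ϑ F x + A v ϑ' F x := by
  simp only [A, add_mul]
  exact integral_add (A_int h hF v x) (A_int h' hF v x)

theorem A_sumk {θ : ℕ → ℝ → ℂ} {ρ : ℕ → ℝ} (h : ∀ k, Tk (ρ k) (θ k)) (hF : Nice F) (J : Finset ℕ)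
    (v : ℂ → ℂ) (x : ℂ) : A v (fun t => ∑ k ∈ J, θ k t) F x = ∑ k ∈ J, A v (θ k) F x := by
  simp only [A, Finset.sum_mul]
  exact integral_finsetSum J fun k _ => A_int (h k) hF v x

theorem lam_int (hv : Continuous v) (t : ℝ) (hF : Nice F) (hg : Nice g) :
    Integrable fun x => F (x - t • v x) * g x := by
  obtain ⟨C, hC⟩ := hF.bdd
  exact hg.int.bdd_mul (c := C)
    (hF.meas.comp (Continuous.measurable (by fun_prop))).aestronglyMeasurable
    (Eventually.of_forall fun _ => hC _)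

theorem lam_sum_left (hv : Continuous v) (t : ℝ) {H : ℕ → ℂ → ℂ} (hH : ∀ j, Nice (H j))
    (hg : Nice g) (J : Finset ℕ) :
    lam v t (fun z => ∑ j ∈ J, H j z) g = ∑ j ∈ J, lam v t (H j) g := by
  simp only [lam, Finset.sum_mul]
  exact integral_finsetSum J fun j _ => lam_int hv t (hH j) hg

theorem lam_sum_right (hv : Continuous v) (t : ℝ) (hF : Nice F) {H : ℕ → ℂ → ℂ}
    (hH : ∀ j, Nice (H j)) (J : Finset ℕ) :
    lam v t F (fun z => ∑ j ∈ J, H j z) = ∑ j ∈ J, lam v t F (H j) := by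
  simp only [lam, Finset.mul_sum]
  exact integral_finsetSum J fun j _ => lam_int hv t hF (hH j)

theorem lin_int (hv : Continuous v) (h : Tk R ϑ) (hF : Nice F) (hg : Nice g) :
    Integrable (Function.uncurry fun (x : ℂ) (t : ℝ) => ϑ t * F (x - t • v x) * g x)
      (volume.prod volume) := by
  obtain ⟨C, hC⟩ := hF.bdd
  have h1 := (hg.int.mul_prod h.int).mul_bdd (c := C)
    (g := fun p : ℂ × ℝ => F (p.1 - p.2 • v p.1))
    (hF.meas.comp (Continuous.measurable (by fun_prop))).aestronglyMeasurable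
    (Eventually.of_forall fun _ => hC _)
  refine h1.congr (Eventually.of_forall fun p => ?_)
  simp only [Function.uncurry]
  ring

theorem pair_int (hv : Continuous v) (h : Tk R ϑ) (hF : Nice F) (hg : Nice g) :
    Integrable fun t => ϑ t * lam v t F g := by
  refine (lin_int hv h hF hg).integral_prod_right.congr (Eventually.of_forall fun t => ?_)
  simp only [Function.uncurry, lam, mul_assoc, integral_const_mul]

theorem pair_eq (hv : Continuous v) (h : Tk R ϑ) (hF : Nice F) (hg : Nice g) :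
    ∫ x, A v ϑ F x * g x = ∫ t, ϑ t * lam v t F g := by
  have := integral_integral_swap (lin_int hv h hF hg)
  simp only [integral_mul_const] at this
  simp only [mul_assoc, integral_const_mul] at this
  exact this

theorem pair_intx (hv : Continuous v) (h : Tk R ϑ) (hF : Nice F) (hg : Nice g) :
    Integrable fun x => A v ϑ F x * g x := by
  refine (lin_int hv h hF hg).integral_prod_left.congr (Eventually.of_forall fun t => ?_)
  simp only [Function.uncurry, A, integral_mul_const]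

end Vale.Agent.P112
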