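import Vale.Agent.P112.Triv
import Vale.Agent.P112.Lin
import Vale.Agent.P112.LP

/-!
`dual_lim`: `T f * g - T (S J f) * S J g = T (f - S J f) * g + T (S J f) * (g - S J g)` (`A_sub`, `pair_intx`), `enorm_integral_le_lintegral_enorm`, `cs`, `triv`, `S_n2`, `S_lim`, `nice_n2`: the squares of the
norms of the two error integrals tend to zero; `le_of_tendsto`. `dual`: if `C = 0` use `g` below with `c = 1`. Else `h = A v ϑ f` is bounded and measurable (`A_bd`, `meas_A`), `c = (2 C)⁻¹`,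
`g = (closedBall 0 n).indicator fun x => c * conj (h x)` is nice, `∫ h g = c ∫ over the ball, ‖h‖ ^ 2`; with the finite number `X = ∫⁻ over the ball, ‖h‖ₑ ^ 2`: `c X ≤ C (n2 f + c² X)`, so `X ≤ 4 C² n2 f`;
`setLIntegral_iUnion_of_directed` or `lintegral_iSup`. (One may use `C + 1` in place of `C`: the statement leaves room.)
-/

open MeasureTheory Set Real Filter
open scoped FourierTransform RealInnerProductSpace ContDiff ENNReal NNReal Topology

noncomputable section

namespace Vale.Agent.P112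

open Vale.Agent.P117 (cv Ker Nice Sm Np)

variable {f g u v F κ q M : ℂ → ℂ} {G : ℂ → ℝ≥0∞} {ϑ : ℝ → ℂ} {c : ℕ → ℝ} {Ω E : Set ℂ}
  {a r s t δ B C D R : ℝ} {x y z : ℂ}

theorem dual_sub (hf : Nice f) (hg : Nice g) : Nice fun x => f x - g x :=
  ⟨hf.meas.sub hg.meas, hf.int.sub hg.int,
    let ⟨a, ha⟩ := hf.bdd
    let ⟨b, hb⟩ := hg.bdd
    ⟨a + b, fun x => (norm_sub_le _ _).trans (add_le_add (ha x) (hb x))⟩⟩

theorem dual_pair (hv : LipschitzWith 2 v) (h : Tk (1 / 4) ϑ) (hf : Nice f) (hg : Nice g) :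
    ‖∫ x, A v ϑ f x * g x‖ₑ ^ 2 ≤ 4 * ENNReal.ofReal (∫ t, ‖ϑ t‖) ^ 2 * n2 f * n2 g := by
  have h1 : ‖∫ x, A v ϑ f x * g x‖ₑ ≤ ∫⁻ x, ‖A v ϑ f x‖ₑ * ‖g x‖ₑ := by
    simpa only [enorm_mul] using enorm_integral_le_lintegral_enorm fun x => A v ϑ f x * g x
  refine (ENNReal.pow_le_pow_left h1).trans ((cs volume
    (meas_A hv.continuous h.meas hf.meas).enorm hg.meas.enorm).trans ?_)
  exact mul_le_mul_left (triv hv h hf.meas) _

theorem dual_sq {p b : ℕ → ℝ≥0∞} (hb : Tendsto b atTop (𝓝 0)) (h : ∀ J, p J ^ 2 ≤ b J) :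
    Tendsto p atTop (𝓝 0) := by
  rw [ENNReal.tendsto_nhds_zero] at hb ⊢
  intro ε hε
  filter_upwards [hb (ε ^ 2) (ENNReal.pow_pos hε 2)] with J hJ
  by_contra h1
  exact absurd ((h J).trans hJ) (not_le.2 (ENNReal.pow_lt_pow_left two_ne_zero (not_le.1 h1)))

theorem dual_lim (hv : LipschitzWith 2 v) (h : Tk (1 / 4) ϑ) (hf : Nice f) (hg : Nice g)
    {L : ℝ≥0∞} (H : ∀ J, ‖∫ x, A v ϑ (S J f) x * S J g x‖ₑ ≤ L) :
    ‖∫ x, A v ϑ f x * g x‖ₑ ≤ L := by
  set K : ℝ≥0∞ := 4 * ENNReal.ofReal (∫ t, ‖ϑ t‖) ^ 2 with hK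
  have K0 : K ≠ ⊤ := ENNReal.mul_ne_top (by simp) (ENNReal.pow_ne_top ENNReal.ofReal_ne_top)
  have sf := fun J => (S_ker J hf).nice
  have sg := fun J => (S_ker J hg).nice
  have t1 : Tendsto (fun J => ‖∫ x, A v ϑ (fun z => f z - S J f z) x * g x‖ₑ) atTop (𝓝 0) := by
    refine dual_sq (b := fun J => K * n2 g * n2 fun x => f x - S J f x) ?_ fun J => ?_
    · simpa using ENNReal.Tendsto.const_mul (a := K * n2 g) (S_lim hf)
        (.inr (ENNReal.mul_ne_top K0 (nice_n2 hg)))
    · exact (dual_pair hv h (dual_sub hf (sf J)) hg).trans (mul_right_comm _ _ _).le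
  have t2 : Tendsto (fun J => ‖∫ x, A v ϑ (S J f) x * (g x - S J g x)‖ₑ) atTop (𝓝 0) := by
    refine dual_sq (b := fun J => K * n2 f * n2 fun x => g x - S J g x) ?_ fun J => ?_
    · simpa using ENNReal.Tendsto.const_mul (a := K * n2 f) (S_lim hg)
        (.inr (ENNReal.mul_ne_top K0 (nice_n2 hf)))
    · exact (dual_pair hv h (sf J) (dual_sub hg (sg J))).trans
        (mul_le_mul_left (mul_le_mul_right (S_n2 J hf) _) _)
  have t3 := (t1.add t2).const_add L
  rw [add_zero, add_zero] at t3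
  refine ge_of_tendsto' t3 fun J => ?_
  have i1 := pair_intx hv.continuous h (dual_sub hf (sf J)) hg
  have i2 := pair_intx hv.continuous h (sf J) (dual_sub hg (sg J))
  have i3 := pair_intx hv.continuous h (sf J) (sg J)
  have e : ∫ x, A v ϑ f x * g x = (∫ x, A v ϑ (S J f) x * S J g x) +
      ((∫ x, A v ϑ (fun z => f z - S J f z) x * g x) +
        ∫ x, A v ϑ (S J f) x * (g x - S J g x)) := by
    have i4 : Integrable fun x => A v ϑ (fun z => f z - S J f z) x * g x +
        A v ϑ (S J f) x * (g x - S J g x) := i1.add i2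
    rw [← integral_add i1 i2, ← integral_add i3 i4]
    refine integral_congr_ae (.of_forall fun x => ?_)
    simp only [A_sub h hf (sf J)]
    ring
  rw [e]
  exact (enorm_add_le _ _).trans (add_le_add (H J) (enorm_add_le _ _))

theorem dual (hv : Continuous v) (h : Tk R ϑ) (hf : Nice f) {L : ℝ≥0∞} (hL : L ≠ ⊤)
    (H : ∀ g, Nice g → ‖∫ x, A v ϑ f x * g x‖ₑ ≤ L * (n2 f + n2 g)) :
    n2 (A v ϑ f) ≤ 4 * (L + 1) ^ 2 * n2 f := by
  obtain ⟨B, hB⟩ := A_bd h hf v
  have hm := meas_A hv h.meas hf.meas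
  set w := A v ϑ f with hw
  lift L to ℝ≥0 using hL
  obtain ⟨y, hy⟩ : ∃ y : ℝ≥0, n2 f = y := ⟨(n2 f).toNNReal, (ENNReal.coe_toNNReal (nice_n2 hf)).symm⟩
  have key : ∀ E : Set ℂ, MeasurableSet E → volume E ≠ ⊤ →
      ∫⁻ x in E, ‖w x‖ₑ ^ 2 ≤ 4 * ((L : ℝ≥0∞) + 1) ^ 2 * n2 f := by
    intro E hE hE'
    set c : ℝ := (2 * ((L : ℝ) + 1))⁻¹ with hc
    have c0 : 0 < c := by positivity
    have hb : ∀ x, ‖(c : ℂ) * (starRingEnd ℂ) (w x)‖ = c * ‖w x‖ := fun x => by
      rw [norm_mul, Complex.norm_real, Real.norm_of_nonneg c0.le, Complex.norm_conj]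
    have mg : Measurable fun x => (c : ℂ) * (starRingEnd ℂ) (w x) :=
      (Complex.continuous_conj.measurable.comp hm).const_mul _
    have ng : Nice (E.indicator fun x => (c : ℂ) * (starRingEnd ℂ) (w x)) := by
      refine ⟨mg.indicator hE, (integrable_indicator_iff hE).2 (Measure.integrableOn_of_bounded
        (M := c * B) hE' mg.aestronglyMeasurable (.of_forall fun x => ?_)), c * B, fun x =>
        (norm_indicator_le_norm_self _ _).trans ?_⟩ <;>
      · rw [hb]
        exact mul_le_mul_of_nonneg_left (hB x) c0.le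
    have i1 : IntegrableOn (fun x => ‖w x‖ ^ 2) E := Measure.integrableOn_of_bounded (M := B ^ 2)
      hE' (hm.norm.pow_const 2).aestronglyMeasurable (.of_forall fun x => by
        rw [norm_pow, norm_norm]
        exact pow_le_pow_left₀ (norm_nonneg _) (hB x) 2)
    set X := ∫ x in E, ‖w x‖ ^ 2 with hX
    have X0 : 0 ≤ X := integral_nonneg fun x => sq_nonneg _
    have e1 : ∫⁻ x in E, ‖w x‖ₑ ^ 2 = ENNReal.ofReal X := by
      rw [hX, ofReal_integral_eq_lintegral_ofReal i1 (.of_forall fun x => sq_nonneg _)]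
      refine lintegral_congr fun x => ?_
      rw [← ofReal_norm, ENNReal.ofReal_pow (norm_nonneg _)]
    have e2 : n2 (E.indicator fun x => (c : ℂ) * (starRingEnd ℂ) (w x)) =
        ENNReal.ofReal (c ^ 2 * X) := by
      rw [ENNReal.ofReal_mul (sq_nonneg c), ← e1, ← lintegral_const_mul _ (hm.enorm.pow_const 2),
        ← lintegral_indicator hE]
      refine lintegral_congr fun x => ?_
      by_cases hx : x ∈ E
      · rw [indicator_of_mem hx, indicator_of_mem hx, ← ofReal_norm, hb, ENNReal.ofReal_mul c0.le,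
          ofReal_norm, mul_pow, ENNReal.ofReal_pow c0.le]
      · simp [indicator_of_notMem hx]
    have e3 : ∫ x, w x * E.indicator (fun x => (c : ℂ) * (starRingEnd ℂ) (w x)) x =
        ((c * X : ℝ) : ℂ) := by
      rw [hX, ← integral_const_mul, ← integral_complex_ofReal, ← integral_indicator hE]
      refine integral_congr_ae (.of_forall fun x => ?_)
      by_cases hx : x ∈ E
      · simp only [indicator_of_mem hx]
        rw [mul_left_comm, Complex.mul_conj']
        push_cast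
        rfl
      · simp [indicator_of_notMem hx]
    have h1 := H _ ng
    rw [e2, e3, ← ofReal_norm, Complex.norm_real, Real.norm_of_nonneg (by positivity), hy,
      ← ENNReal.ofReal_coe_nnreal, ← ENNReal.ofReal_coe_nnreal (p := y),
      ← ENNReal.ofReal_add y.coe_nonneg (by positivity), ← ENNReal.ofReal_mul L.coe_nonneg,
      ENNReal.ofReal_le_ofReal_iff (by positivity)] at h1
    have h2 : X ≤ 4 * ((L : ℝ) + 1) ^ 2 * y := by
      have h3 : (L : ℝ) * (y + c ^ 2 * X) ≤ ((L : ℝ) + 1) * (y + c ^ 2 * X) :=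
        mul_le_mul_of_nonneg_right (by linarith) (by positivity)
      have h4 := mul_le_mul_of_nonneg_left (h1.trans h3) (by positivity : (0 : ℝ) ≤ 4 * (L + 1))
      have h5 : 4 * ((L : ℝ) + 1) * (c * X) = 2 * X := by rw [hc]; field_simp; ring
      have h6 : 4 * ((L : ℝ) + 1) * (((L : ℝ) + 1) * (y + c ^ 2 * X)) =
          4 * ((L : ℝ) + 1) ^ 2 * y + X := by rw [hc]; field_simp; ring
      linarith
    rw [e1, hy]
    refine (ENNReal.ofReal_le_ofReal h2).trans (le_of_eq ?_)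
    rw [← ENNReal.ofReal_coe_nnreal (p := L), ← ENNReal.ofReal_coe_nnreal (p := y),
      ENNReal.ofReal_mul (by positivity), ENNReal.ofReal_mul (by positivity),
      ENNReal.ofReal_pow (by positivity), ENNReal.ofReal_add L.coe_nonneg zero_le_one]
    simp
  rw [n2, ← setLIntegral_univ, ← Metric.iUnion_closedBall_nat (0 : ℂ),
    setLIntegral_iUnion_of_directed _ (Monotone.directed_le fun i j hij =>
      Metric.closedBall_subset_closedBall (Nat.cast_le.2 hij))]
  exact iSup_le fun i => key _ measurableSet_closedBall measure_closedBall_lt_top.ne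

end Vale.Agent.P112
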