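import Vale.Agent.P112.LPa
import Vale.Agent.P112.Lin

/-!
Fixed direction. `A_inv`: `Real.fourierInv_eq`, Fubini for `(t, ξ) ↦ ϑ t * (𝐞 ⟪ξ, x - t • v x⟫ • M ξ)` (`Integrable.mul_prod`, `integral_integral_swap`), `inner_sub_right`,
`real_inner_smul_right`, `Real.fourier_eq` on the line. `hw`: `H = A (fun _ => w) ϑ g` is nice (`meas_A`, `A_bd`, integrable by `Integrable.integral_prod_left`: the shear keeps
the integral, `integrable_prod_iff'`, `integral_sub_right_eq_self`), `𝓕 H ξ = 𝓕 ϑ ⟪w, ξ⟫ * 𝓕 g ξ` (Fubini), `plan_eq` twice.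
-/

open MeasureTheory Set Real Filter
open scoped FourierTransform RealInnerProductSpace ContDiff ENNReal NNReal Topology

noncomputable section

namespace Vale.Agent.P112

open Vale.Agent.P117 (cv Ker Nice Sm Np)

variable {f g u v F κ q M : ℂ → ℂ} {G : ℂ → ℝ≥0∞} {ϑ : ℝ → ℂ} {c : ℕ → ℝ} {Ω E : Set ℂ}
  {a r s t δ B C D R : ℝ} {x y z : ℂ}

theorem hw_chr (r : ℝ) : ‖((Real.fourierChar r : Circle) : ℂ)‖ = 1 := Circle.norm_coe _

theorem hw_cont : Continuous fun r : ℝ => ((Real.fourierChar r : Circle) : ℂ) :=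
  continuous_subtype_val.comp Real.continuous_fourierChar

theorem hw_line (ϑ : ℝ → ℂ) (σ : ℝ) :
    𝓕 ϑ σ = ∫ t : ℝ, ((Real.fourierChar (-(t * σ)) : Circle) : ℂ) * ϑ t := by
  rw [Real.fourier_eq]
  refine integral_congr_ae (.of_forall fun t => ?_)
  simp only [Circle.smul_def, smul_eq_mul, RCLike.inner_apply, conj_trivial, mul_comm σ t]

theorem hw_prod (h : Tk R ϑ) (w : ℂ) (hg : Nice g) :
    Integrable (fun p : ℝ × ℂ => ϑ p.1 * g (p.2 - p.1 • w)) (volume.prod volume) := by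
  have hm : Measurable fun p : ℝ × ℂ => ϑ p.1 * g (p.2 - p.1 • w) :=
    (h.meas.comp measurable_fst).mul (hg.meas.comp (Continuous.measurable (by fun_prop)))
  refine (integrable_prod_iff hm.aestronglyMeasurable).2 ⟨.of_forall fun t =>
    (hg.int.comp_sub_right (t • w)).const_mul (ϑ t), ?_⟩
  have e : ∀ t : ℝ, ∫ x : ℂ, ‖ϑ t * g (x - t • w)‖ = ‖ϑ t‖ * ∫ x, ‖g x‖ := fun t => by
    simp only [norm_mul]
    rw [integral_const_mul, integral_sub_right_eq_self (fun x => ‖g x‖)]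
  simp only [e]
  exact h.int.norm.mul_const _

theorem hw_four (h : Tk R ϑ) (w : ℂ) (hg : Nice g) (ξ : ℂ) :
    𝓕 (A (fun _ => w) ϑ g) ξ = 𝓕 ϑ ⟪w, ξ⟫ * 𝓕 g ξ := by
  have hi : Integrable (Function.uncurry fun (t : ℝ) (x : ℂ) =>
      ((Real.fourierChar (-⟪x, ξ⟫) : Circle) : ℂ) * (ϑ t * g (x - t • w))) (volume.prod volume) :=
    (hw_prod h w hg).bdd_mul (c := 1)
      (hw_cont.comp (by fun_prop : Continuous fun p : ℝ × ℂ => -⟪p.2, ξ⟫)).aestronglyMeasurable
      (.of_forall fun p => (hw_chr _).le)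
  rw [Real.fourier_eq, hw_line, ← integral_mul_const]
  simp only [A, Circle.smul_def, smul_eq_mul, ← integral_const_mul]
  rw [← integral_integral_swap hi]
  refine integral_congr_ae (.of_forall fun t => ?_)
  simp only [Real.fourier_eq, Circle.smul_def, smul_eq_mul]
  rw [← integral_const_mul, ← integral_add_right_eq_self _ (t • w)]
  refine integral_congr_ae (.of_forall fun x => ?_)
  simp only [add_sub_cancel_right, inner_add_left, real_inner_smul_left, neg_add,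
    AddChar.map_add_eq_mul, Circle.coe_mul]
  ring

theorem A_inv (h : Tk R ϑ) (hM : Integrable M) (v : ℂ → ℂ) (x : ℂ) :
    A v ϑ (𝓕⁻ M) x = 𝓕⁻ (fun ξ => 𝓕 ϑ ⟪v x, ξ⟫ * M ξ) x := by
  have hi : Integrable (Function.uncurry fun (t : ℝ) (ξ : ℂ) =>
      ((Real.fourierChar ⟪ξ, x - t • v x⟫ : Circle) : ℂ) * (ϑ t * M ξ)) (volume.prod volume) :=
    (h.int.mul_prod hM).bdd_mul (c := 1)
      (hw_cont.comp (by fun_prop :
        Continuous fun p : ℝ × ℂ => ⟪p.2, x - p.1 • v x⟫)).aestronglyMeasurable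
      (.of_forall fun p => (hw_chr _).le)
  have e : A v ϑ (𝓕⁻ M) x = ∫ t : ℝ, ∫ ξ : ℂ,
      ((Real.fourierChar ⟪ξ, x - t • v x⟫ : Circle) : ℂ) * (ϑ t * M ξ) := by
    refine integral_congr_ae (.of_forall fun t => ?_)
    simp only [Real.fourierInv_eq, Circle.smul_def, smul_eq_mul]
    rw [← integral_const_mul]
    exact integral_congr_ae (.of_forall fun ξ => mul_left_comm _ _ _)
  rw [e, integral_integral_swap hi, Real.fourierInv_eq]
  refine integral_congr_ae (.of_forall fun ξ => ?_)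
  simp only [hw_line, Circle.smul_def, smul_eq_mul]
  rw [← integral_mul_const, ← integral_const_mul]
  refine integral_congr_ae (.of_forall fun t => ?_)
  simp only [inner_sub_right, real_inner_smul_right, sub_eq_add_neg ⟪ξ, x⟫,
    AddChar.map_add_eq_mul, Circle.coe_mul, real_inner_comm ξ (v x)]
  ring

theorem hw (h : Tk R ϑ) (hB : ∀ σ, ‖𝓕 ϑ σ‖ ≤ B) (w : ℂ) (hg : Nice g) :
    n2 (A (fun _ => w) ϑ g) ≤ ENNReal.ofReal B ^ 2 * n2 g := by
  have hn : Nice (A (fun _ => w) ϑ g) :=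
    ⟨meas_A continuous_const h.meas hg.meas, (hw_prod h w hg).integral_prod_right,
      A_bd h hg _⟩
  rw [← plan_eq hn, ← plan_eq hg, n2, n2,
    ← lintegral_const_mul' _ _ (ENNReal.pow_ne_top ENNReal.ofReal_ne_top)]
  refine lintegral_mono fun ξ => ?_
  rw [hw_four h w hg, enorm_mul, mul_pow]
  gcongr
  rw [← ofReal_norm]
  exact ENNReal.ofReal_le_ofReal (hB _)

end Vale.Agent.P112
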