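import Vale.Agent.P112.Mult
import Vale.Agent.P112.Ang

/-!
Dependence on the direction. `Real.fourierInv_eq`, `hasDerivAt_integral_of_dominated_loc_of_deriv_le` with bound `C * s * ‖ξ‖ * ‖M ξ‖` (`psi_bd`); `ee` has derivative `I * ee α`;
`HasDerivAt.inner`, `HasDerivAt.scomp`. Joint continuity by `continuous_of_dominated`.
-/

open MeasureTheory Set Real Filter
open scoped FourierTransform RealInnerProductSpace ContDiff ENNReal NNReal Topology

noncomputable section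

namespace Vale.Agent.P112

open Vale.Agent.P117 (cv Ker Nice Sm Np)

variable {f g u v F κ q M : ℂ → ℂ} {G : ℂ → ℝ≥0∞} {ϑ : ℝ → ℂ} {c : ℕ → ℝ} {Ω E : Set ℂ}
  {a r s t δ B C D R : ℝ} {x y z : ℂ}

theorem hia_ee : Continuous ee := by
  unfold ee
  fun_prop

theorem hia_psi : Continuous psi := by
  obtain ⟨C, _, h, _⟩ := psi_bd
  exact h.continuous

theorem hia_dpsi : Continuous (deriv psi) := by
  obtain ⟨C, _, _, h, _⟩ := psi_bd
  exact h

theorem hia_a (s : ℝ) : Continuous fun p : ℝ × ℂ => psi (s * ⟪ee p.1, p.2⟫) :=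
  hia_psi.comp (continuous_const.mul ((hia_ee.comp continuous_fst).inner continuous_snd))

theorem hia_b (s : ℝ) : Continuous fun p : ℝ × ℂ =>
    ((s * ⟪Complex.I * ee p.1, p.2⟫ : ℝ) : ℂ) * deriv psi (s * ⟪ee p.1, p.2⟫) :=
  (Complex.continuous_ofReal.comp (continuous_const.mul
    ((continuous_const.mul (hia_ee.comp continuous_fst)).inner continuous_snd))).mul
    (hia_dpsi.comp (continuous_const.mul ((hia_ee.comp continuous_fst).inner continuous_snd)))

theorem hia_bd : ∃ C : ℝ, ∀ (s : ℝ) (M : ℂ → ℂ) (α : ℝ) (ξ : ℂ),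
    ‖ma s M α ξ‖ ≤ C * ‖M ξ‖ ∧ ‖mb s M α ξ‖ ≤ C * |s| * (‖ξ‖ * ‖M ξ‖) := by
  obtain ⟨C, hC, _, _, h⟩ := psi_bd
  have h1 : ∀ (σ : ℝ) (w : ℂ), (1 + |σ|) ^ 2 * ‖w‖ ≤ C → ‖w‖ ≤ C := fun σ w hw =>
    (le_mul_of_one_le_left (norm_nonneg w)
      (one_le_pow₀ (le_add_of_nonneg_right (abs_nonneg σ)))).trans hw
  refine ⟨C, fun s M α ξ => ⟨?_, ?_⟩⟩
  · rw [ma, norm_mul]
    exact mul_le_mul_of_nonneg_right (h1 _ _ (h _).2.1) (norm_nonneg _)
  · have h2 : |⟪Complex.I * ee α, ξ⟫| ≤ ‖ξ‖ := by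
      refine (abs_real_inner_le_norm _ _).trans (le_of_eq ?_)
      rw [norm_mul, Complex.norm_I, norm_ee, one_mul, one_mul]
    have h3 := h1 _ _ (h (s * ⟪ee α, ξ⟫)).2.2
    rw [mb, norm_mul, norm_mul, Complex.norm_real, Real.norm_eq_abs, abs_mul]
    calc _ ≤ |s| * ‖ξ‖ * C * ‖M ξ‖ := by gcongr
      _ = _ := by ring

theorem hia_norm (ξ x w : ℂ) :
    ‖Complex.exp ((↑(2 * π * ⟪ξ, x⟫) * Complex.I)) • w‖ = ‖w‖ := by
  rw [norm_smul, Complex.norm_exp_ofReal_mul_I, one_mul]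

theorem hia_ex : Continuous fun p : ℂ × ℂ =>
    Complex.exp ((↑(2 * π * ⟪p.1, p.2⟫) * Complex.I)) := by
  fun_prop

theorem hia_ms {m : ℂ → ℂ} (hm : Measurable m) (x : ℂ) : AEStronglyMeasurable
    (fun ξ : ℂ => Complex.exp ((↑(2 * π * ⟪ξ, x⟫) * Complex.I)) • m ξ) volume :=
  (hia_ex.comp (continuous_id.prodMk continuous_const)).aestronglyMeasurable.smul
    hm.aestronglyMeasurable

theorem hia_cont {k : ℝ × ℂ → ℂ} (hk : Continuous k) (hm : Measurable M) {b : ℂ → ℝ}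
    (hb : Integrable b) (h : ∀ α ξ, ‖k (α, ξ) * M ξ‖ ≤ b ξ) :
    Continuous fun p : ℝ × ℂ => 𝓕⁻ (fun ξ => k (p.1, ξ) * M ξ) p.2 := by
  simp only [Real.fourierInv_eq']
  refine continuous_of_dominated (bound := b) (fun p => hia_ms
    ((hk.comp (continuous_const.prodMk continuous_id)).measurable.mul hm) _)
    (fun p => Eventually.of_forall fun ξ => (hia_norm _ _ _).trans_le (h _ _)) hb
    (Eventually.of_forall fun ξ => ?_)
  exact (hia_ex.comp (continuous_const.prodMk continuous_snd)).smul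
    ((hk.comp (continuous_fst.prodMk continuous_const)).mul continuous_const)

theorem hia_der (s : ℝ) (M : ℂ → ℂ) (α : ℝ) (ξ : ℂ) :
    HasDerivAt (fun α => ma s M α ξ) (mb s M α ξ) α := by
  obtain ⟨C, _, h, _⟩ := psi_bd
  have h1 : HasDerivAt ee (Complex.I * ee α) α := by
    have := ((hasDerivAt_id α).ofReal_comp.mul_const Complex.I).cexp
    rw [Complex.ofReal_one, one_mul, mul_comm] at this
    exact this
  have h2 : HasDerivAt (fun α => s * ⟪ee α, ξ⟫) (s * ⟪Complex.I * ee α, ξ⟫) α := by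
    have := (h1.inner ℝ (hasDerivAt_const α ξ)).const_mul s
    rwa [inner_zero_right, zero_add] at this
  have h3 := ((h (s * ⟪ee α, ξ⟫)).hasDerivAt.scomp α h2).mul_const (M ξ)
  rw [Complex.real_smul] at h3
  exact h3

theorem ma_meas (s : ℝ) (hm : Measurable M) : Measurable (Function.uncurry (ma s M)) := by
  exact (hia_a s).measurable.mul (hm.comp measurable_snd)

theorem mb_meas (s : ℝ) (hm : Measurable M) : Measurable (Function.uncurry (mb s M)) := by
  exact (hia_b s).measurable.mul (hm.comp measurable_snd)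

theorem ma_deriv (hs : 0 < s) (hm : Measurable M) (hM : Integrable M)
    (hM' : Integrable fun ξ => ‖ξ‖ * ‖M ξ‖) (x : ℂ) (α : ℝ) :
    HasDerivAt (fun α => 𝓕⁻ (ma s M α) x) (𝓕⁻ (mb s M α) x) α := by
  obtain ⟨C, hC⟩ := hia_bd
  have m1 : ∀ β, Measurable (ma s M β) := fun β => (ma_meas s hm).of_uncurry_left
  have m2 : ∀ β, Measurable (mb s M β) := fun β => (mb_meas s hm).of_uncurry_left
  simp only [Real.fourierInv_eq']
  refine (hasDerivAt_integral_of_dominated_loc_of_deriv_le (s := univ)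
    (F := fun β (ξ : ℂ) => Complex.exp ((↑(2 * π * ⟪ξ, x⟫) * Complex.I)) • ma s M β ξ)
    (F' := fun β (ξ : ℂ) => Complex.exp ((↑(2 * π * ⟪ξ, x⟫) * Complex.I)) • mb s M β ξ)
    (bound := fun ξ => C * |s| * (‖ξ‖ * ‖M ξ‖)) univ_mem
    (Eventually.of_forall fun β => hia_ms (m1 β) x) ?_ (hia_ms (m2 α) x)
    (Eventually.of_forall fun ξ β _ => (hia_norm _ _ _).trans_le (hC s M β ξ).2)
    (hM'.const_mul _) (Eventually.of_forall fun ξ β _ => (hia_der s M β ξ).fun_const_smul _)).2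
  exact (hM.norm.const_mul C).mono' (hia_ms (m1 α) x)
    (Eventually.of_forall fun ξ => (hia_norm _ _ _).trans_le (hC s M α ξ).1)

theorem ma_cont (s : ℝ) (hm : Measurable M) (hM : Integrable M) :
    Continuous fun p : ℝ × ℂ => 𝓕⁻ (ma s M p.1) p.2 := by
  obtain ⟨C, hC⟩ := hia_bd
  exact hia_cont (hia_a s) hm (hM.norm.const_mul C) fun α ξ => (hC s M α ξ).1

theorem mb_cont (hs : 0 < s) (hm : Measurable M) (hM' : Integrable fun ξ => ‖ξ‖ * ‖M ξ‖) :
    Continuous fun p : ℝ × ℂ => 𝓕⁻ (mb s M p.1) p.2 := by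
  obtain ⟨C, hC⟩ := hia_bd
  exact hia_cont (hia_b s) hm (hM'.const_mul (C * |s|)) fun α ξ => (hC s M α ξ).2

end Vale.Agent.P112
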