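import Vale.Agent.P112.HiA
import Vale.Agent.P112.Den

/-!
One direction. `psi_bd` gives `C₀`. With `σ = s ⟪ee α, ξ⟫`: `‖ma‖ ≤ C₀ (1+|σ|)⁻² ‖M‖`, `Δ ‖mb‖ ≤ 2 C₀ (1+|σ|)⁻² ‖M‖` (`Δ s ‖ξ‖ = δ ‖ξ‖ ≤ 2` where `M ξ ≠ 0`), both multipliers are integrable with one moment
(bounded support). `den` for both with `e = ee α`; `1 + 80 σ² ≤ 80 (1+|σ|)²`. So `C = ofReal (80 * 9 * C₀ ^ 2)` works.
-/

open MeasureTheory Set Real Filter
open scoped FourierTransform RealInnerProductSpace ContDiff ENNReal NNReal Topology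

noncomputable section

namespace Vale.Agent.P112

open Vale.Agent.P117 (cv Ker Nice Sm Np)

variable {f g u v F κ q M : ℂ → ℂ} {G : ℂ → ℝ≥0∞} {ϑ : ℝ → ℂ} {c : ℕ → ℝ} {Ω E : Set ℂ}
  {a r s t δ B C D R : ℝ} {x y z : ℂ}

theorem hib_one {m : ℂ → ℂ} {θ c : ℝ} {e : ℂ} (hΩ : MeasurableSet Ω) (hs : 0 < s)
    (h : ∀ z, volume {σ : ℝ | |σ| ≤ s ∧ z - σ • e ∈ Ω} ≤ ENNReal.ofReal (θ * s))
    (hM : Integrable M) (hR : ∀ ξ, M ξ ≠ 0 → ‖ξ‖ ≤ R) (hm : Measurable m)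
    (hb : ∀ ξ, (1 + |s * ⟪e, ξ⟫|) ^ 2 * ‖m ξ‖ ≤ c * ‖M ξ‖) :
    ∫⁻ x in Ω, ‖𝓕⁻ m x‖ₑ ^ 2 ≤ ENNReal.ofReal θ * (ENNReal.ofReal (80 * c ^ 2) *
      ∫⁻ ξ, ENNReal.ofReal ((1 + s * |⟪e, ξ⟫|) ^ 2)⁻¹ * ‖M ξ‖ₑ ^ 2) := by
  have h1 : ∀ ξ, ‖m ξ‖ ≤ c * ‖M ξ‖ := fun ξ => (le_mul_of_one_le_left (norm_nonneg _)
    (one_le_pow₀ (le_add_of_nonneg_right (abs_nonneg _)))).trans (hb ξ)
  have h2 := (hM.norm.const_mul c).mono' hm.aestronglyMeasurable (.of_forall h1)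
  refine (den hm h2 ((h2.norm.const_mul R).mono' (measurable_norm.mul hm.norm).aestronglyMeasurable
    (.of_forall fun ξ => ?_)) e hs hΩ h).trans (mul_le_mul_right ?_ _)
  · rw [Real.norm_of_nonneg (by positivity)]
    by_cases h3 : M ξ = 0
    · rw [norm_le_zero_iff.1 (by simpa [h3] using h1 ξ : ‖m ξ‖ ≤ 0)]
      simp
    · exact mul_le_mul_of_nonneg_right (hR ξ h3) (norm_nonneg _)
  · rw [← lintegral_const_mul' _ _ ENNReal.ofReal_ne_top]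
    refine lintegral_mono fun ξ => ?_
    rw [← ofReal_norm, ← ofReal_norm, ← ENNReal.ofReal_pow (norm_nonneg _),
      ← ENNReal.ofReal_pow (norm_nonneg _), ← ENNReal.ofReal_mul (by positivity),
      ← ENNReal.ofReal_mul (by positivity), ← ENNReal.ofReal_mul (by positivity)]
    refine ENNReal.ofReal_le_ofReal ?_
    have h3 := pow_le_pow_left₀ (by positivity) (hb ξ) 2
    rw [← abs_of_pos hs, ← abs_mul, abs_of_pos hs, ← sq_abs (s * _)]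
    generalize |s * ⟪e, ξ⟫| = σ, abs_nonneg (s * ⟪e, ξ⟫) = h4 at h3 ⊢
    rw [inv_mul_eq_div, ← mul_div_assoc, le_div_iff₀ (by positivity)]
    have h5 : (1 + 80 * σ ^ 2) * (‖m ξ‖ ^ 2 * (1 + σ) ^ 2) ≤
        80 * (1 + σ) ^ 2 * (‖m ξ‖ ^ 2 * (1 + σ) ^ 2) :=
      mul_le_mul_of_nonneg_right (by nlinarith) (by positivity)
    nlinarith

theorem hi_dir : ∃ C : ℝ≥0∞, C ≠ ⊤ ∧ ∀ (Ω : Set ℂ) (s δ θ α : ℝ) (M : ℂ → ℂ), MeasurableSet Ω →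
    0 < δ → 0 < s → (∀ z, volume {σ : ℝ | |σ| ≤ s ∧ z - σ • ee α ∈ Ω} ≤ ENNReal.ofReal (θ * s)) →
    Measurable M → Integrable M → (∀ ξ, M ξ ≠ 0 → ‖ξ‖ ≤ 2 / δ) →
    ∫⁻ x in Ω, (‖𝓕⁻ (ma s M α) x‖ₑ ^ 2 +
      ENNReal.ofReal (2 * (δ / s) ^ 2) * ‖𝓕⁻ (mb s M α) x‖ₑ ^ 2) ≤
      C * ENNReal.ofReal θ *
        ∫⁻ ξ, ENNReal.ofReal ((1 + s * |⟪ee α, ξ⟫|) ^ 2)⁻¹ * ‖M ξ‖ₑ ^ 2 := by
  obtain ⟨C, hC, -, -, h⟩ := psi_bd
  refine ⟨ENNReal.ofReal (80 * C ^ 2) + ENNReal.ofReal (640 * C ^ 2), by finiteness,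
    fun Ω s δ θ α M hΩ hδ hs hθ hm hM hR => ?_⟩
  have h1 := hib_one (m := ma s M α) (c := C) hΩ hs hθ hM hR (ma_meas s hm).of_uncurry_left fun ξ => by
    rw [ma, norm_mul, ← mul_assoc]
    exact mul_le_mul_of_nonneg_right (h _).2.1 (norm_nonneg _)
  have h2 := hib_one (m := mb s M α) (c := s * (2 / δ) * C) hΩ hs hθ hM hR
    (mb_meas s hm).of_uncurry_left fun ξ => by
      by_cases h3 : M ξ = 0
      · simp [mb, h3]
      rw [mb, norm_mul, norm_mul, ← mul_assoc, mul_left_comm, Complex.norm_real, norm_mul,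
        Real.norm_of_nonneg hs.le]
      refine mul_le_mul_of_nonneg_right (mul_le_mul (mul_le_mul_of_nonneg_left
        ((norm_inner_le_norm _ _).trans ?_) hs.le) (h _).2.2 (by positivity) (by positivity))
          (norm_nonneg _)
      rw [norm_mul, Complex.norm_I, norm_ee, one_mul, one_mul]
      exact hR ξ h3
  have h3 : Continuous fun x => 𝓕⁻ (ma s M α) x := by
    simpa only [Function.comp_def] using (ma_cont s hm hM).comp (Continuous.prodMk_right α)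
  rw [lintegral_add_left (h3.measurable.enorm.pow_const 2),
    lintegral_const_mul' _ _ ENNReal.ofReal_ne_top]
  refine (add_le_add h1 (mul_le_mul_right h2 _)).trans_eq ?_
  rw [mul_left_comm (ENNReal.ofReal (2 * _)), ← mul_assoc (ENNReal.ofReal (2 * _)),
    ← ENNReal.ofReal_mul (by positivity), show 2 * (δ / s) ^ 2 * (80 * (s * (2 / δ) * C) ^ 2) =
      640 * C ^ 2 by field_simp; ring]
  ring

end Vale.Agent.P112
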