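import Vale.Agent.P112.HiB
import Vale.Agent.P112.HW
import Vale.Agent.P112.HH

/-!
One scale, high frequency. `Δ = δ / s ≤ 1`. `A_inv`, `hh_scale`, `ee_arg`: `A v (hh s 1) (𝓕⁻ M) x = 𝓕⁻ (ma s M (arg (v x))) x`. `sob1` in the angle at `a = arg (v x)` with length `Δ`
(`ma_deriv`, `mb_cont`); `Icc (a - Δ) (a + Δ) ⊆ Icc (-5) 5` (`Complex.abs_arg_le_pi`), write it as an integral over `Icc (-5) 5` of an indicator of `{|α - arg (v x)| ≤ Δ}`; swap
(`Complex.measurable_arg`, `ma_cont`, `mb_cont`); `hi_dir` with `Ω ∩ {x | |α - arg (v x)| ≤ Δ}` (`Thin`); swap; `ang` gives `100 / (s ‖ξ‖) ≤ 200 Δ` where `M ξ ≠ 0`; cancel `ofReal Δ`.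
-/

open MeasureTheory Set Real Filter
open scoped FourierTransform RealInnerProductSpace ContDiff ENNReal NNReal Topology

noncomputable section

namespace Vale.Agent.P112

open Vale.Agent.P117 (cv Ker Nice Sm Np)

variable {f g u v F κ q M : ℂ → ℂ} {G : ℂ → ℝ≥0∞} {ϑ : ℝ → ℂ} {c : ℕ → ℝ} {Ω E : Set ℂ}
  {a r s t δ B C D R : ℝ} {x y z : ℂ}

theorem hione_ang (hδ : 0 < δ) (hs : 0 < s) (hm : Measurable M)
    (hM : ∀ ξ, M ξ ≠ 0 → 1 / (2 * δ) ≤ ‖ξ‖) :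
    ∫⁻ α in Icc (-5 : ℝ) 5, ∫⁻ ξ, ENNReal.ofReal ((1 + s * |⟪ee α, ξ⟫|) ^ 2)⁻¹ * ‖M ξ‖ₑ ^ 2 ≤
      ENNReal.ofReal (δ / s) * (ENNReal.ofReal 200 * n2 M) := by
  have hw : Measurable fun p : ℝ × ℂ => ENNReal.ofReal ((1 + s * |⟪ee p.1, p.2⟫|) ^ 2)⁻¹ := by
    refine ENNReal.measurable_ofReal.comp (Measurable.inv (Continuous.measurable ?_))
    unfold ee
    fun_prop
  rw [lintegral_lintegral_swap
    (hw.mul ((hm.comp measurable_snd).enorm.pow_const 2)).aemeasurable, ← mul_assoc,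
    ← ENNReal.ofReal_mul (by positivity), n2, ← lintegral_const_mul' _ _ ENNReal.ofReal_ne_top]
  refine lintegral_mono fun ξ => ?_
  by_cases h0 : M ξ = 0
  · simp [h0]
  · have h1 := hM ξ h0
    have h2 : 0 < ‖ξ‖ := lt_of_lt_of_le (by positivity) h1
    rw [lintegral_mul_const' _ _ (by simp)]
    refine mul_le_mul_left ((ang hs (norm_pos_iff.1 h2)).trans (ENNReal.ofReal_le_ofReal ?_)) _
    rw [div_le_iff₀ (by positivity)] at h1 ⊢
    have e : δ / s * 200 * (s * ‖ξ‖) = 100 * (‖ξ‖ * (2 * δ)) := by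
      field_simp
      norm_num
    rw [e]
    linarith

theorem hi_one : ∃ C : ℝ≥0∞, C ≠ ⊤ ∧ ∀ (v : ℂ → ℂ) (Ω : Set ℂ) (s δ θ : ℝ) (M : ℂ → ℂ),
    (∀ x, ‖v x‖ = 1) → Continuous v → MeasurableSet Ω → 0 < δ → δ ≤ s → Thin v Ω s (δ / s) θ →
    Measurable M → Integrable M → (∀ ξ, M ξ ≠ 0 → 1 / (2 * δ) ≤ ‖ξ‖ ∧ ‖ξ‖ ≤ 2 / δ) →
    ∫⁻ x in Ω, ‖A v (hh s 1) (𝓕⁻ M) x‖ₑ ^ 2 ≤ C * ENNReal.ofReal θ * n2 M := by
  obtain ⟨C, hC, H⟩ := hi_dir
  refine ⟨C * ENNReal.ofReal 200, ENNReal.mul_ne_top hC ENNReal.ofReal_ne_top,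
    fun v Ω s δ θ M hv hc hΩ hδ hδs hT hm hM hsup => ?_⟩
  have hs : 0 < s := hδ.trans_le hδs
  have hΔ : 0 < δ / s := by positivity
  have hΔ1 : δ / s ≤ 1 := (div_le_one hs).2 hδs
  have hM' : Integrable fun ξ => ‖ξ‖ * ‖M ξ‖ := by
    refine (hM.norm.const_mul (2 / δ)).mono' (by fun_prop) (ae_of_all _ fun ξ => ?_)
    rw [Real.norm_of_nonneg (by positivity)]
    by_cases h0 : M ξ = 0
    · simp [h0]
    · exact mul_le_mul_of_nonneg_right (hsup ξ h0).2 (norm_nonneg _)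
  obtain ⟨Φ, hΦ⟩ : ∃ Φ : ℝ × ℂ → ℝ≥0∞, Φ = fun p => ‖𝓕⁻ (ma s M p.1) p.2‖ₑ ^ 2 +
    ENNReal.ofReal (2 * (δ / s) ^ 2) * ‖𝓕⁻ (mb s M p.1) p.2‖ₑ ^ 2 := ⟨_, rfl⟩
  have hΦm : Measurable Φ := by
    rw [hΦ]
    exact ((ma_cont s hm hM).measurable.enorm.pow_const 2).add
      (((mb_cont hs hm hM').measurable.enorm.pow_const 2).const_mul _)
  have ha : Measurable fun x => Complex.arg (v x) := Complex.measurable_arg.comp hc.measurable
  have hTm : MeasurableSet {p : ℝ × ℂ | |p.1 - Complex.arg (v p.2)| ≤ δ / s} :=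
    measurableSet_le (measurable_fst.sub (ha.comp measurable_snd)).abs measurable_const
  have h1 : ∀ x, ENNReal.ofReal (δ / s) * ‖A v (hh s 1) (𝓕⁻ M) x‖ₑ ^ 2 ≤
      ∫⁻ α in Icc (-5 : ℝ) 5,
        {p : ℝ × ℂ | |p.1 - Complex.arg (v p.2)| ≤ δ / s}.indicator Φ (α, x) := by
    intro x
    have e : A v (hh s 1) (𝓕⁻ M) x = 𝓕⁻ (ma s M (Complex.arg (v x))) x := by
      rw [A_inv (hh_tk hs 1) hM]
      refine congrArg (fun F : ℂ → ℂ => 𝓕⁻ F x) (funext fun ξ => ?_)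
      rw [hh_scale hs, ma, ee_arg (hv x)]
    have e2 : ∀ α, {p : ℝ × ℂ | |p.1 - Complex.arg (v p.2)| ≤ δ / s}.indicator Φ (α, x) =
        (Icc (Complex.arg (v x) - δ / s) (Complex.arg (v x) + δ / s)).indicator
          (fun α => Φ (α, x)) α := by
      intro α
      have : (α, x) ∈ {p : ℝ × ℂ | |p.1 - Complex.arg (v p.2)| ≤ δ / s} ↔
          α ∈ Icc (Complex.arg (v x) - δ / s) (Complex.arg (v x) + δ / s) := by
        simp only [mem_ofPred_eq, abs_le, mem_Icc]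
        constructor <;> rintro ⟨p, q⟩ <;> constructor <;> linarith
      by_cases h : α ∈ Icc (Complex.arg (v x) - δ / s) (Complex.arg (v x) + δ / s)
      · rw [indicator_of_mem h, indicator_of_mem (this.2 h)]
      · rw [indicator_of_notMem h, indicator_of_notMem (mt this.1 h)]
    have h2 := abs_le.1 (Complex.abs_arg_le_pi (v x))
    have h3 := pi_le_four
    simp only [e2]
    rw [e, lintegral_indicator measurableSet_Icc, Measure.restrict_restrict measurableSet_Icc,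
      inter_eq_left.2 (Icc_subset_Icc (by linarith) (by linarith)), hΦ]
    have h4 : Continuous fun α : ℝ => 𝓕⁻ (mb s M α) x :=
      (mb_cont hs hm hM').comp (f := fun α : ℝ => (α, x)) (Continuous.prodMk_left x)
    exact sob1 (ma_deriv hs hm hM hM' x) h4 _ hΔ
  have h2 : ∀ α : ℝ, ∫⁻ x in Ω,
      {p : ℝ × ℂ | |p.1 - Complex.arg (v p.2)| ≤ δ / s}.indicator Φ (α, x) ≤
      C * ENNReal.ofReal θ *
        ∫⁻ ξ, ENNReal.ofReal ((1 + s * |⟪ee α, ξ⟫|) ^ 2)⁻¹ * ‖M ξ‖ₑ ^ 2 := by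
    intro α
    have hE : MeasurableSet {x | |α - Complex.arg (v x)| ≤ δ / s} :=
      measurableSet_le (measurable_const.sub ha).abs measurable_const
    have e : ∀ x, {p : ℝ × ℂ | |p.1 - Complex.arg (v p.2)| ≤ δ / s}.indicator Φ (α, x) =
        {x | |α - Complex.arg (v x)| ≤ δ / s}.indicator (fun x => Φ (α, x)) x := fun x => rfl
    simp only [e]
    rw [lintegral_indicator hE, Measure.restrict_restrict hE, inter_comm, hΦ]
    exact H _ s δ θ α M (hΩ.inter hE) hδ hs (fun z => hT α z) hm hM fun ξ h => (hsup ξ h).2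
  refine (ENNReal.mul_le_mul_iff_right (a := ENNReal.ofReal (δ / s)) (by simpa using hΔ)
    ENNReal.ofReal_ne_top).1 ?_
  rw [← lintegral_const_mul' _ _ ENNReal.ofReal_ne_top]
  refine (lintegral_mono h1).trans ?_
  rw [← lintegral_lintegral_swap (f := fun α x =>
    {p : ℝ × ℂ | |p.1 - Complex.arg (v p.2)| ≤ δ / s}.indicator Φ (α, x))
    (hΦm.indicator hTm).aemeasurable]
  refine (lintegral_mono h2).trans ?_
  rw [lintegral_const_mul' _ _ (ENNReal.mul_ne_top hC ENNReal.ofReal_ne_top)]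
  refine (mul_le_mul_right (hione_ang hδ hs hm fun ξ h => (hsup ξ h).1) _).trans (le_of_eq ?_)
  ring

end Vale.Agent.P112
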