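import Vale.Agent.P112.HighA
import Vale.Agent.P112.Geo
import Vale.Agent.P112.Triv

/-!
Sum over the scales: `high_one`, `rho_sum` with `r = 2 ^ (m+1) * (4 * dl j)` (`om_mono` for the lower bound), `tail_sum`, `lintegral_finset_sum`; `c m ^ 2` and `dl m ^ 2` are at most `(|c m| + dl m) ^ 2`.
-/

open MeasureTheory Set Real Filter
open scoped FourierTransform RealInnerProductSpace ContDiff ENNReal NNReal Topology

noncomputable section

namespace Vale.Agent.P112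

open Vale.Agent.P117 (cv Ker Nice Sm Np)

variable {f g u v F κ q M : ℂ → ℂ} {G : ℂ → ℝ≥0∞} {ϑ : ℝ → ℂ} {c : ℕ → ℝ} {Ω E : Set ℂ}
  {a r s t δ B C D R : ℝ} {x y z : ℂ}

theorem high (D : ℝ) : ∃ C : ℝ≥0∞, C ≠ ⊤ ∧ ∀ (c : ℕ → ℝ) (v : ℂ → ℂ), Fld c v → Dbl D v →
    ∀ a : ℝ, 0 < a → a ≤ 1 / 16 → ∀ (j m N : ℕ) (u : ℂ → ℂ), Nice u →
    ∑ k ∈ Finset.range N, ∫⁻ x in Hi v (dl j) (sc a k) m, ‖A v (hh (sc a k) 1) (P j u) x‖ₑ ^ 2 ≤
      (C * ENNReal.ofReal (|c m| + dl m)) ^ 2 * n2 u := by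
  obtain ⟨C, hC, h⟩ := high_one
  set L := ENNReal.ofReal (40 * D ^ 3) with hL
  refine ⟨C * (L + 64 * cW ^ 2 * L) + 1, ?_, fun c v hv hD a ha ha' j m N u hu => ?_⟩
  · have := cW_ne_top
    have : L ≠ ⊤ := ENNReal.ofReal_ne_top
    finiteness
  have hr : 0 < 2 ^ (m + 1) * (4 * dl j) := by have := dl_pos j; positivity
  have h1 := fun z => rho_sum hv.unit hv.lip hD ha ha' hr (Ω := fun k => Hi v (dl j) (sc a k) m)
    (fun _ _ hx => hx.2) (fun k x hx => by
      have h2 := sc_pos ha (k + 1)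
      have h3 := om_mono hv.lip.continuous x h2.le (r := 2 * sc a (k + 1)) (by linarith)
      have h4 := hx.1
      rw [pow_succ]
      nlinarith) z N
  have hm := fun k => meas_rho (seg v (Hi v (dl j) (sc a k) m) (sc a k)) hr
  have h2 := tail_sum (lip_two hv.lip) ha (by linarith) (dl_pos j) hm h1 hu.meas.enorm
  have h3 : ∑ k ∈ Finset.range N, Q (fun z => rho (seg v (Hi v (dl j) (sc a k) m) (sc a k))
      (2 ^ (m + 1) * (4 * dl j)) z * ‖u z‖ₑ) ≤ L * n2 u := by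
    simp only [Q, n2]
    rw [← lintegral_const_mul _ (hu.meas.enorm.pow_const 2)]
    refine (lintegral_finsetSum _ fun k _ =>
      ((hm k).mul hu.meas.enorm).pow_const 2).ge.trans (lintegral_mono fun z => ?_)
    simp only [Pi.mul_apply, mul_pow, ← Finset.sum_mul]
    exact mul_le_mul_left (h1 z) _
  have h4 : ENNReal.ofReal (c m ^ 2) ≤ ENNReal.ofReal (|c m| + dl m) ^ 2 := by
    rw [← ENNReal.ofReal_pow (add_nonneg (abs_nonneg _) (dl_pos m).le), ← sq_abs]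
    exact ENNReal.ofReal_le_ofReal (pow_le_pow_left₀ (abs_nonneg _)
      (le_add_of_nonneg_right (dl_pos m).le) 2)
  have h5 : ENNReal.ofReal (dl m ^ 2) ≤ ENNReal.ofReal (|c m| + dl m) ^ 2 := by
    rw [← ENNReal.ofReal_pow (add_nonneg (abs_nonneg _) (dl_pos m).le)]
    exact ENNReal.ofReal_le_ofReal (pow_le_pow_left₀ (dl_pos m).le
      (le_add_of_nonneg_left (abs_nonneg _)) 2)
  refine (Finset.sum_le_sum fun k _ => h c v hv _ (sc_pos ha k) ((sc_le ha k).trans ha') j m u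
    hu).trans ?_
  rw [← Finset.mul_sum, Finset.sum_add_distrib, ← Finset.mul_sum, ← Finset.mul_sum, mul_pow]
  calc _ ≤ C * (ENNReal.ofReal (|c m| + dl m) ^ 2 * (L * n2 u) +
        ENNReal.ofReal (|c m| + dl m) ^ 2 * (64 * cW ^ 2 * L * n2 u)) := by
        gcongr
        exact h2
    _ = C * (L + 64 * cW ^ 2 * L) * ENNReal.ofReal (|c m| + dl m) ^ 2 * n2 u := by ring
    _ ≤ _ := by
        gcongr
        exact le_self_add.trans (le_self_pow₀ le_add_self two_ne_zero)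

end Vale.Agent.P112
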