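import Vale.Agent.P112.LPa

/-!
`lp j = lp 0 (dl j • ·)` and `pm (j+1) = m₁ (dl (j+1) • ·)` with `m₁ ξ = lp 0 ξ - lp 0 (2 • ξ)`, `Sm m₁`. For `Sm m` the function `K = 𝓕⁻ m` is a Schwartz
function (`HasCompactSupport.toSchwartzMap`, `SchwartzMap.fourierInv_coe`), so `(1 + ‖u‖) ^ 10 * ‖iteratedFDeriv ℝ n K u‖ ≤ C` for `n ≤ 1`
(`SchwartzMap.one_add_le_sup_seminorm_apply`, `norm_iteratedFDeriv_one`); `𝓕⁻ (m (δ • ·)) u = (δ ^ 2)⁻¹ * K (δ⁻¹ • u)` (`Measure.integral_comp_smul`,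
`Complex.finrank_real_complex`). First prove: `Sm m → ∃ C, ∀ δ > 0, KC C δ (𝓕⁻ fun ξ => m (δ • ξ))`, and monotonicity of `KC` in `C`.
-/

open MeasureTheory Set Real Filter
open scoped FourierTransform RealInnerProductSpace ContDiff ENNReal NNReal Topology

noncomputable section

namespace Vale.Agent.P112

open Vale.Agent.P117 (cv Ker Nice Sm Np)

variable {f g u v F κ q M : ℂ → ℂ} {G : ℂ → ℝ≥0∞} {ϑ : ℝ → ℂ} {c : ℕ → ℝ} {Ω E : Set ℂ}
  {a r s t δ B C D R : ℝ} {x y z : ℂ}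

theorem kern_sm (h : Sm M) (hδ : δ ≠ 0) : Sm fun ξ => M (δ • ξ) :=
  ⟨h.smooth.comp (contDiff_const_smul δ), h.cs.comp_smul hδ⟩

theorem kern_scale (M : ℂ → ℂ) (hδ : 0 < δ) :
    (𝓕⁻ fun ξ => M (δ • ξ)) = fun u => (δ ^ 2)⁻¹ • 𝓕⁻ M (δ⁻¹ • u) := by
  funext u
  have h := Measure.integral_comp_smul volume (fun η : ℂ => 𝐞 ⟪η, δ⁻¹ • u⟫ • M η) δ
  rw [Complex.finrank_real_complex, abs_of_nonneg (by positivity)] at h
  rw [Real.fourierInv_eq, Real.fourierInv_eq, ← h]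
  simp only [real_inner_smul_left, real_inner_smul_right, inv_mul_cancel_left₀ hδ.ne']

theorem kern_mono (h : KC C δ κ) (hC : C ≤ D) : KC D δ κ := by
  have h0 := h.d0
  have w : ∀ u, 0 ≤ wr 10 δ u := fun u => by unfold wr; positivity
  exact ⟨h.C0.trans hC, h0, h.ker, h.sm,
    fun u => (h.b0 u).trans (mul_le_mul_of_nonneg_right hC (w u)), fun u => (h.b1 u).trans
      (mul_le_mul_of_nonneg_right (div_le_div_of_nonneg_right hC h0.le) (w u))⟩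

theorem kern_one (h : Sm M) : ∃ C : ℝ, ∀ δ : ℝ, 0 < δ → KC C δ (𝓕⁻ fun ξ => M (δ • ξ)) := by
  obtain ⟨K, hK⟩ : ∃ K : SchwartzMap ℂ ℂ, ⇑K = 𝓕⁻ M :=
    ⟨𝓕⁻ (h.cs.toSchwartzMap h.smooth), SchwartzMap.fourierInv_coe _⟩
  obtain ⟨C, hC⟩ : ∃ C : ℝ, ∀ n ≤ 1, ∀ u, (1 + ‖u‖) ^ 10 * ‖iteratedFDeriv ℝ n K u‖ ≤ C :=
    ⟨_, fun n hn u => SchwartzMap.one_add_le_sup_seminorm_apply (𝕜 := ℝ) (m := (10, 1)) le_rfl hn K u⟩
  refine ⟨C, fun δ hδ => ?_⟩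
  have k : ∀ n ≤ 1, ∀ u : ℂ, (δ ^ 2)⁻¹ * ‖iteratedFDeriv ℝ n K (δ⁻¹ • u)‖ ≤ C * wr 10 δ u :=
    fun n hn u => by
      have h1 := hC n hn (δ⁻¹ • u)
      rw [norm_smul, Real.norm_of_nonneg (inv_nonneg.2 hδ.le), ← div_eq_inv_mul,
        ← le_div_iff₀' (by positivity)] at h1
      rw [wr, mul_inv, mul_left_comm]
      exact mul_le_mul_of_nonneg_left h1 (by positivity)
  have hs : ContDiff ℝ 1 fun u : ℂ => K (δ⁻¹ • u) := (K.smooth 1).comp (contDiff_const_smul _)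
  refine ⟨le_trans (by positivity) (hC 0 zero_le_one 0), hδ, (kern_sm h hδ.ne').ker_inv, ?_,
    fun u => ?_, fun u => ?_⟩ <;> rw [kern_scale M hδ, ← hK]
  · exact hs.const_smul _
  · simpa only [norm_smul, Real.norm_of_nonneg (inv_nonneg.2 (sq_nonneg δ)),
      norm_iteratedFDeriv_zero] using k 0 zero_le_one u
  · have h1 := mul_le_mul_of_nonneg_left (k 1 le_rfl u) (inv_nonneg.2 hδ.le)
    rw [fderiv_fun_const_smul (hs.differentiable one_ne_zero u), fderiv_comp_smul, norm_smul,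
      norm_smul, Real.norm_of_nonneg (inv_nonneg.2 (sq_nonneg δ)),
      Real.norm_of_nonneg (inv_nonneg.2 hδ.le), div_eq_inv_mul, mul_assoc, mul_left_comm]
    rwa [norm_iteratedFDeriv_one] at h1

theorem kern : ∃ C : ℝ, ∀ j, KC C (dl j) (𝓕⁻ (pm j)) ∧ KC C (dl j) (𝓕⁻ (lp j)) := by
  obtain ⟨C, hC⟩ := kern_one (lp_sm 0)
  obtain ⟨D, hD⟩ := kern_one (kern_sm (pm_sm 1) two_ne_zero)
  have e : ∀ j, lp j = fun ξ => lp 0 (dl j • ξ) := fun j => funext fun ξ => by simp [lp, dl]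
  have k : ∀ j, KC (max C D) (dl j) (𝓕⁻ (lp j)) := fun j => by
    rw [e j]
    exact kern_mono (hC _ (dl_pos j)) (le_max_left _ _)
  refine ⟨max C D, fun j => ⟨?_, k j⟩⟩
  cases j with
  | zero => exact k 0
  | succ j =>
    have e1 : dl (0 + 1) * (2 * dl (j + 1)) = dl (j + 1) := by
      simp only [dl]
      ring
    have e2 : dl 0 * (2 * dl (j + 1)) = dl j := by
      simp only [dl]
      ring
    have e3 : pm (j + 1) = fun ξ => pm 1 ((2 : ℝ) • dl (j + 1) • ξ) := funext fun ξ => by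
      simp only [pm, lp, smul_smul, e1, e2]
    rw [e3]
    exact kern_mono (hD _ (dl_pos _)) (le_max_right _ _)

end Vale.Agent.P112
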