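import Vale.Agent.P112.Om
import Vale.Agent.P112.Ang

/-!
If the set of `σ` is empty there is nothing to prove. Else fix `σ₀` in it, `x = z - σ₀ • e`, `e = ee α`, `Δ = δ / s`. For `σ` in the set put `τ = σ₀ - σ`, `x' = x + τ • e`, `|τ| ≤ 2 s ≤ 1`;
`‖v x - e‖ ≤ Δ`, `‖v x' - e‖ ≤ Δ` (`ee_arg`, `ee_sub`), `‖x' - (x + τ • v x)‖ ≤ Δ`, so `‖v (x + τ • v x) - v x‖ ≤ 3 Δ < om v x s / 2 ^ m ≤ om v x (2 s) / 2 ^ m`; `om_eq`, `h.sub` at `2 s`;
the set is contained in a preimage under `σ ↦ σ₀ - σ` (`measure_preimage_sub_left` or `Measure.measurePreserving_sub_left`; use `MeasurePreserving.measure_preimage_emb` or `measure_preimage_le`).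
-/

open MeasureTheory Set Real Filter
open scoped FourierTransform RealInnerProductSpace ContDiff ENNReal NNReal Topology

noncomputable section

namespace Vale.Agent.P112

open Vale.Agent.P117 (cv Ker Nice Sm Np)

variable {f g u v F κ q M : ℂ → ℂ} {G : ℂ → ℝ≥0∞} {ϑ : ℝ → ℂ} {c : ℕ → ℝ} {Ω E : Set ℂ}
  {a r s t δ B C D R : ℝ} {x y z : ℂ}

theorem thin (h : Fld c v) (hδ : 0 < δ) (hs : 0 < s) (hs' : s ≤ 1 / 2) (m : ℕ) :
    Thin v (Hi v δ s m) s (δ / s) (2 * c m ^ 2) := by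
  intro α z
  have hv := h.lip.continuous
  have hd : ∀ w, |α - Complex.arg (v w)| ≤ δ / s → ‖ee α - v w‖ ≤ δ / s := fun w hw => by
    rw [← ee_arg (h.unit w)]
    exact (ee_sub _ _).trans hw
  rcases eq_empty_or_nonempty {σ : ℝ | |σ| ≤ s ∧ z - σ • ee α ∈ Hi v δ s m ∧
    |α - Complex.arg (v (z - σ • ee α))| ≤ δ / s} with h0 | ⟨σ₀, a1, a2, a3⟩
  · rw [h0, measure_empty]
    exact zero_le
  obtain ⟨x, hx⟩ : ∃ x, x = z - σ₀ • ee α := ⟨_, rfl⟩
  rw [← hx] at a2 a3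
  obtain ⟨t₀, b1, b2⟩ := om_eq hv x (s := 2 * s) (by linarith)
  have b3 : 3 * (δ / s) < ‖v (x + t₀ • v x) - v x‖ / 2 ^ m := by
    have c1 := mul_le_mul_of_nonneg_left (om_mono hv x hs.le (r := 2 * s) (by linarith)) hs.le
    have c2 : (0 : ℝ) < 2 ^ m := by positivity
    rw [← b2, ← mul_div_assoc, div_lt_div_iff₀ hs c2]
    nlinarith [a2.1, mul_pos c2 hδ]
  have b4 := h.sub x (2 * s) t₀ m (by linarith) (by linarith) b1
  rw [← (Measure.measurePreserving_sub_left volume σ₀).measure_preimage_emb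
    (MeasurableEquiv.subLeft σ₀).measurableEmbedding] at b4
  refine (measure_mono fun σ hσ => ?_).trans (b4.trans_eq (by congr 1; ring))
  obtain ⟨c1, c2, c3⟩ := hσ
  have c4 : |σ₀ - σ| ≤ 2 * s := (abs_sub _ _).trans (by linarith)
  refine ⟨c4, lt_of_le_of_lt ?_ b3⟩
  have c5 : ‖v (x + (σ₀ - σ) • v x) - v (z - σ • ee α)‖ ≤ δ / s := by
    refine (h.lip.norm_sub_le _ _).trans ?_
    have e : x + (σ₀ - σ) • v x - (z - σ • ee α) = -((σ₀ - σ) • (ee α - v x)) := by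
      nth_rewrite 1 [hx]
      module
    rw [e, NNReal.coe_one, one_mul, norm_neg, norm_smul, Real.norm_eq_abs]
    exact (mul_le_of_le_one_left (norm_nonneg _) (by linarith)).trans (hd x a3)
  have c6 := hd _ c3
  rw [norm_sub_rev] at c6
  linarith [hd x a3, norm_sub_le_norm_sub_add_norm_sub (v (x + (σ₀ - σ) • v x))
    (v (z - σ • ee α)) (v x), norm_sub_le_norm_sub_add_norm_sub (v (z - σ • ee α)) (ee α) (v x)]

end Vale.Agent.P112
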