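import Vale.Agent.P112.HiOne
import Vale.Agent.P112.Thin
import Vale.Agent.P112.Kern
import Vale.Agent.P112.KLip
import Vale.Agent.P112.Mink

/-!
One scale and one level. `δ = dl j`, `Ω = Hi v δ s m`, `r = 2 ^ (m+1) * (4 δ)`, `ρ = rho (seg v Ω s) r`. If `Ω` is empty the left side is 0. Else `4 δ < s ^ 2` (`om_le`), so `δ ≤ s` and `j = i + 1`.
`E = {z | 1 ≤ 2 * ρ z}`, `u = E.indicator u + Eᶜ.indicator u` (`nice_indicator`, `P117.cv_add_right`, `A_add`, `P_ker`), `(a + b) ^ 2 ≤ 2 a² + 2 b²`.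
Main part: `P_eq`, `hi_one` with `M = pm j * 𝓕 (E.indicator u)` (`pm_out`, `pm_in`, `P117.integrable_mul_fourier`), `thin`, `n2 M ≤ n2 (E.indicator u) ≤ 4 ∫⁻ ρ² ‖u‖ₑ²`.
Tail: for `p ∈ seg v Ω s`, `z ∉ E`: `r < ‖p - z‖`, so `W 5 δ (p - z) ≤ W 4 δ (p - z) * ofReal (dl m)` and `wv 5 δ ‖Eᶜ.indicator u‖ₑ p ≤ ofReal (dl m) * wv 4 δ ‖u‖ₑ p ≤ ofReal (dl m) * wv 3 δ (ρ ‖u‖ₑ) p`
(`wv_rho`); `kc_le` with `R = 0`, `hh_one_le`, `(hh_tk ..).supp`: the tail at `x ∈ Ω` is at most `ofReal (2 C₀ dl m) * av v s (wv 3 δ (ρ ‖u‖ₑ)) x`.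
-/

open MeasureTheory Set Real Filter
open scoped FourierTransform RealInnerProductSpace ContDiff ENNReal NNReal Topology

noncomputable section

namespace Vale.Agent.P112

open Vale.Agent.P117 (cv Ker Nice Sm Np)

variable {f g u v F κ q M : ℂ → ℂ} {G : ℂ → ℝ≥0∞} {ϑ : ℝ → ℂ} {c : ℕ → ℝ} {Ω E : Set ℂ}
  {a r s t δ B C D R : ℝ} {x y z : ℂ}

theorem higha_tail (h : KC C δ κ) (hs : 0 < s) (hx : x ∈ Ω) (m : ℕ) (u : ℂ → ℂ) :
    ‖A v (hh s 1) (cv κ ({z | 1 ≤ 2 * rho (seg v Ω s) (2 ^ (m + 1) * (4 * δ)) z}ᶜ.indicator u)) x‖ₑ ≤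
      ENNReal.ofReal (2 * C) * ENNReal.ofReal (dl m) * av v s (wv 3 δ fun z =>
        rho (seg v Ω s) (2 ^ (m + 1) * (4 * δ)) z * ‖u z‖ₑ) x := by
  have hδ := h.d0
  set r : ℝ := 2 ^ (m + 1) * (4 * δ) with hr
  have h2 : (1 : ℝ) ≤ 2 ^ m := one_le_pow₀ one_le_two
  have hδr : δ ≤ r := by rw [hr, pow_succ]; nlinarith
  set E := {z | 1 ≤ 2 * rho (seg v Ω s) r z} with hE
  set H := wv 3 δ fun z => rho (seg v Ω s) r z * ‖u z‖ₑ with hH
  have key : ∀ p ∈ seg v Ω s, ‖cv κ (Eᶜ.indicator u) p‖ₑ ≤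
      ENNReal.ofReal C * ENNReal.ofReal (dl m) * H p := by
    intro p hp
    refine (kc_le (R := 0) (x := p) h _ (by simp)).trans ?_
    simp only [add_zero, one_pow, mul_one]
    rw [mul_assoc]
    gcongr
    refine le_trans ?_ (mul_le_mul_right (wv_rho 3 hδ hδr hp _) _)
    unfold wv
    rw [← lintegral_const_mul' _ _ ENNReal.ofReal_ne_top]
    refine lintegral_mono fun z => ?_
    beta_reduce
    by_cases hz : z ∈ Eᶜ
    · rw [indicator_of_mem hz, ← mul_assoc]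
      gcongr
      have h3 : r < ‖p - z‖ := by
        by_contra hc
        refine hz (le_trans ?_ (mul_le_mul_right (le_rho hp r z) 2))
        have hr0 : 0 < r := hδ.trans_le hδr
        have h4 : ‖p - z‖ / r ≤ 1 := (div_le_one hr0).2 (not_lt.1 hc)
        rw [← ENNReal.ofReal_ofNat, ← ENNReal.ofReal_mul (by norm_num), ENNReal.one_le_ofReal,
          ← div_eq_mul_inv, one_le_div (by positivity)]
        linarith
      unfold W
      rw [← ENNReal.ofReal_mul (dl_pos m).le]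
      refine ENNReal.ofReal_le_ofReal ?_
      rw [← wr_mul 4 1 hδ (p - z), pow_one]
      have h5 : 1 ≤ dl m * (1 + ‖p - z‖ / δ) := by
        have h6 : (2 : ℝ) ^ m ≤ ‖p - z‖ / δ := by
          rw [le_div_iff₀ hδ]
          rw [hr, pow_succ] at h3
          nlinarith
        unfold dl
        rw [← div_eq_inv_mul, one_le_div (by positivity)]
        linarith
      nlinarith [wr_pos (4 + 1) hδ (p - z)]
    · simp [indicator_of_notMem hz]
  refine (enorm_integral_le_lintegral_enorm _).trans ?_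
  unfold av
  rw [← mul_assoc, ← lintegral_const_mul' _ _ (by finiteness),
    ← lintegral_indicator measurableSet_Icc]
  refine lintegral_mono fun t => ?_
  by_cases ht : |t| ≤ 2 * s
  · rw [indicator_of_mem (show t ∈ Icc (-(2 * s)) (2 * s) from abs_le.1 ht), enorm_mul]
    have h7 : ‖hh s 1 t‖ₑ ≤ ENNReal.ofReal 2 * ENNReal.ofReal s⁻¹ := by
      rw [← ofReal_norm_eq_enorm, ← ENNReal.ofReal_mul zero_le_two]
      exact ENNReal.ofReal_le_ofReal (hh_one_le hs t)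
    refine (mul_le_mul' h7 (key _ ⟨x, hx, t, ht, rfl⟩)).trans (le_of_eq ?_)
    rw [ENNReal.ofReal_mul zero_le_two]
    ring
  · simp [(hh_tk hs 1).supp t (not_le.1 ht)]

theorem higha_sq (p w : ℝ≥0∞) : (p + w) ^ 2 ≤ 2 * (p ^ 2 + w ^ 2) := by
  have h := ENNReal.rpow_add_le_mul_rpow_add_rpow p w (p := 2) one_le_two
  norm_num at h
  exact h

theorem higha_ind {ρ : ℂ → ℝ≥0∞} (hρ : Measurable ρ) (hu : Measurable u) :
    n2 ({z | 1 ≤ 2 * ρ z}.indicator u) ≤ 4 * Q fun z => ρ z * ‖u z‖ₑ := by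
  unfold n2 Q
  rw [← lintegral_const_mul' _ _ (by simp)]
  refine lintegral_mono fun z => ?_
  by_cases hz : z ∈ {z | 1 ≤ 2 * ρ z}
  · rw [indicator_of_mem hz]
    calc ‖u z‖ₑ ^ 2 ≤ (2 * ρ z * ‖u z‖ₑ) ^ 2 :=
          pow_le_pow_left' (le_mul_of_one_le_left' hz) 2
      _ = _ := by ring
  · simp [indicator_of_notMem hz]

theorem high_one : ∃ C : ℝ≥0∞, C ≠ ⊤ ∧ ∀ (c : ℕ → ℝ) (v : ℂ → ℂ), Fld c v → ∀ s : ℝ, 0 < s →
    s ≤ 1 / 16 → ∀ (j m : ℕ) (u : ℂ → ℂ), Nice u →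
    ∫⁻ x in Hi v (dl j) s m, ‖A v (hh s 1) (P j u) x‖ₑ ^ 2 ≤ C * (ENNReal.ofReal (c m ^ 2) *
      Q (fun z => rho (seg v (Hi v (dl j) s m) s) (2 ^ (m + 1) * (4 * dl j)) z * ‖u z‖ₑ) +
      ENNReal.ofReal (dl m ^ 2) * Q (av v s (wv 3 (dl j) fun z =>
        rho (seg v (Hi v (dl j) s m) s) (2 ^ (m + 1) * (4 * dl j)) z * ‖u z‖ₑ))) := by
  obtain ⟨C₁, h₁, H₁⟩ := hi_one
  obtain ⟨C₀, H₀⟩ := kern
  refine ⟨2 * (8 * C₁ + ENNReal.ofReal (2 * C₀) ^ 2), by finiteness,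
    fun c v hv s hs hs' j m u hu => ?_⟩
  have hvc := hv.lip.continuous
  have hδ := dl_pos j
  rcases (Hi v (dl j) s m).eq_empty_or_nonempty with h0 | ⟨x₀, hx₀⟩
  · simp [h0]
  have h2 : (1 : ℝ) ≤ 2 ^ m := one_le_pow₀ one_le_two
  have h3 : 4 * dl j < s * s := by
    have := om_le hv.unit hv.lip x₀ hs.le
    have := hx₀.1
    nlinarith
  obtain ⟨i, rfl⟩ : ∃ i, j = i + 1 := by
    rcases j with _ | i
    · simp only [dl, pow_zero, inv_one] at h3
      nlinarith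
    · exact ⟨i, rfl⟩
  set Ω := Hi v (dl (i + 1)) s m with hΩ
  have mΩ : MeasurableSet Ω := meas_Hi hvc _ _ _
  set ρ := rho (seg v Ω s) (2 ^ (m + 1) * (4 * dl (i + 1))) with hρ
  have mρ : Measurable ρ := meas_rho _ (by positivity)
  set E := {z | 1 ≤ 2 * ρ z} with hE
  have mE : MeasurableSet E := measurableSet_le measurable_const (mρ.const_mul 2)
  have n1 := nice_indicator hu mE
  have n2' := nice_indicator hu mE.compl
  have hk := hh_tk hs 1
  set X := av v s (wv 3 (dl (i + 1)) fun z => ρ z * ‖u z‖ₑ) with hX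
  have mX : Measurable X := meas_av hvc s (meas_wv _ _ (mρ.mul hu.meas.enorm))
  have e1 : P (i + 1) u = fun z => P (i + 1) (E.indicator u) z + P (i + 1) (Eᶜ.indicator u) z := by
    funext z
    refine Eq.trans ?_ (P117.cv_add_right (pm_sm (i + 1)).ker_inv n1.int n2'.int z)
    simp only [indicator_self_add_compl_apply]
    rfl
  have b1 : ∫⁻ x in Ω, ‖A v (hh s 1) (P (i + 1) (E.indicator u)) x‖ₑ ^ 2 ≤
      8 * C₁ * (ENNReal.ofReal (c m ^ 2) * Q fun z => ρ z * ‖u z‖ₑ) := by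
    rw [P_eq _ n1.int]
    refine (H₁ v Ω s (dl (i + 1)) _ _ hv.unit hvc mΩ hδ (by nlinarith)
      (thin hv hδ hs (by linarith) m) ((pm_sm _).ker.cont.mul
        (P117.continuous_fourier n1.int)).measurable
      (P117.integrable_mul_fourier (pm_sm _).ker.int n1.int) fun ξ hξ => ?_).trans ?_
    · have h4 := left_ne_zero_of_mul hξ
      have h5 := pm_out h4
      have h6 := pm_in h4
      simp only [dl, pow_succ] at h5 h6 ⊢
      constructor
      · refine le_trans (le_of_eq ?_) h6.le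
        field_simp
      · refine h5.le.trans (le_of_eq ?_)
        field_simp
    · have h7 : n2 (fun ξ => pm (i + 1) ξ * 𝓕 (E.indicator u) ξ) ≤ 4 * Q fun z => ρ z * ‖u z‖ₑ := by
        refine le_trans (lintegral_mono fun ξ => ?_) ((n2_fourier_le n1.int).trans
          (higha_ind mρ hu.meas))
        rw [enorm_mul]
        refine pow_le_pow_left' (mul_le_of_le_one_left' ?_) 2
        rw [← ofReal_norm_eq_enorm]
        exact ENNReal.ofReal_le_one.2 (pm_norm _ _)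
      refine (mul_le_mul_right h7 _).trans (le_of_eq ?_)
      rw [ENNReal.ofReal_mul zero_le_two, ENNReal.ofReal_ofNat]
      ring
  calc ∫⁻ x in Ω, ‖A v (hh s 1) (P (i + 1) u) x‖ₑ ^ 2
      ≤ ∫⁻ x in Ω, 2 * (‖A v (hh s 1) (P (i + 1) (E.indicator u)) x‖ₑ ^ 2 +
          (ENNReal.ofReal (2 * C₀) * ENNReal.ofReal (dl m)) ^ 2 * X x ^ 2) := by
        refine setLIntegral_mono' mΩ fun x hx => ?_
        rw [e1, A_add hk (P_ker _ n1).nice (P_ker _ n2').nice, ← mul_pow]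
        refine (pow_le_pow_left' ((enorm_add_le _ _).trans (add_le_add_right
          (higha_tail (H₀ (i + 1)).1 hs hx m u) _)) 2).trans ?_
        exact higha_sq _ _
    _ ≤ 2 * (8 * C₁ * (ENNReal.ofReal (c m ^ 2) * Q fun z => ρ z * ‖u z‖ₑ) +
          (ENNReal.ofReal (2 * C₀) * ENNReal.ofReal (dl m)) ^ 2 * Q X) := by
        rw [lintegral_const_mul' _ _ (by simp), lintegral_add_right _ ((mX.pow_const 2).const_mul _),
          lintegral_const_mul _ (mX.pow_const 2)]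
        gcongr
        exact setLIntegral_le_lintegral _ _
    _ ≤ _ := by
        rw [mul_assoc 2, ENNReal.ofReal_pow (dl_pos m).le, mul_pow, mul_assoc _ _ (Q X), mul_add
          (8 * C₁ + _)]
        gcongr
        · exact le_self_add
        · exact le_add_self

end Vale.Agent.P112
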