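import Vale.Agent.P112.Bil

/-!
The Jacobian as a Radon-Nikodym derivative. `Φ x = x - t • v x`, `Ψ z = z - t • u z` from `exists_inv`, `ν = map Φ volume`.
`Φ` is antilipschitz with constant ` (1 - |t|)⁻¹`, `Ψ` is antilipschitz with constant `1 + |t|` (since `Φ (Ψ z) = z`), and
`E = Ψ ⁻¹' (Φ ⁻¹' E)`; `vol_pre` gives `ν ≤ (1 - |t|)⁻¹ ^ 2 • volume` and `volume ≤ (1 + |t|) ^ 2 • ν`.
`J = ν.rnDeriv volume`, `Measure.withDensity_rnDeriv_eq`, `Measure.setLIntegral_rnDeriv`; a.e. bounds on `J` by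
`ae_le_of_forall_setLIntegral_le_of_sigmaFinite`; `|J.toReal - 1| ≤ 4 |t|` a.e. (` (1-τ)⁻¹ ^ 2 ≤ 1 + 4 τ`,
`1 - 4 τ ≤ (1+τ)⁻¹ ^ 2` for `0 ≤ τ ≤ 1/4`); `β = max (-4|t|) (min (4|t|) (J.toReal - 1))`; `integral_map`,
`integral_rnDeriv_smul` (or `integral_withDensity_eq_integral_toReal_smul`), `integral_add`.
-/

open MeasureTheory Set Real Filter
open scoped FourierTransform RealInnerProductSpace ContDiff ENNReal NNReal Topology

noncomputable section

namespace Vale.Agent.P112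

open Vale.Agent.P117 (cv Ker Nice Sm Np)

variable {f g u v F κ q M : ℂ → ℂ} {G : ℂ → ℝ≥0∞} {ϑ : ℝ → ℂ} {c : ℕ → ℝ} {Ω E : Set ℂ}
  {a r s t δ B C D R : ℝ} {x y z : ℂ}


theorem jac_gen (ν : Measure ℂ) {τ : ℝ} (h0 : 0 ≤ τ)
    (h1 : ∀ E, MeasurableSet E → ν E ≤ ENNReal.ofReal (1 + τ) * volume E)
    (h2 : ∀ E, MeasurableSet E → ENNReal.ofReal (1 - τ) * volume E ≤ ν E) :
    ∃ β : ℂ → ℝ, Measurable β ∧ (∀ z, |β z| ≤ τ) ∧ ∀ H : ℂ → ℂ, Integrable H →
      ∫ x, H x ∂ν = (∫ z, H z) + ∫ z, (β z : ℂ) * H z := by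
  have hle : ν ≤ (1 + τ).toNNReal • (volume : Measure ℂ) := Measure.le_iff.2 fun E hE => h1 E hE
  have hs : SigmaFinite ν := Measure.sigmaFinite_of_le _ hle
  have hac : ν ≪ volume := Measure.AbsolutelyContinuous.mk fun E hE h =>
    le_antisymm ((h1 E hE).trans (by rw [h, mul_zero])) zero_le
  have a1 : ν.rnDeriv volume ≤ᵐ[volume] fun _ => ENNReal.ofReal (1 + τ) :=
    ae_le_of_forall_setLIntegral_le_of_sigmaFinite (ν.measurable_rnDeriv _) fun E hE _ => by
      rw [Measure.setLIntegral_rnDeriv hac, setLIntegral_const]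
      exact h1 E hE
  have a2 : (fun _ => ENNReal.ofReal (1 - τ)) ≤ᵐ[volume] ν.rnDeriv volume :=
    ae_le_of_forall_setLIntegral_le_of_sigmaFinite measurable_const fun E hE _ => by
      rw [Measure.setLIntegral_rnDeriv hac, setLIntegral_const]
      exact h2 E hE
  obtain ⟨β, hβ⟩ : ∃ β : ℂ → ℝ, β = fun z => max (-τ) (min τ ((ν.rnDeriv volume z).toReal - 1)) :=
    ⟨_, rfl⟩
  have hm : Measurable β := by
    rw [hβ]
    exact measurable_const.max (measurable_const.min
      ((ν.measurable_rnDeriv _).ennreal_toReal.sub measurable_const))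
  have hb : ∀ z, |β z| ≤ τ := fun z => by
    rw [hβ, abs_le]
    exact ⟨le_max_left _ _, max_le (by linarith) (min_le_left _ _)⟩
  refine ⟨β, hm, hb, fun H hH => ?_⟩
  have hi : Integrable fun z => (β z : ℂ) * H z :=
    hH.bdd_mul (c := τ) (Complex.measurable_ofReal.comp hm).aestronglyMeasurable
      (ae_of_all _ fun z => by simpa using hb z)
  rw [← integral_rnDeriv_smul hac, ← integral_add hH hi]
  refine integral_congr_ae ?_
  filter_upwards [a1, a2] with z z1 z2
  have b1 : (ν.rnDeriv volume z).toReal ≤ 1 + τ := ENNReal.toReal_le_of_le_ofReal (by linarith) z1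
  have b2 : 1 - τ ≤ (ν.rnDeriv volume z).toReal :=
    (ENNReal.ofReal_le_iff_le_toReal (ne_top_of_le_ne_top ENNReal.ofReal_ne_top z1)).1 z2
  have b3 : β z = (ν.rnDeriv volume z).toReal - 1 := by
    rw [hβ]
    simp only
    rw [min_eq_right (by linarith), max_eq_right (by linarith)]
  rw [b3, Complex.real_smul]
  push_cast
  ring

theorem jac_vol {Φ : ℂ → ℂ} {K : ℝ} (hK : 0 ≤ K) (h : ∀ x y, ‖x - y‖ ≤ K * ‖Φ x - Φ y‖)
    (E : Set ℂ) : volume (Φ ⁻¹' E) ≤ ENNReal.ofReal (K ^ 2) * volume E := by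
  have ha : AntilipschitzWith K.toNNReal Φ := AntilipschitzWith.of_le_mul_dist fun x y => by
    rw [dist_eq_norm, dist_eq_norm, Real.coe_toNNReal _ hK]
    exact h x y
  rw [ENNReal.ofReal_pow hK]
  exact vol_pre ha E

theorem exists_jac (hv : LipschitzWith 1 v) (ht : |t| ≤ 1 / 4) :
    ∃ β : ℂ → ℝ, Measurable β ∧ (∀ z, |β z| ≤ 4 * |t|) ∧ ∀ H : ℂ → ℂ, Measurable H → Integrable H →
      ∫ x, H (x - t • v x) = (∫ z, H z) + ∫ z, (β z : ℂ) * H z := by

  obtain ⟨u, -, -, hu⟩ := exists_inv hv ht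
  have h0 : 0 ≤ |t| := abs_nonneg t
  have hd : ∀ x y, ‖t • v x - t • v y‖ ≤ |t| * ‖x - y‖ := fun x y => by
    rw [← smul_sub, norm_smul, Real.norm_eq_abs]
    refine mul_le_mul_of_nonneg_left ?_ h0
    simpa [dist_eq_norm] using hv.dist_le_mul x y
  have hc : Measurable fun x => x - t • v x := by
    have := hv.continuous
    exact Continuous.measurable (by fun_prop)
  have k1 : ∀ x y, ‖x - y‖ ≤ (1 + 4 / 3 * |t|) * ‖(x - t • v x) - (y - t • v y)‖ := fun x y => by
    have e : x - y = ((x - t • v x) - (y - t • v y)) + (t • v x - t • v y) := by abel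
    have a := norm_add_le ((x - t • v x) - (y - t • v y)) (t • v x - t • v y)
    rw [← e] at a
    have b := hd x y
    have n1 := norm_nonneg (x - y)
    have a1 : (1 - |t|) * ‖x - y‖ ≤ ‖(x - t • v x) - (y - t • v y)‖ := by linarith
    have a2 : 1 ≤ (1 + 4 / 3 * |t|) * (1 - |t|) := by nlinarith
    calc ‖x - y‖ ≤ (1 + 4 / 3 * |t|) * (1 - |t|) * ‖x - y‖ := le_mul_of_one_le_left n1 a2
      _ ≤ _ := by
        rw [mul_assoc]
        exact mul_le_mul_of_nonneg_left a1 (by positivity)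
  have k2 : ∀ z w, ‖z - w‖ ≤ (1 + |t|) * ‖(z - t • u z) - (w - t • u w)‖ := fun z w => by
    have e : z - w = ((z - t • u z) - (w - t • u w)) -
        (t • v (z - t • u z) - t • v (w - t • u w)) := by
      conv_lhs => rw [← hu z, ← hu w]
      abel
    have a := norm_sub_le ((z - t • u z) - (w - t • u w))
      (t • v (z - t • u z) - t • v (w - t • u w))
    rw [← e] at a
    have b := hd (z - t • u z) (w - t • u w)
    linarith
  obtain ⟨β, b1, b2, b3⟩ := jac_gen (Measure.map (fun x => x - t • v x) volume) (τ := 4 * |t|)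
    (by positivity)
    (fun E hE => by
      rw [Measure.map_apply hc hE]
      refine (jac_vol (by positivity) k1 E).trans (mul_le_mul_left (ENNReal.ofReal_le_ofReal ?_) _)
      nlinarith)
    (fun E hE => by
      rw [Measure.map_apply hc hE]
      have a := jac_vol (by positivity) k2 ((fun x => x - t • v x) ⁻¹' E)
      have e : (fun z => z - t • u z) ⁻¹' ((fun x => x - t • v x) ⁻¹' E) = E := by
        ext z
        simp only [mem_preimage, hu]
      rw [e] at a
      refine (mul_le_mul_right a _).trans ?_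
      rw [← mul_assoc, ← ENNReal.ofReal_mul (by linarith)]
      refine mul_le_of_le_one_left' (ENNReal.ofReal_le_one.2 ?_)
      nlinarith [mul_nonneg h0 h0, mul_nonneg h0 (mul_nonneg h0 h0)])
  refine ⟨β, b1, b2, fun H hm hH => ?_⟩
  rw [← b3 H hH, integral_map hc.aemeasurable hm.aestronglyMeasurable]

end Vale.Agent.P112
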