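import Vale.Agent.P112.Base

/-!
Elementary facts on the multipliers. `bmp.one_of_mem_closedBall`, `bmp.zero_of_le_dist`, `bmp.nonneg`, `bmp.le_one`,
`bmp.contDiff`, `bmp.hasCompactSupport`. `lp j ξ = 1` for `‖ξ‖ ≤ 2 ^ j`, `= 0` for `2 ^ (j+1) ≤ ‖ξ‖`; so the real number
`bmp (dl (j+1) • ξ) - bmp (dl j • ξ)` is in `[0, 1]`; `pm_sq`: squares are at most the values, the sum over `J ⊆ range (N+1)` telescopes.
`plan_eq`: `P117.plan_ae`, `P117.plan_np` and the proof of `P117.planch` (the transform is an isometry of `Lp`); `nice_n2` gives `MemLp g 2`.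
`P117.cv_ker`, `P117.cv_eq`, `P117.inv_sum`, `P117.cv_L2`.
-/

open MeasureTheory Set Real Filter
open scoped FourierTransform RealInnerProductSpace ContDiff ENNReal NNReal Topology

noncomputable section

namespace Vale.Agent.P112

open Vale.Agent.P117 (cv Ker Nice Sm Np)

variable {f g u v F κ q M : ℂ → ℂ} {G : ℂ → ℝ≥0∞} {ϑ : ℝ → ℂ} {c : ℕ → ℝ} {Ω E : Set ℂ}
  {a r s t δ B C D R : ℝ} {x y z : ℂ}

theorem lpa_one {j : ℕ} {ξ : ℂ} (h : ‖ξ‖ ≤ 2 ^ j) : bmp (dl j • ξ) = 1 := by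
  refine bmp.one_of_mem_closedBall (mem_closedBall_zero_iff.2 ?_)
  rw [norm_smul, Real.norm_of_nonneg (dl_pos j).le, dl]
  exact inv_mul_le_one_of_le₀ h (by positivity)

theorem lpa_zero {j : ℕ} {ξ : ℂ} (h : 2 ^ (j + 1) ≤ ‖ξ‖) : bmp (dl j • ξ) = 0 := by
  refine bmp.zero_of_le_dist ?_
  rw [dist_zero_right, norm_smul, Real.norm_of_nonneg (dl_pos j).le, dl,
    le_inv_mul_iff₀ (by positivity)]
  exact (pow_succ _ _).symm.trans_le h

/-- the real band multiplier -/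
def lpa_pr : ℕ → ℂ → ℝ
  | 0 => fun ξ => bmp (dl 0 • ξ)
  | j + 1 => fun ξ => bmp (dl (j + 1) • ξ) - bmp (dl j • ξ)

theorem lpa_pm (j : ℕ) (ξ : ℂ) : pm j ξ = lpa_pr j ξ := by
  cases j with
  | zero => rfl
  | succ j => exact (Complex.ofReal_sub _ _).symm

theorem lpa_nn (j : ℕ) (ξ : ℂ) : 0 ≤ lpa_pr j ξ := by
  cases j with
  | zero => exact bmp.nonneg
  | succ j =>
    refine sub_nonneg.2 ?_
    rcases le_total ‖ξ‖ (2 ^ (j + 1)) with h | h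
    · rw [lpa_one h]
      exact bmp.le_one
    · rw [lpa_zero h]
      exact bmp.nonneg

theorem lpa_le (j : ℕ) (ξ : ℂ) : lpa_pr j ξ ≤ 1 := by
  cases j with
  | zero => exact bmp.le_one
  | succ j => exact (sub_le_self _ bmp.nonneg).trans bmp.le_one

theorem lpa_sum (J : ℕ) (ξ : ℂ) : ∑ j ∈ Finset.range (J + 1), lpa_pr j ξ = bmp (dl J • ξ) := by
  induction J with
  | zero => exact Finset.sum_range_one _
  | succ J ih =>
    rw [Finset.sum_range_succ, ih]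
    exact add_sub_cancel _ _

theorem lpa_n2 {m : ℂ → ℂ} (hm : Sm m) (h : ∀ ξ, ‖m ξ‖ ≤ 1) (hf : Nice f) :
    n2 (cv (𝓕⁻ m) f) ≤ n2 f := by
  have h1 := P117.cv_L2 hm.ker.int h hf.int
  rwa [ENNReal.ofReal_one, one_pow, one_mul, ← n2_eq, ← n2_eq] at h1

theorem lp_sm (j : ℕ) : Sm (lp j) := by
  refine ⟨Complex.ofRealCLM.contDiff.comp (bmp.contDiff.comp (contDiff_const_smul (dl j))),
    HasCompactSupport.intro (isCompact_closedBall 0 (2 ^ (j + 1))) fun ξ h => ?_⟩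
  rw [lp, lpa_zero (not_le.1 (mt mem_closedBall_zero_iff.2 h)).le, Complex.ofReal_zero]

theorem pm_sm (j : ℕ) : Sm (pm j) := by
  cases j with
  | zero => exact lp_sm 0
  | succ j => exact ⟨(lp_sm _).1.sub (lp_sm _).1, (lp_sm (j + 1)).2.sub (lp_sm j).2⟩

theorem lp_one {j : ℕ} {ξ : ℂ} (h : ‖ξ‖ ≤ 2 ^ j) : lp j ξ = 1 := by
  rw [lp, lpa_one h, Complex.ofReal_one]

theorem lp_zero {j : ℕ} {ξ : ℂ} (h : 2 ^ (j + 1) ≤ ‖ξ‖) : lp j ξ = 0 := by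
  rw [lp, lpa_zero h, Complex.ofReal_zero]

theorem lp_norm (j : ℕ) (ξ : ℂ) : ‖lp j ξ‖ ≤ 1 := by
  rw [lp, Complex.norm_of_nonneg bmp.nonneg]
  exact bmp.le_one

theorem pm_norm (j : ℕ) (ξ : ℂ) : ‖pm j ξ‖ ≤ 1 := by
  rw [lpa_pm, Complex.norm_of_nonneg (lpa_nn j ξ)]
  exact lpa_le j ξ

theorem pm_out {j : ℕ} {ξ : ℂ} (h : pm j ξ ≠ 0) : ‖ξ‖ < 2 ^ (j + 1) := by
  refine not_le.1 fun h1 => h ?_
  cases j with
  | zero => exact lp_zero h1
  | succ j =>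
    have h2 : (2 : ℝ) ^ (j + 1) ≤ 2 ^ (j + 1 + 1) := pow_le_pow_right₀ one_le_two (Nat.le_succ _)
    exact sub_eq_zero.2 ((lp_zero h1).trans (lp_zero (h2.trans h1)).symm)

theorem pm_in {j : ℕ} {ξ : ℂ} (h : pm (j + 1) ξ ≠ 0) : 2 ^ j < ‖ξ‖ := by
  refine not_le.1 fun h1 => h ?_
  have h2 : (2 : ℝ) ^ j ≤ 2 ^ (j + 1) := pow_le_pow_right₀ one_le_two (Nat.le_succ _)
  exact sub_eq_zero.2 ((lp_one (h1.trans h2)).trans (lp_one h1).symm)

theorem pm_sum (J : ℕ) (ξ : ℂ) : ∑ j ∈ Finset.range (J + 1), pm j ξ = lp J ξ := by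
  simp only [lpa_pm]
  rw [← Complex.ofReal_sum, lpa_sum, lp]

theorem pm_sq (J : Finset ℕ) (ξ : ℂ) : ∑ j ∈ J, ‖pm j ξ‖ ^ 2 ≤ 1 := by
  refine le_trans (Finset.sum_le_sum fun j _ => (?_ : _ ≤ lpa_pr j ξ))
    ((Finset.sum_le_sum_of_subset_of_nonneg (t := Finset.range (J.sup id + 1)) (fun j hj =>
      Finset.mem_range.2 (Nat.lt_succ_of_le (Finset.le_sup (f := id) hj)))
      fun j _ _ => lpa_nn j ξ).trans ((lpa_sum _ ξ).trans_le bmp.le_one))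
  rw [lpa_pm, Complex.norm_of_nonneg (lpa_nn j ξ), sq]
  exact mul_le_of_le_one_left (lpa_nn j ξ) (lpa_le j ξ)

theorem P_ker (j : ℕ) (hf : Nice f) : Ker (P j f) := by
  exact P117.cv_ker (pm_sm j).ker_inv hf

theorem S_ker (j : ℕ) (hf : Nice f) : Ker (S j f) := by
  exact P117.cv_ker (lp_sm j).ker_inv hf

theorem P_eq (j : ℕ) (hf : Integrable f) : P j f = 𝓕⁻ fun ξ => pm j ξ * 𝓕 f ξ := by
  exact funext (P117.cv_eq (pm_sm j).ker.int hf)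

theorem S_sum (J : ℕ) (hf : Nice f) (x : ℂ) : S J f x = ∑ j ∈ Finset.range (J + 1), P j f x := by
  simp only [P_eq _ hf.int]
  rw [S, P117.cv_eq (lp_sm J).ker.int hf.int, ← P117.inv_sum _ fun j _ =>
    P117.integrable_mul_fourier (pm_sm j).ker.int hf.int]
  simp only [← Finset.sum_mul, pm_sum]

theorem P_n2 (j : ℕ) (hf : Nice f) : n2 (P j f) ≤ n2 f := by
  exact lpa_n2 (pm_sm j) (pm_norm j) hf

theorem S_n2 (j : ℕ) (hf : Nice f) : n2 (S j f) ≤ n2 f := by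
  exact lpa_n2 (lp_sm j) (lp_norm j) hf

theorem plan_eq (hg : Nice g) : n2 (𝓕 g) = n2 g := by
  have h0 := nice_n2 hg
  rw [n2_eq, P117.plan_np] at h0
  have h : eLpNorm g 2 volume ≠ ⊤ := fun h => h0 (by
    rw [h]
    exact ENNReal.top_rpow_of_pos two_pos)
  have h2 : MemLp g 2 := ⟨hg.int.1, h.lt_top⟩
  have h3 := congrArg ENNReal.ofReal (Lp.norm_fourier_eq (h2.toLp g))
  rw [Lp.norm_def, Lp.norm_toLp, ENNReal.ofReal_toReal (Lp.eLpNorm_ne_top _),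
    ENNReal.ofReal_toReal h] at h3
  rw [n2_eq, n2_eq, P117.plan_np, P117.plan_np, eLpNorm_congr_ae (P117.plan_ae hg.int h2), h3]

end Vale.Agent.P112
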