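import Vale.Agent.P112.HW
import Vale.Agent.P112.KLip
import Vale.Agent.P112.Mink

/-!
Frozen direction, localized. `ρ = rho (seg v Ω s) (4 δ)`, `U p = {z | 1 ≤ ofReal (2 * (1 + ‖p‖ / δ)) * ρ z}.indicator u` (nice; jointly measurable in `(p, z)`), `P117.cv_comm`.
For `x ∈ Ω`, `|t| ≤ 2 s`: `z = x - t • w - p` is within `‖p‖ + 4 δ` of `x - t • v x ∈ seg`, so `u z = U p z` (`le_rho`). Fubini in `(t, p)`:
`A (fun _ => w) ϑ (cv κ u) x = ∫ p, κ p * A (fun _ => w) ϑ (U p) (x - p)`. `csw` with weight `‖κ p‖ₑ`, `kc_l1`, swap, `lintegral_sub_right_eq_self`, `hw`,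
`n2 (U p) ≤ 64 * ofReal (1 + ‖p‖ / δ) ^ 6 * ∫⁻ ρ ^ 6 * ‖u‖ₑ ^ 2`, `kc_mom`.
-/

open MeasureTheory Set Real Filter
open scoped FourierTransform RealInnerProductSpace ContDiff ENNReal NNReal Topology

noncomputable section

namespace Vale.Agent.P112

open Vale.Agent.P117 (cv Ker Nice Sm Np)

variable {f g u v F κ q M : ℂ → ℂ} {G : ℂ → ℝ≥0∞} {ϑ : ℝ → ℂ} {c : ℕ → ℝ} {Ω E : Set ℂ}
  {a r s t δ B C D R : ℝ} {x y z : ℂ}

/-- the localized function -/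
def lowa_U (E : Set ℂ) (δ : ℝ) (u : ℂ → ℂ) (p : ℂ) : ℂ → ℂ :=
  {z | 1 ≤ 2 * ENNReal.ofReal (1 + ‖p‖ / δ) * rho E (4 * δ) z}.indicator u

theorem lowa_nice (hδ : 0 < δ) (hu : Nice u) (p : ℂ) : Nice (lowa_U E δ u p) :=
  nice_indicator hu (measurableSet_le measurable_const
    ((meas_rho E (by positivity)).const_mul _))

theorem lowa_meas (hδ : 0 < δ) (hu : Nice u) :
    Measurable fun q : ℂ × ℂ => lowa_U E δ u q.1 q.2 :=
  (hu.meas.comp measurable_snd).indicator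
    (s := {q : ℂ × ℂ | 1 ≤ 2 * ENNReal.ofReal (1 + ‖q.1‖ / δ) * rho E (4 * δ) q.2})
    (measurableSet_le measurable_const (Measurable.mul (by fun_prop)
      ((meas_rho E (by positivity)).comp measurable_snd)))

theorem lowa_n2 (p : ℂ) : n2 (lowa_U E δ u p) ≤
    64 * ENNReal.ofReal (1 + ‖p‖ / δ) ^ 6 * ∫⁻ z, rho E (4 * δ) z ^ 6 * ‖u z‖ₑ ^ 2 := by
  rw [← lintegral_const_mul' _ _ (by finiteness)]
  refine lintegral_mono fun z => ?_
  simp only [lowa_U]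
  by_cases hz : z ∈ {z | 1 ≤ 2 * ENNReal.ofReal (1 + ‖p‖ / δ) * rho E (4 * δ) z}
  · rw [indicator_of_mem hz]
    refine (le_mul_of_one_le_left' (one_le_pow_of_one_le' hz 6)).trans_eq ?_
    rw [mul_pow, mul_pow, mul_assoc]
    norm_num
  · rw [indicator_of_notMem hz]
    simp

theorem lowa_eq (hδ : 0 < δ) (hs : 0 < s) {w : ℂ} (hx : x ∈ Ω) (hvw : ‖v x - w‖ ≤ 2 * (δ / s))
    (ht : |t| ≤ 2 * s) (u : ℂ → ℂ) (p : ℂ) :
    lowa_U (seg v Ω s) δ u p (x - p - t • w) = u (x - t • w - p) := by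
  rw [sub_right_comm x (t • w)]
  refine indicator_of_mem ?_ u
  refine le_trans ?_ (mul_le_mul_right (le_rho (a := x - t • v x) (E := seg v Ω s)
    ⟨x, hx, t, ht, rfl⟩ _ _) _)
  have h1 : ‖x - t • v x - (x - p - t • w)‖ ≤ ‖p‖ + 4 * δ := by
    rw [show x - t • v x - (x - p - t • w) = p - t • (v x - w) by rw [smul_sub]; ring]
    refine (norm_sub_le _ _).trans (add_le_add le_rfl ?_)
    rw [norm_smul, Real.norm_eq_abs]
    refine (mul_le_mul ht hvw (norm_nonneg _) (by positivity)).trans_eq ?_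
    field_simp
    norm_num
  rw [← ENNReal.ofReal_ofNat 2, ← ENNReal.ofReal_mul zero_le_two,
    ← ENNReal.ofReal_mul (by positivity), ENNReal.one_le_ofReal, le_mul_inv_iff₀ (by positivity),
    one_mul]
  have h2 : ‖x - t • v x - (x - p - t • w)‖ / (4 * δ) ≤ 1 + ‖p‖ / δ := by
    rw [div_le_iff₀ (by positivity), add_mul, mul_left_comm (‖p‖ / δ),
      div_mul_cancel₀ _ hδ.ne']
    linarith [norm_nonneg p]
  have h3 : 0 ≤ ‖p‖ / δ := by positivity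
  linarith

theorem lowa_rep (h : KC C δ κ) (hs : 0 < s) (hϑ : Tk (2 * s) ϑ) {w : ℂ} (hx : x ∈ Ω)
    (hvw : ‖v x - w‖ ≤ 2 * (δ / s)) (hu : Nice u) :
    A (fun _ => w) ϑ (cv κ u) x =
      ∫ p, κ p * A (fun _ => w) ϑ (lowa_U (seg v Ω s) δ u p) (x - p) := by
  obtain ⟨L, hL⟩ := hu.bdd
  have hi : Integrable (fun q : ℝ × ℂ => ϑ q.1 * κ q.2 * u (x - q.1 • w - q.2))
      (volume.prod volume) :=
    (hϑ.int.mul_prod h.ker.int).mul_bdd
      (hu.meas.comp (Continuous.measurable (by fun_prop))).aestronglyMeasurable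
      (Eventually.of_forall fun q => hL _)
  simp only [A, P117.cv_comm, ← integral_const_mul, ← mul_assoc]
  rw [integral_integral_swap hi]
  refine integral_congr_ae (Eventually.of_forall fun p =>
    integral_congr_ae (Eventually.of_forall fun t => ?_))
  by_cases ht : |t| ≤ 2 * s
  · simp only [lowa_eq h.d0 hs hx hvw ht, mul_comm]
  · simp only [hϑ.supp t (not_le.1 ht), mul_zero, zero_mul]

theorem low_main (h : KC C δ κ) (hΩ : MeasurableSet Ω) (hs : 0 < s) (hϑ : Tk (2 * s) ϑ)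
    (hB : ∀ σ, ‖𝓕 ϑ σ‖ ≤ B) {w : ℂ} (hvw : ∀ x ∈ Ω, ‖v x - w‖ ≤ 2 * (δ / s)) (hu : Nice u) :
    ∫⁻ x in Ω, ‖A (fun _ => w) ϑ (cv κ u) x‖ₑ ^ 2 ≤
      64 * (ENNReal.ofReal B * (ENNReal.ofReal C * cW)) ^ 2 *
        ∫⁻ z, rho (seg v Ω s) (4 * δ) z ^ 6 * ‖u z‖ₑ ^ 2 := by
  obtain ⟨U, hU⟩ : ∃ U, U = lowa_U (seg v Ω s) δ u := ⟨_, rfl⟩
  obtain ⟨I, hI⟩ : ∃ I, I = ∫⁻ z, rho (seg v Ω s) (4 * δ) z ^ 6 * ‖u z‖ₑ ^ 2 := ⟨_, rfl⟩
  have hκ := h.ker.cont.measurable.enorm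
  have hm : Measurable fun q : ℂ × ℂ => ‖A (fun _ => w) ϑ (U q.2) (q.1 - q.2)‖ₑ :=
    (StronglyMeasurable.integral_prod_right
      (f := fun (q : ℂ × ℂ) (t : ℝ) => ϑ t * U q.2 (q.1 - q.2 - t • w))
      (Measurable.stronglyMeasurable ((hϑ.meas.comp measurable_snd).mul
        ((hU ▸ lowa_meas h.d0 hu).comp (f := fun y : (ℂ × ℂ) × ℝ =>
          (y.1.2, y.1.1 - y.1.2 - y.2 • w)) (Continuous.measurable (by fun_prop)))))).measurable.enorm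
  have h1 : ∀ x ∈ Ω, ‖A (fun _ => w) ϑ (cv κ u) x‖ₑ ^ 2 ≤ ENNReal.ofReal C * cW *
      ∫⁻ p, ‖κ p‖ₑ * ‖A (fun _ => w) ϑ (U p) (x - p)‖ₑ ^ 2 := fun x hx => by
    rw [lowa_rep h hs hϑ hx (hvw x hx) hu, ← hU]
    refine (pow_le_pow_left' (enorm_integral_le_lintegral_enorm _) 2).trans ?_
    simp only [enorm_mul]
    exact (csw volume hκ (hm.comp measurable_prodMk_left)).trans (mul_le_mul_left (kc_l1 h) _)
  have h2 : ∀ p, ∫⁻ x, ‖κ p‖ₑ * ‖A (fun _ => w) ϑ (U p) (x - p)‖ₑ ^ 2 ≤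
      ‖κ p‖ₑ * ENNReal.ofReal (1 + ‖p‖ / δ) ^ 6 * (64 * ENNReal.ofReal B ^ 2 * I) := fun p => by
    rw [lintegral_const_mul' _ _ enorm_ne_top,
      lintegral_sub_right_eq_self (fun x => ‖A (fun _ => w) ϑ (U p) x‖ₑ ^ 2) p, mul_assoc, hU, hI]
    refine mul_le_mul_right ((hw hϑ hB w (lowa_nice h.d0 hu p)).trans
      ((mul_le_mul_right (lowa_n2 p) _).trans_eq ?_)) _
    ring
  refine (setLIntegral_mono' hΩ h1).trans ((setLIntegral_le_lintegral _ _).trans ?_)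
  rw [lintegral_const_mul' _ _ (ENNReal.mul_ne_top ENNReal.ofReal_ne_top cW_ne_top),
    lintegral_lintegral_swap ((hκ.comp measurable_snd).mul (hm.pow_const 2)).aemeasurable, ← hI]
  refine (mul_le_mul_right (lintegral_mono h2) _).trans ?_
  rw [lintegral_mul_const _ (hκ.fun_mul (by fun_prop))]
  refine (mul_le_mul_right (mul_le_mul_left (kc_mom h) _) _).trans_eq ?_
  ring

end Vale.Agent.P112
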