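import Vale.Agent.P112.Asm
import Vale.Agent.P112.Dual
import Vale.Agent.P112.Cut

/-!
The main estimate.
-/

open MeasureTheory Set Real Filter
open scoped FourierTransform RealInnerProductSpace ContDiff ENNReal NNReal Topology

noncomputable section

namespace Vale.Agent.P112

open Vale.Agent.P117 (cv Ker Nice Sm Np)

variable {f g u v F κ q M : ℂ → ℂ} {G : ℂ → ℝ≥0∞} {ϑ : ℝ → ℂ} {c : ℕ → ℝ} {Ω E : Set ℂ}
  {a r s t δ B C D R : ℝ} {x y z : ℂ}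

theorem mainT (hc : Summable c) : ∃ C : ℝ≥0∞, C ≠ ⊤ ∧ ∀ v, Fld c v → ∀ a : ℝ, 0 < a →
    a ≤ 1 / 16 → ∀ f : ℂ → ℂ, Nice f → ∀ ε : ℝ, 0 < ε → ε < a → n2 (trunc v a ε f) ≤ C * n2 f := by
  obtain ⟨L, hL, H⟩ := asm hc
  refine ⟨2 * (4 * (L + 1) ^ 2 + 4 * ENNReal.ofReal 12 ^ 2), by finiteness,
    fun v hv a ha ha' f hf ε hε hεa => ?_⟩
  obtain ⟨N, ρ, hρ, hρ1, hk⟩ := kk_split hε hεa
  have hvc := hv.lip.continuous
  have hh1 := hh_tk ha N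
  have b1 := dual hvc hh1 hf hL fun g hg => dual_lim (lip_two hv.lip) (hh1.mono (by linarith)) hf hg
    fun J => H v hv a ha ha' N J f g hf hg
  have b2 := triv (lip_two hv.lip) (hρ.mono (r := 1 / 4) (by linarith)) hf.meas
  rw [trunc_eq, hk]
  calc n2 (A v (fun t => hh a N t + ρ t) f)
      ≤ Q fun x => ‖A v (hh a N) f x‖ₑ + ‖A v ρ f x‖ₑ := by
        refine lintegral_mono fun x => ?_
        rw [A_addk hh1 hρ hf]
        exact pow_le_pow_left' (enorm_add_le _ _) 2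
    _ ≤ 2 * (n2 (A v (hh a N) f) + n2 (A v ρ f)) := Q_add (meas_A hvc hh1.meas hf.meas).enorm _
    _ ≤ 2 * (4 * (L + 1) ^ 2 * n2 f + 4 * ENNReal.ofReal 12 ^ 2 * n2 f) := by
        gcongr
        exact b2.trans (by gcongr)
    _ = _ := by ring

theorem main_lip (f : SchwartzMap ℂ ℂ) : ∃ K : ℝ≥0, LipschitzWith K f := by
  obtain ⟨C, hC, h⟩ := (SchwartzMap.fderivCLM ℝ ℂ ℂ f).decay 0 0
  refine ⟨⟨C, hC.le⟩, lipschitzWith_of_nnnorm_fderiv_le (𝕜 := ℝ) f.differentiable fun x => ?_⟩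
  have := h x
  simp only [pow_zero, one_mul, norm_iteratedFDeriv_zero, SchwartzMap.fderivCLM_apply] at this
  exact this

theorem main_hil (hc : Summable c) : ∃ C : ℝ≥0∞, C ≠ ⊤ ∧ ∀ v, Fld c v → ∀ a : ℝ, 0 < a →
    a ≤ 1 / 16 → ∀ f : SchwartzMap ℂ ℂ, Measurable (hil v a f) ∧ n2 (hil v a f) ≤ C * n2 f := by
  obtain ⟨C, hC, H⟩ := mainT hc
  refine ⟨C, hC, fun v hv a ha ha' f => ?_⟩
  obtain ⟨K, hK⟩ := main_lip f
  have hf := (P117.four_schwartz f).nice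
  have hp : ∀ n : ℕ, 0 < a / 2 * (1 / ((n : ℝ) + 1)) := fun n => by positivity
  have ht : Tendsto (fun n : ℕ => a / 2 * (1 / ((n : ℝ) + 1))) atTop (𝓝[>] 0) :=
    tendsto_nhdsWithin_iff.2 ⟨by simpa using tendsto_one_div_add_atTop_nhds_zero_nat.const_mul (a / 2),
      Eventually.of_forall hp⟩
  have hm : ∀ n : ℕ, Measurable (trunc v a (a / 2 * (1 / ((n : ℝ) + 1))) f) := fun n => by
    rw [trunc_eq]
    exact meas_A hv.lip.continuous (kk_tk (hp n) a).meas hf.meas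
  have hl := fun x => (trunc_lim hK v a x).comp ht
  refine ⟨measurable_of_tendsto_metrizable hm (tendsto_pi_nhds.2 hl), ?_⟩
  rw [n2_eq]
  refine P117.Np_fatou (by norm_num) hm hl (Eventually.of_forall fun n => ?_)
  rw [← n2_eq]
  refine H v hv a ha ha' f hf _ (hp n) ?_
  have : 1 / ((n : ℝ) + 1) ≤ 1 := by
    rw [div_le_one (by positivity)]
    linarith [(Nat.cast_nonneg n : (0 : ℝ) ≤ n)]
  nlinarith

theorem main_fin {η : ℕ → ℝ} (hη : Summable fun m => √(η m)) : ∃ C : ℝ≥0, ∀ v : ℂ → ℂ,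
    (∀ x, ‖v x‖ = 1) → LipschitzWith 1 v → Sub η v → ∀ a : ℝ, 0 < a → a ≤ 1 / 16 →
    ∀ f : SchwartzMap ℂ ℂ,
      (∀ x, Tendsto (fun ε => trunc v a ε f x) (𝓝[>] 0) (𝓝 (hil v a f x))) ∧
      ∫⁻ x, ‖hil v a f x‖ₑ ^ 2 ≤ C * ∫⁻ x, ‖f x‖ₑ ^ 2 ∧
      ∀ l : ℝ, 0 < l → volume {x | l < ‖hil v a f x‖} ≤
        C * ENNReal.ofReal (l ^ 2)⁻¹ * ∫⁻ x, ‖f x‖ₑ ^ 2 := by
  obtain ⟨C, hC, H⟩ := main_hil hη
  lift C to ℝ≥0 using hC
  refine ⟨C, fun v h1 h2 h3 a ha ha' f => ?_⟩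
  obtain ⟨K, hK⟩ := main_lip f
  obtain ⟨hm, hb⟩ := H v ⟨h1, h2, fun x s t₀ m hs hs' ht => (h3 x s t₀ m hs hs' ht).trans
    (ENNReal.ofReal_le_ofReal (mul_le_mul_of_nonneg_right
      (by simp only [Real.sq_sqrt']; exact le_max_left _ _) hs.le))⟩ a ha ha' f
  refine ⟨trunc_lim hK v a, hb, fun l hl => ?_⟩
  have hl2 : 0 < l ^ 2 := by positivity
  have h4 := mul_meas_ge_le_lintegral₀ (μ := volume) (hm.enorm.pow_const 2).aemeasurable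
    (ENNReal.ofReal (l ^ 2))
  have h5 : volume {x | l < ‖hil v a f x‖} ≤
      volume {x | ENNReal.ofReal (l ^ 2) ≤ ‖hil v a f x‖ₑ ^ 2} := by
    refine measure_mono fun x hx => ?_
    rw [mem_setOf_eq, ← ofReal_norm_eq_enorm, ENNReal.ofReal_pow hl.le]
    exact pow_le_pow_left' (ENNReal.ofReal_le_ofReal (le_of_lt hx)) 2
  rw [ENNReal.ofReal_inv_of_pos hl2, mul_comm (C : ℝ≥0∞), mul_assoc]
  exact (ENNReal.mul_le_iff_le_inv (by simpa using hl.ne') ENNReal.ofReal_ne_top).1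
    ((mul_le_mul_right h5 _).trans (h4.trans hb))

end Vale.Agent.P112
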