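import Vale.Agent.P112.MaxA
import Vale.Agent.P112.Cake

/-!
Strong type. `K = cW + 1`, `H = 2 K G`. For `l > 0` split `G = G₁ + G₂`, `G₁ = {ofReal l < H}.indicator G`, `K G₂ ≤ ofReal (l / 2)`, so `wv 3 δ G ≤ wv 3 δ G₁ + ofReal (l/2)` (`wv_bdd`, `lintegral_add_left`) and
`{ofReal l < sup} ⊆ {ofReal (l/2) < sup for G₁}`. `cake` with `w = 1` on the left, `weak`, and `cake1` with `F = H`, `w = G`: the total is at most `4 C * 2 K * Q G`.
-/

open MeasureTheory Set Real Filter
open scoped FourierTransform RealInnerProductSpace ContDiff ENNReal NNReal Topology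

noncomputable section

namespace Vale.Agent.P112

open Vale.Agent.P117 (cv Ker Nice Sm Np)

variable {f g u v F κ q M : ℂ → ℂ} {G : ℂ → ℝ≥0∞} {ϑ : ℝ → ℂ} {c : ℕ → ℝ} {Ω E : Set ℂ}
  {a r s t δ B C D R : ℝ} {x y z : ℂ}

theorem maxl : ∃ C : ℝ≥0∞, C ≠ ⊤ ∧ ∀ G : ℂ → ℝ≥0∞, Measurable G →
    Q (fun x => ⨆ j, wv 3 (dl j) G x) ≤ C * Q G := by
  obtain ⟨C, hC, h⟩ := weak
  have hC4 : 4 * C ≠ ⊤ := ENNReal.mul_ne_top ENNReal.ofNat_ne_top hC
  have hK : 2 * cW ≠ ⊤ := ENNReal.mul_ne_top ENNReal.ofNat_ne_top cW_ne_top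
  refine ⟨4 * C * (2 * cW), ENNReal.mul_ne_top hC4 hK, fun G hG => ?_⟩
  have hH : Measurable fun x => 2 * cW * G x := hG.const_mul _
  have e1 := cake (F := fun x => ⨆ j, wv 3 (dl j) G x) (w := fun _ => 1)
    (Measurable.iSup fun j => meas_wv 3 _ hG) measurable_const
  have e2 : 2 * cW * Q G = ∫⁻ x, 2 * cW * G x * G x := by
    rw [Q, ← lintegral_const_mul' _ _ hK]
    simp only [sq, mul_assoc]
  simp only [mul_one, setLIntegral_one] at e1
  rw [mul_assoc, e2, cake1 hH hG, Q, e1, ← lintegral_const_mul' _ _ hC4]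
  refine setLIntegral_mono' measurableSet_Ioi fun l hl => ?_
  have hl : 0 < l := hl
  have hS : MeasurableSet {x | ENNReal.ofReal l < 2 * cW * G x} :=
    measurableSet_lt measurable_const hH
  have e3 : ENNReal.ofReal l = 2 * ENNReal.ofReal (l / 2) := by
    rw [← ENNReal.ofReal_ofNat 2, ← ENNReal.ofReal_mul zero_le_two]
    congr 1
    ring
  have e4 : ENNReal.ofReal (2 * l) = 4 * ENNReal.ofReal (l / 2) := by
    rw [← ENNReal.ofReal_ofNat 4, ← ENNReal.ofReal_mul (by norm_num)]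
    congr 1
    ring
  rw [e4, mul_assoc, mul_assoc, ← lintegral_indicator hS]
  refine mul_le_mul_right (le_trans (mul_le_mul_right (measure_mono fun x hx => ?_) _)
    (h _ (hG.indicator hS) _ (half_pos hl))) _
  by_contra h1
  refine (mem_ofPred_eq ▸ hx).not_ge (iSup_le fun j => ?_)
  have h2 := (le_iSup (fun j => wv 3 (dl j)
    ({x | ENNReal.ofReal l < 2 * cW * G x}.indicator G) x) j).trans (not_lt.1 h1)
  have h3 : wv 3 (dl j) ({x | ENNReal.ofReal l < 2 * cW * G x}ᶜ.indicator G) x ≤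
      ENNReal.ofReal (l / 2) := by
    refine (wv_bdd (dl_pos j) (le_iSup _) x).trans ?_
    rw [ENNReal.mul_iSup]
    refine iSup_le fun z => ?_
    by_cases hz : z ∈ {x | ENNReal.ofReal l < 2 * cW * G x}ᶜ
    · rw [indicator_of_mem hz]
      refine (ENNReal.mul_le_mul_iff_right two_ne_zero ENNReal.ofNat_ne_top).1 ?_
      rw [← e3, ← mul_assoc]
      exact not_lt.1 hz
    · rw [indicator_of_notMem hz, mul_zero]
      exact zero_le
  rw [e3, two_mul]
  refine le_trans (le_of_eq ?_) (add_le_add h2 h3)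
  have h4 : Measurable fun z =>
      W 3 (dl j) (x - z) * {x | ENNReal.ofReal l < 2 * cW * G x}.indicator G z :=
    ((meas_W 3 _).comp (measurable_const.sub measurable_id)).mul (hG.indicator hS)
  rw [wv, wv, wv, ← lintegral_add_left h4]
  refine lintegral_congr fun z => ?_
  rw [← mul_add, ← Pi.add_apply, indicator_self_add_compl]

end Vale.Agent.P112
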