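import Vale.Agent.P112.KW

/-! The weak type bound, by the Vitali covering theorem. -/

open MeasureTheory Set Real Filter
open scoped FourierTransform RealInnerProductSpace ContDiff ENNReal NNReal Topology

noncomputable section

namespace Vale.Agent.P112

open Vale.Agent.P117 (cv Ker Nice Sm Np)

variable {f g u v F κ q M : ℂ → ℂ} {G : ℂ → ℝ≥0∞} {ϑ : ℝ → ℂ} {c : ℕ → ℝ} {Ω E : Set ℂ}
  {a r s t δ B C D R : ℝ} {x y z : ℂ}

theorem maxa_pt (hδ : 0 < δ) (hG : Measurable G) {l : ℝ} (hl : 0 < l)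
    (H : ∀ ρ : ℝ, 0 < ρ → ∫⁻ z in Metric.closedBall x ρ, G z ≤ ENNReal.ofReal (l / 8 * ρ ^ 2)) :
    wv 3 δ G x ≤ ENNReal.ofReal l := by
  have h1 : ∀ z, W 3 δ (x - z) * G z ≤ ∑' n : ℕ, (Metric.closedBall x (2 * 2 ^ n * δ)).indicator
      (fun z => ENNReal.ofReal (δ ^ 2 * (2 ^ n) ^ 3)⁻¹ * G z) z := fun z => by
    obtain ⟨n, h2, h3⟩ := exists_nat_pow_near (x := 1 + ‖x - z‖ / δ)
      (le_add_of_nonneg_right (by positivity)) one_lt_two
    refine le_trans ?_ (ENNReal.le_tsum n)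
    have h4 : ‖x - z‖ ≤ 2 * 2 ^ n * δ := (div_le_iff₀ hδ).1 (by rw [pow_succ] at h3; linarith)
    rw [indicator_of_mem (Metric.mem_closedBall'.2 (by rwa [dist_eq_norm])), W, wr]
    gcongr
  refine (lintegral_mono h1).trans ?_
  rw [lintegral_tsum fun n => ((hG.const_mul _).indicator measurableSet_closedBall).aemeasurable,
    ← tsum_geometric_two' l, ENNReal.ofReal_tsum_of_nonneg (fun n => by positivity)
      (summable_geometric_two' l)]
  refine ENNReal.tsum_le_tsum fun n => ?_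
  rw [lintegral_indicator measurableSet_closedBall, lintegral_const_mul _ hG]
  refine (mul_le_mul_right (H _ (by positivity)) _).trans_eq ?_
  rw [← ENNReal.ofReal_mul (by positivity)]
  refine congrArg ENNReal.ofReal ?_
  field_simp
  ring

theorem weak : ∃ C : ℝ≥0∞, C ≠ ⊤ ∧ ∀ G : ℂ → ℝ≥0∞, Measurable G → ∀ l : ℝ, 0 < l →
    ENNReal.ofReal l * volume {x | ENNReal.ofReal l < ⨆ j, wv 3 (dl j) G x} ≤ C * ∫⁻ x, G x := by
  refine ⟨ENNReal.ofReal 128 * NNReal.pi, ENNReal.mul_ne_top ENNReal.ofReal_ne_top ENNReal.coe_ne_top,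
    fun G hG l hl => ?_⟩
  by_cases hI : ∫⁻ x, G x = ⊤
  · rw [hI, ENNReal.mul_top (mul_ne_zero (by simp) (by simp [NNReal.pi_ne_zero]))]
    exact le_top
  obtain ⟨T, hT⟩ : ∃ T, T = {x | ENNReal.ofReal l < ⨆ j, wv 3 (dl j) G x} := ⟨_, rfl⟩
  have h1 : ∀ x ∈ T, ∃ ρ : ℝ, 0 < ρ ∧
      ENNReal.ofReal (l / 8 * ρ ^ 2) < ∫⁻ z in Metric.closedBall x ρ, G z := fun x hx => by
    by_contra! H
    rw [hT] at hx
    exact not_le.2 hx (iSup_le fun j => maxa_pt (dl_pos j) hG hl H)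
  choose! ρ h2 h3 using h1
  obtain ⟨U, h4, h5, h6⟩ := Vitali.exists_disjoint_subfamily_covering_enlargement_closedBall T id ρ
    (1 + (∫⁻ x, G x).toReal / (l / 8)) (fun x hx => by
      have := (ENNReal.ofReal_le_iff_le_toReal hI).1
        ((h3 x hx).le.trans (setLIntegral_le_lintegral _ _))
      have := (le_div_iff₀' (by positivity)).2 this
      nlinarith) 4 (by norm_num)
  have h7 : U.Countable := h5.countable_of_nonempty_interior fun x hx =>
    (Metric.nonempty_ball.2 (h2 x (h4 hx))).mono Metric.ball_subset_interior_closedBall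
  have h8 : T ⊆ ⋃ x ∈ U, Metric.closedBall x (4 * ρ x) := fun x hx => by
    obtain ⟨y, hy, h⟩ := h6 x hx
    exact mem_biUnion hy (h (Metric.mem_closedBall_self (h2 x hx).le))
  rw [← hT]
  refine (mul_le_mul_right ((measure_mono h8).trans (measure_biUnion_le _ h7 _)) _).trans
    (le_trans ?_ (mul_le_mul_right (setLIntegral_le_lintegral
      (⋃ x ∈ U, Metric.closedBall (id x) (ρ x)) _) _))
  rw [lintegral_biUnion h7 (fun _ _ => measurableSet_closedBall) h5, ← ENNReal.tsum_mul_left,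
    ← ENNReal.tsum_mul_left]
  refine ENNReal.tsum_le_tsum fun x => le_trans (le_of_eq ?_)
    (mul_le_mul_right (h3 x (h4 x.2)).le _)
  have := h2 x (h4 x.2)
  rw [Complex.volume_closedBall, mul_right_comm, ← mul_assoc, ← ENNReal.ofReal_pow (by positivity),
    ← ENNReal.ofReal_mul hl.le, ← ENNReal.ofReal_mul (by norm_num)]
  refine congrArg (fun t => ENNReal.ofReal t * _) ?_
  ring

end Vale.Agent.P112
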