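import Vale.Agent.P112.Kern
import Vale.Agent.P112.KLip
import Vale.Agent.P112.LP
import Vale.Agent.P112.Bil
import Vale.Agent.P112.Mink
import Vale.Agent.P112.Sums

/-!
The commutator terms. `Ψ z = z - t • u z` is Lipschitz with constant 2. `b` from `fat hg`. `L i y = ∑ k ∈ range (i+1), ofReal (C₀ * 2 * dl (i - k) * 3 ^ 5) * wv 3 (dl k) ‖b k‖ₑ (Ψ y)`:
`S_sum`, `enorm_sum_le`, `kc_lip` with centre `Ψ y`, `R = 2`, `‖Ψ z - Ψ y‖ / dl k ≤ 2 dl (i - k)`, `wv_anti`. Sum: `amgm`, `Q_comp`, `wv_l2`, `sch`.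
`par_max`: `N x = ofReal (C₀ * 3 ^ 5) * ⨆ j, wv 3 (dl j) ‖g‖ₑ (Ψ x)`, `kc_le` with centre `Ψ x`, `R = 2`.
-/

open MeasureTheory Set Real Filter
open scoped FourierTransform RealInnerProductSpace ContDiff ENNReal NNReal Topology

noncomputable section

namespace Vale.Agent.P112

open Vale.Agent.P117 (cv Ker Nice Sm Np)

variable {f g u v F κ q M : ℂ → ℂ} {G : ℂ → ℝ≥0∞} {ϑ : ℝ → ℂ} {c : ℕ → ℝ} {Ω E : Set ℂ}
  {a r s t δ B C D R : ℝ} {x y z : ℂ}

theorem parb_lip (hu : LipschitzWith 2 u) (ht : |t| ≤ 1 / 4) (z y : ℂ) :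
    ‖z - t • u z - (y - t • u y)‖ ≤ 2 * ‖z - y‖ := by
  have h1 := hu.norm_sub_le z y
  have h2 : ‖t • (u z - u y)‖ ≤ 1 / 4 * ‖u z - u y‖ := by
    rw [norm_smul, Real.norm_eq_abs]
    exact mul_le_mul_of_nonneg_right ht (norm_nonneg _)
  have h3 := norm_sub_le (z - y) (t • (u z - u y))
  rw [show z - t • u z - (y - t • u y) = z - y - t • (u z - u y) by rw [smul_sub]; ring]
  have h4 := norm_nonneg (z - y)
  push_cast at h1
  linarith


theorem par_com : ∃ C : ℝ≥0∞, C ≠ ⊤ ∧ ∀ u : ℂ → ℂ, LipschitzWith 2 u → ∀ t : ℝ, |t| ≤ 1 / 4 →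
    ∀ g : ℂ → ℂ, Nice g → ∃ L : ℕ → ℂ → ℝ≥0∞, (∀ i, Measurable (L i)) ∧
      (∀ i y z, ‖z - y‖ < dl i → ‖S i g (z - t • u z) - S i g (y - t • u y)‖ₑ ≤ L i y) ∧
      ∀ w : ℕ → ℂ → ℂ, (∀ i, Measurable (w i)) → ∀ J : ℕ,
        ∑ i ∈ Finset.range J, ∫⁻ y, ‖w i y‖ₑ * L i y ≤
          C * (∑ i ∈ Finset.range J, n2 (w i) + n2 g) := by
  obtain ⟨C₀, hC⟩ := kern
  have h0 : 0 ≤ C₀ := (hC 0).1.C0
  set K := ENNReal.ofReal (C₀ * 2 * (1 + 2) ^ 5) with hK
  set T := K ^ 2 * (4 * cW ^ 2) with hT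
  have hT' : T ≠ ⊤ := ENNReal.mul_ne_top (ENNReal.pow_ne_top ENNReal.ofReal_ne_top)
    (ENNReal.mul_ne_top ENNReal.ofNat_ne_top (ENNReal.pow_ne_top cW_ne_top))
  refine ⟨2 * (1 + T * 9), ENNReal.mul_ne_top ENNReal.ofNat_ne_top (ENNReal.add_ne_top.2
    ⟨ENNReal.one_ne_top, ENNReal.mul_ne_top hT' ENNReal.ofNat_ne_top⟩), fun u hu t ht g hg => ?_⟩
  obtain ⟨b, b1, b2, b3⟩ := fat hg
  have mΨ : Measurable fun y => y - t • u y :=
    (continuous_id.sub (hu.continuous.const_smul t)).measurable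
  have m1 : ∀ k, Measurable (wv 3 (dl k) fun z => ‖b k z‖ₑ) := fun k =>
    meas_wv _ _ (b1 k).meas.enorm
  have m2 : ∀ k, Measurable fun y => K * wv 3 (dl k) (fun z => ‖b k z‖ₑ) (y - t • u y) := fun k =>
    ((m1 k).comp mΨ).const_mul K
  refine ⟨fun i y => ∑ k ∈ Finset.range (i + 1), ENNReal.ofReal (dl (i - k)) *
    (K * wv 3 (dl k) (fun z => ‖b k z‖ₑ) (y - t • u y)),
    fun i => Finset.measurable_sum _ fun k _ => (m2 k).const_mul _, fun i y z hz => ?_,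
    fun w hw J => ?_⟩
  · rw [S_sum i hg, S_sum i hg, ← Finset.sum_sub_distrib]
    refine (enorm_sum_le _ _).trans (Finset.sum_le_sum fun k hk => ?_)
    have e : dl i = dl (i - k) * dl k := by
      rw [← dl_add, Nat.sub_add_cancel (Nat.lt_succ_iff.1 (Finset.mem_range.1 hk))]
    have h1 := (parb_lip hu ht z y).trans (mul_le_mul_of_nonneg_left hz.le zero_le_two)
    have h2 := dl_pos k
    have h3 : dl i ≤ dl k := e ▸ mul_le_of_le_one_left h2.le (dl_le_one _)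
    rw [← b2 k]
    refine (kc_lip (R := 2) (x := y - t • u y) (hC k).1 (b1 k).int (by linarith)
      (by rw [sub_self, norm_zero]; positivity)).trans ?_
    rw [← mul_assoc, hK, ← ENNReal.ofReal_mul (dl_pos _).le]
    refine mul_le_mul' (ENNReal.ofReal_le_ofReal ?_) (wv_anti (by norm_num) h2 _ _)
    have h4 : ‖z - t • u z - (y - t • u y)‖ / dl k ≤ 2 * dl (i - k) := by
      rw [div_le_iff₀ h2, mul_assoc, ← e]
      exact h1
    have h5 := mul_le_mul_of_nonneg_left h4 h0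
    linarith
  · have h1 : ∀ i k, ∫⁻ y, ‖w i y‖ₑ * (K * wv 3 (dl k) (fun z => ‖b k z‖ₑ) (y - t • u y)) ≤
        n2 (w i) + T * n2 (b k) := fun i k => by
      refine (amgm (hw i).enorm _).trans (add_le_add le_rfl ?_)
      rw [Q_mul K (G := fun y => wv 3 (dl k) (fun z => ‖b k z‖ₑ) (y - t • u y)) ((m1 k).comp mΨ),
        hT, mul_assoc, mul_assoc]
      exact mul_le_mul_right ((Q_comp hu ht (m1 k)).trans
        (mul_le_mul_right (wv_l2 (dl_pos k) (b1 k).meas.enorm) _)) _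
    calc _ ≤ ∑ i ∈ Finset.range J, ∑ k ∈ Finset.range (i + 1),
          ENNReal.ofReal (dl (i - k)) * (n2 (w i) + T * n2 (b k)) := by
          refine Finset.sum_le_sum fun i _ => ?_
          simp only [Finset.mul_sum]
          rw [lintegral_finsetSum _ fun k _ => (hw i).enorm.fun_mul ((m2 k).const_mul _)]
          refine Finset.sum_le_sum fun k _ => ?_
          simp only [mul_left_comm ‖w i _‖ₑ (ENNReal.ofReal (dl _))]
          rw [lintegral_const_mul' _ _ ENNReal.ofReal_ne_top]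
          exact mul_le_mul_right (h1 i k) _
      _ ≤ _ := sch _ _ J
      _ ≤ _ := by
          rw [← Finset.mul_sum, mul_assoc 2]
          refine mul_le_mul_right ?_ _
          rw [mul_add]
          refine add_le_add (le_mul_of_one_le_left' le_self_add) ?_
          refine (mul_le_mul_right (b3 _) _).trans ?_
          rw [← mul_assoc]
          exact mul_le_mul_left le_add_self _

theorem par_max : ∃ C : ℝ≥0∞, C ≠ ⊤ ∧ ∀ u : ℂ → ℂ, LipschitzWith 2 u → ∀ t : ℝ, |t| ≤ 1 / 4 →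
    ∀ (g : ℂ → ℂ) (i : ℕ) (y x : ℂ), ‖x - y‖ < dl i → ‖S i g (y - t • u y)‖ₑ ≤
      C * ⨆ j, wv 3 (dl j) (fun z => ‖g z‖ₑ) (x - t • u x) := by
  obtain ⟨C₀, hC⟩ := kern
  refine ⟨ENNReal.ofReal (C₀ * (1 + 2) ^ 5), ENNReal.ofReal_ne_top, fun u hu t ht g i y x hx => ?_⟩
  rw [norm_sub_rev] at hx
  refine (kc_le (R := 2) (x := x - t • u x) (hC i).2 g ((parb_lip hu ht y x).trans
    (mul_le_mul_of_nonneg_left hx.le zero_le_two))).trans (mul_le_mul_right ?_ _)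
  exact (wv_anti (by norm_num) (dl_pos i) _ _).trans
    (le_iSup (fun j => wv 3 (dl j) (fun z => ‖g z‖ₑ) (x - t • u x)) i)

end Vale.Agent.P112
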