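import Vale.Agent.P112.Sums

/-!
`φ` is a normed bump of outer radius `ρ = 1/16` and `q u = 2 φ u - φ (u + ρ) - φ (u + ρ I)`, so that
`𝓕 q ξ = 𝓕 φ ξ * (2 - 𝐞 (ρ ξ.re) - 𝐞 (ρ ξ.im))`.
-/

open MeasureTheory Set Real Filter
open scoped FourierTransform RealInnerProductSpace ContDiff ENNReal NNReal Topology

noncomputable section

namespace Vale.Agent.P112

open Vale.Agent.P117 (cv Ker Nice Sm Np)

variable {f g u v F κ q M : ℂ → ℂ} {G : ℂ → ℝ≥0∞} {ϑ : ℝ → ℂ} {c : ℕ → ℝ} {Ω E : Set ℂ}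
  {a r s t δ B C D R : ℝ} {x y z : ℂ}

theorem qk_e (t : ℝ) : ‖(𝐞 t : ℂ) - 1‖ ≤ 2 * π * |t| := by
  rw [Real.fourierChar_apply, mul_comm _ Complex.I]
  refine Real.norm_exp_I_mul_ofReal_sub_one_le.trans_eq ?_
  rw [Real.norm_eq_abs, abs_mul, abs_of_pos two_pi_pos]

theorem qk_re (t : ℝ) : (𝐞 t : ℂ).re = cos (2 * π * t) := by
  rw [Real.fourierChar_apply, Complex.exp_ofReal_mul_I_re]

theorem qk_int (hf : Integrable f) (ξ : ℂ) : Integrable fun w => 𝐞 (-⟪w, ξ⟫) • f w := by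
  simpa only [inner_neg_right] using P117.four_int hf (-ξ)

theorem qk_sub (hf : Integrable f) (hg : Integrable g) (ξ : ℂ) :
    𝓕 (fun w => f w - g w) ξ = 𝓕 f ξ - 𝓕 g ξ := by
  simp only [Real.fourier_eq, smul_sub]
  exact integral_sub (qk_int hf ξ) (qk_int hg ξ)

theorem qk_shift (f : ℂ → ℂ) (z ξ : ℂ) : 𝓕 (fun w => f (w + z)) ξ = 𝐞 ⟪z, ξ⟫ * 𝓕 f ξ :=
  congrFun (VectorFourier.fourierIntegral_comp_add_right 𝐞 volume (innerₗ ℂ) f z) ξ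

/-- the bump -/
def qkB : ContDiffBump (0 : ℂ) := ⟨1 / 32, 1 / 16, by norm_num, by norm_num⟩

/-- the normed bump -/
def qkP (w : ℂ) : ℂ := (qkB.normed volume w : ℝ)

theorem qk_sm : Sm qkP :=
  ⟨Complex.ofRealCLM.contDiff.comp qkB.contDiff_normed,
    qkB.hasCompactSupport_normed.comp_left Complex.ofReal_zero⟩

theorem qk_off {w : ℂ} (h : 1 / 16 ≤ ‖w‖) : qkB.normed volume w = 0 := by
  by_contra h0
  have h1 : w ∈ Function.support (qkB.normed volume) := h0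
  rw [qkB.support_normed_eq, mem_ball_zero_iff] at h1
  exact h.not_gt h1

theorem qk_ne {ξ : ℂ} (h : ‖ξ‖ ≤ 2) : 𝓕 qkP ξ ≠ 0 := fun h0 => by
  have h1 : ∫ w, qkP w = 1 := by
    simp only [qkP]
    rw [integral_complex_ofReal, qkB.integral_normed, Complex.ofReal_one]
  have h2 : ‖∫ w, (𝐞 (-⟪w, ξ⟫) • qkP w - qkP w)‖ ≤ ∫ w, π / 4 * qkB.normed volume w := by
    refine norm_integral_le_of_norm_le (qkB.integrable_normed.const_mul _)
      (Eventually.of_forall fun w => ?_)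
    rw [Circle.smul_def, smul_eq_mul, ← sub_one_mul, norm_mul, qkP, Complex.norm_real,
      Real.norm_of_nonneg (qkB.nonneg_normed w)]
    rcases le_total (1 / 16) ‖w‖ with hw | hw
    · rw [qk_off hw, mul_zero, mul_zero]
    · refine mul_le_mul_of_nonneg_right ((qk_e _).trans ?_) (qkB.nonneg_normed w)
      have h3 : |⟪w, ξ⟫| ≤ 1 / 16 * 2 :=
        (abs_real_inner_le_norm w ξ).trans (mul_le_mul hw h (norm_nonneg _) (by norm_num))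
      rw [abs_neg]
      nlinarith [pi_pos]
  rw [integral_sub (qk_int qk_sm.ker.int ξ) qk_sm.ker.int, ← Real.fourier_eq, h0, h1,
    integral_const_mul, qkB.integral_normed, zero_sub, norm_neg, norm_one] at h2
  linarith [pi_lt_four]

/-- the kernel -/
def qkQ (w : ℂ) : ℂ :=
  qkP w - qkP (w + ((1 / 16 : ℝ) : ℂ)) - (qkP (w + ((1 / 16 : ℝ) : ℂ) * Complex.I) - qkP w)

theorem qk_sm_shift (z : ℂ) : Sm fun w => qkP (w + z) :=
  ⟨qk_sm.smooth.comp (contDiff_id.add contDiff_const),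
    qk_sm.cs.comp_homeomorph (Homeomorph.addRight z)⟩

theorem qk_sm_sub (hf : Sm f) (hg : Sm g) : Sm fun w => f w - g w :=
  ⟨hf.smooth.sub hg.smooth, hf.cs.sub hg.cs⟩

theorem qk_smQ : Sm qkQ :=
  qk_sm_sub (qk_sm_sub qk_sm (qk_sm_shift _)) (qk_sm_sub (qk_sm_shift _) qk_sm)

theorem qk_four (ξ : ℂ) :
    𝓕 qkQ ξ = (2 - 𝐞 (1 / 16 * ξ.re) - 𝐞 (1 / 16 * ξ.im)) * 𝓕 qkP ξ := by
  have e1 : ⟪((1 / 16 : ℝ) : ℂ), ξ⟫ = 1 / 16 * ξ.re := by
    simp [Complex.inner, mul_comm]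
  have e2 : ⟪((1 / 16 : ℝ) : ℂ) * Complex.I, ξ⟫ = 1 / 16 * ξ.im := by
    simp [Complex.inner, mul_comm]
  refine (qk_sub (qk_sm_sub qk_sm (qk_sm_shift _)).ker.int
    (qk_sm_sub (qk_sm_shift _) qk_sm).ker.int ξ).trans ?_
  rw [qk_sub qk_sm.ker.int (qk_sm_shift _).ker.int, qk_sub (qk_sm_shift _).ker.int qk_sm.ker.int,
    qk_shift, qk_shift, e1, e2]
  ring

theorem qk_cos {t : ℝ} (h : |t| ≤ 2) (h1 : 1 ≤ cos (2 * π * (1 / 16 * t))) : t = 0 := by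
  have h2 := abs_le.1 h
  have h3 := (cos_eq_one_iff_of_lt_of_lt (by nlinarith [pi_pos]) (by nlinarith [pi_pos])).1
    (le_antisymm (cos_le_one _) h1)
  simpa [pi_ne_zero] using h3

theorem qk_neQ {ξ : ℂ} (h0 : ξ ≠ 0) (h : ‖ξ‖ ≤ 2) : 𝓕 qkQ ξ ≠ 0 := by
  rw [qk_four]
  refine mul_ne_zero (fun e => h0 ?_) (qk_ne h)
  have h1 := congrArg Complex.re e
  simp only [Complex.sub_re, qk_re, Complex.re_ofNat, Complex.zero_re] at h1
  exact Complex.ext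
    (qk_cos ((Complex.abs_re_le_norm ξ).trans h) (by linarith [cos_le_one (2 * π * (1 / 16 * ξ.im))]))
    (qk_cos ((Complex.abs_im_le_norm ξ).trans h) (by linarith [cos_le_one (2 * π * (1 / 16 * ξ.re))]))

theorem qk_bound : ∃ K : ℝ, 0 ≤ K ∧ ∀ η : ℂ, ‖𝓕 qkQ η‖ ≤ K * min ‖η‖ ‖η‖⁻¹ := by
  obtain ⟨Φ, hΦ⟩ : ∃ Φ : SchwartzMap ℂ ℂ, (Φ : ℂ → ℂ) = 𝓕 qkQ :=
    ⟨𝓕 (qk_smQ.cs.toSchwartzMap qk_smQ.smooth), rfl⟩
  have h0 : Φ 0 = 0 := by
    rw [hΦ, qk_four]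
    norm_num
  obtain ⟨K₁, k1, h1⟩ := Φ.decay 0 1
  obtain ⟨K₂, k2, h2⟩ := Φ.decay 1 0
  refine ⟨max K₁ K₂, le_max_of_le_left k1.le, fun η => ?_⟩
  rw [← hΦ, mul_min_of_nonneg _ _ (le_max_of_le_left k1.le)]
  refine le_min ?_ ?_
  · have h3 := convex_univ.norm_image_sub_le_of_norm_fderiv_le (𝕜 := ℝ) (C := K₁) (x := 0) (y := η)
      (fun w _ => Φ.differentiableAt (x := w)) (fun w _ => by simpa using h1 w) trivial trivial
    rw [h0, sub_zero, sub_zero] at h3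
    exact h3.trans (mul_le_mul_of_nonneg_right (le_max_left _ _) (norm_nonneg _))
  · by_cases hη : η = 0
    · simp [hη, h0]
    · rw [← div_eq_mul_inv, le_div_iff₀' (norm_pos_iff.2 hη)]
      refine le_trans ?_ (le_max_right _ _)
      simpa using h2 η

theorem exists_qk : ∃ (C : ℝ) (q : ℂ → ℂ), QK C q := by
  obtain ⟨K, K0, hK⟩ := qk_bound
  have hc : Continuous (𝓕 qkQ) := P117.continuous_fourier qk_smQ.ker.int
  obtain ⟨ξ₀, h0, h1⟩ := ((isCompact_closedBall (0 : ℂ) 2).diff Metric.isOpen_ball).exists_isMinOn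
    (s := Metric.closedBall 0 2 \ Metric.ball 0 (1 / 2)) ⟨1, by norm_num, by norm_num⟩
    hc.norm.continuousOn
  have h2 : 0 < ‖𝓕 qkQ ξ₀‖ := norm_pos_iff.2 (qk_neQ (fun e => h0.2 (by rw [e]; norm_num))
    (mem_closedBall_zero_iff.1 h0.1))
  have hB : 0 ≤ ∫ w, ‖qkQ w‖ := integral_nonneg fun _ => norm_nonneg _
  have i1 := inv_pos.2 h2
  have i2 : 0 ≤ (∫ w, ‖qkQ w‖) * K * 4 := by positivity
  refine ⟨‖𝓕 qkQ ξ₀‖⁻¹ + (∫ w, ‖qkQ w‖) * K * 4 + ∫ w, ‖qkQ w‖, qkQ, by positivity, qk_smQ.ker,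
    fun w hw => ?_, (𝓕 (qk_smQ.cs.toSchwartzMap qk_smQ.smooth)).smooth ⊤, fun ξ a1 a2 => ?_,
    fun ξ J => ?_, by linarith⟩
  · have e : ∀ z : ℂ, ‖z‖ ≤ 1 / 16 → qkP (w + z) = 0 := fun z hz => by
      rw [qkP, qk_off (by linarith [norm_sub_le (w + z) z, add_sub_cancel_right w z ▸ hw]),
        Complex.ofReal_zero]
    have e0 := e 0 (by simp)
    rw [add_zero] at e0
    rw [qkQ, e0, e _ (by simp), e _ (by simp)]
    simp
  · have h3 : ‖𝓕 qkQ ξ₀‖ ≤ ‖𝓕 qkQ ξ‖ :=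
      h1 ⟨mem_closedBall_zero_iff.2 a2, fun h => a1.not_gt (mem_ball_zero_iff.1 h)⟩
    refine (inv_mul_cancel₀ h2.ne').symm.trans_le (mul_le_mul (by linarith) h3 h2.le (by positivity))
  · refine le_trans ?_ (show (∫ w, ‖qkQ w‖) * K * 4 ≤ _ by linarith)
    refine le_trans ?_ (mul_le_mul_of_nonneg_left (dy_sum (norm_nonneg ξ) J) (mul_nonneg hB K0))
    rw [Finset.mul_sum]
    refine Finset.sum_le_sum fun j _ => ?_
    have h3 := hK (dl j • ξ)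
    rw [norm_smul, Real.norm_of_nonneg (dl_pos j).le, mul_comm (dl j)] at h3
    rw [sq, mul_assoc]
    exact mul_le_mul (P117.norm_fourier_le _ _) h3 (norm_nonneg _) hB

end Vale.Agent.P112
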