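import Vale.Agent.P112.ParA
import Vale.Agent.P112.ParB
import Vale.Agent.P112.Car
import Vale.Agent.P112.Max
import Vale.Agent.P112.Qk

/-!
The paraproduct. `exists_qk`, `rep`, `par_one` with `j = i + 3`, `h z = S i g (z - t • u z)`, `L i` from `par_com` (`dl (i+3) ≤ dl i`). First terms: `amgm'` with `B`, then `car` with
`J = (range J).image (· + 3)` or `Finset.Ico 3 (J + 3)` (`Finset.sum_Ico_add'`), `h j y = ‖S (j - 3) g (y - t • u y)‖ₑ`, `N` from `par_max`; `Q N` by `Q_mul`, `Q_comp`, `maxl`;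
`(ofReal B)⁻¹ * ofReal (C B²) = ofReal C * ofReal B`.
-/

open MeasureTheory Set Real Filter
open scoped FourierTransform RealInnerProductSpace ContDiff ENNReal NNReal Topology

noncomputable section

namespace Vale.Agent.P112

open Vale.Agent.P117 (cv Ker Nice Sm Np)

variable {f g u v F κ q M : ℂ → ℂ} {G : ℂ → ℝ≥0∞} {ϑ : ℝ → ℂ} {c : ℕ → ℝ} {Ω E : Set ℂ}
  {a r s t δ B C D R : ℝ} {x y z : ℂ}

theorem par_dl (j : ℕ) : dl j ≤ dl (j - 3) :=
  inv_anti₀ (by positivity) (pow_le_pow_right₀ one_le_two (Nat.sub_le j 3))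

theorem par_sum (J : ℕ) (e : ℕ → ℝ≥0∞) :
    ∑ j ∈ (Finset.range J).map (addRightEmbedding 3), e j = ∑ i ∈ Finset.range J, e (i + 3) :=
  Finset.sum_map _ _ _

theorem par : ∃ C : ℝ≥0∞, C ≠ ⊤ ∧ ∀ u : ℂ → ℂ, LipschitzWith 2 u → ∀ t : ℝ, |t| ≤ 1 / 4 →
    ∀ (β : ℂ → ℝ) (B : ℝ), Measurable β → 0 < B → (∀ z, |β z| ≤ B) → ∀ f g : ℂ → ℂ, Nice f →
    Nice g → ∀ J : ℕ, ∑ i ∈ Finset.range J,
      ‖∫ z, (β z : ℂ) * (P (i + 3) f z * S i g (z - t • u z))‖ₑ ≤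
        C * ENNReal.ofReal B * (n2 f + n2 g) := by
  obtain ⟨C, q, hq⟩ := exists_qk
  obtain ⟨C1, c1, H1⟩ := par_com
  obtain ⟨C2, c2, H2⟩ := par_max
  obtain ⟨C3, c3, H3⟩ := maxl
  refine ⟨ENNReal.ofReal (C ^ 2) + ENNReal.ofReal C * (C2 ^ 2 * (4 * C3)) +
    ENNReal.ofReal C * (C1 * (ENNReal.ofReal (C ^ 2) + 1)), by finiteness,
    fun u hu t ht β B hβ hB0 hB f g hf hg J => ?_⟩
  obtain ⟨w, w1, w2, w3⟩ := rep hq hf
  obtain ⟨L, L1, L2, L3⟩ := H1 u hu t ht g hg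
  have hΦ : Measurable fun z : ℂ => z - t • u z :=
    (continuous_id.sub (hu.continuous.const_smul t)).measurable
  have hS : ∀ i, Measurable fun z : ℂ => S i g (z - t • u z) := fun i =>
    (S_ker i hg).cont.measurable.comp hΦ
  have hM : Measurable fun x => ⨆ j, wv 3 (dl j) (fun z => ‖g z‖ₑ) x :=
    Measurable.iSup fun j => meas_wv _ _ hg.meas.enorm
  have k1 := w3 ((Finset.range J).map (addRightEmbedding 3))
  have k2 := car hq hβ hB0 hB (h := fun j y => ‖S (j - 3) g (y - t • u y)‖ₑ)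
    (fun j => (hS _).enorm) ((hM.comp hΦ).const_mul C2) ((Finset.range J).map (addRightEmbedding 3))
    fun j _ y x h => H2 u hu t ht g (j - 3) y x (h.trans_le (par_dl j))
  rw [par_sum] at k1 k2
  simp only [Nat.add_sub_cancel] at k2
  have k3 : Q (fun x => C2 * ((fun x => ⨆ j, wv 3 (dl j) (fun z => ‖g z‖ₑ) x) ∘
      fun z => z - t • u z) x) ≤ C2 ^ 2 * (4 * (C3 * n2 g)) := by
    rw [Q_mul C2 (hM.comp hΦ)]
    exact mul_le_mul_right ((Q_comp hu ht hM).trans (mul_le_mul_right (H3 _ hg.meas.enorm) _)) _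
  have k4 := L3 (fun i => w (i + 3)) (fun i => (w1 _).meas) J
  have e1 : (ENNReal.ofReal B)⁻¹ * ENNReal.ofReal (C * B ^ 2) =
      ENNReal.ofReal C * ENNReal.ofReal B := by
    rw [← ENNReal.ofReal_inv_of_pos hB0, ← ENNReal.ofReal_mul (inv_pos.2 hB0).le,
      ← ENNReal.ofReal_mul hq.C0]
    congr 1
    field_simp
  have k5 : ∀ i, ‖∫ z, (β z : ℂ) * (P (i + 3) f z * S i g (z - t • u z))‖ₑ ≤
      ENNReal.ofReal B * n2 (w (i + 3)) + (ENNReal.ofReal B)⁻¹ * Q (fun y =>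
        ‖S i g (y - t • u y)‖ₑ * ‖∫ z, qs q (i + 3) (z - y) * (β z : ℂ)‖ₑ) +
      ENNReal.ofReal (B * C) * ∫⁻ y, ‖w (i + 3) y‖ₑ * L i y := fun i => by
    obtain ⟨K, hK⟩ := (S_ker i hg).bdd
    rw [w2 (i + 2)]
    exact (par_one hq hβ hB (w1 _) (hS i) ⟨K, fun z => hK _⟩ (L1 i)
      fun y z h => L2 i y z (h.trans_le (par_dl (i + 3)))).trans
      (add_le_add_left (amgm' (w1 _).meas.enorm _ hB0) _)
  refine (Finset.sum_le_sum fun i _ => k5 i).trans ?_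
  rw [Finset.sum_add_distrib, Finset.sum_add_distrib, ← Finset.mul_sum, ← Finset.mul_sum,
    ← Finset.mul_sum, ENNReal.ofReal_mul hB0.le]
  refine (add_le_add (add_le_add (mul_le_mul_right k1 _)
    (mul_le_mul_right (k2.trans (mul_le_mul_right k3 _)) _))
    (mul_le_mul_right (k4.trans (mul_le_mul_right (add_le_add_left k1 _) _)) _)).trans ?_
  rw [← mul_assoc _ (ENNReal.ofReal (C * B ^ 2)), e1]
  generalize ENNReal.ofReal B = b
  generalize ENNReal.ofReal (C ^ 2) = d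
  generalize ENNReal.ofReal C = e
  refine le_iff_exists_add.2 ⟨b * d * n2 g + e * (C2 ^ 2 * (4 * C3)) * b * n2 f +
    b * e * C1 * (d * n2 g + n2 f), ?_⟩
  ring

end Vale.Agent.P112
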