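import Vale.Agent.P112.Up
import Vale.Agent.P112.Par
import Vale.Agent.P112.Jac
import Vale.Agent.P112.LP
import Vale.Agent.P112.Sums

/-! Off diagonal terms at a fixed time. -/

open MeasureTheory Set Real Filter
open scoped FourierTransform RealInnerProductSpace ContDiff ENNReal NNReal Topology

noncomputable section

namespace Vale.Agent.P112

open Vale.Agent.P117 (cv Ker Nice Sm Np)

variable {f g u v F κ q M : ℂ → ℂ} {G : ℂ → ℝ≥0∞} {ϑ : ℝ → ℂ} {c : ℕ → ℝ} {Ω E : Set ℂ}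
  {a r s t δ B C D R : ℝ} {x y z : ℂ}

theorem off_up : ∃ C : ℝ≥0∞, C ≠ ⊤ ∧ ∀ u : ℂ → ℂ, LipschitzWith 2 u → ∀ t : ℝ, |t| ≤ 1 / 4 →
    ∀ f g : ℂ → ℂ, Nice f → Nice g → ∀ J : ℕ,
    ∑ i ∈ Finset.range J, ∑ j ∈ (Finset.range J).filter (fun j => j + 3 ≤ i),
      ‖lam u t (P j f) (P i g)‖ₑ ≤ C * ENNReal.ofReal |t| * (n2 f + n2 g) := by
  obtain ⟨C, hC, h⟩ := up
  refine ⟨C * 18, ENNReal.mul_ne_top hC (by norm_num), fun u hu t ht f g hf hg J => ?_⟩
  obtain ⟨f', f1, f2, f3⟩ := fat hf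
  obtain ⟨g', g1, g2, g3⟩ := fat hg
  have h1 : ∀ i ∈ Finset.range J, ∑ j ∈ (Finset.range J).filter (fun j => j + 3 ≤ i),
      ‖lam u t (P j f) (P i g)‖ₑ ≤ C * ENNReal.ofReal |t| *
        ∑ j ∈ Finset.range (i + 1), ENNReal.ofReal (dl (i - j)) * (n2 (g' i) + n2 (f' j)) := by
    intro i _
    rw [Finset.mul_sum]
    refine le_trans (Finset.sum_le_sum fun j hj => ?_)
      (Finset.sum_le_sum_of_subset fun j hj => ?_)
    · rw [← f2 j, ← g2 i]
      exact h u hu t ht j i (by have := (Finset.mem_filter.1 hj).2; omega) _ _ (f1 j) (g1 i)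
    · have := (Finset.mem_filter.1 hj).2
      exact Finset.mem_range.2 (by omega)
  refine (Finset.sum_le_sum h1).trans ?_
  rw [← Finset.mul_sum]
  calc _ ≤ C * ENNReal.ofReal |t| * (2 * (9 * n2 g + 9 * n2 f)) := by
        refine mul_le_mul_right ((sch (fun i => n2 (g' i)) (fun j => n2 (f' j)) J).trans ?_) _
        exact mul_le_mul_right (add_le_add (g3 _) (f3 _)) _
    _ = _ := by ring

theorem off_one (hv : LipschitzWith 1 v) (hu : LipschitzWith 2 u)
    (hinv : ∀ x, (x - t • v x) - t • u (x - t • v x) = x) {β : ℂ → ℝ}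
    (hβ : ∀ H : ℂ → ℂ, Measurable H → Integrable H →
      ∫ x, H (x - t • v x) = (∫ z, H z) + ∫ z, (β z : ℂ) * H z)
    (hf : Nice f) (hg : Nice g) (j m : ℕ) :
    ∑ i ∈ Finset.range (m + 1), lam v t (P j f) (P i g) =
      ∑ i ∈ Finset.range (m + 1), lam u t (P i g) (P j f) +
        ∫ z, (β z : ℂ) * (P j f z * S m g (z - t • u z)) := by
  have hF := (P_ker j hf).nice
  have hG := (S_ker m hg).nice
  have hS : S m g = fun z => ∑ i ∈ Finset.range (m + 1), P i g z := funext (S_sum m hg)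
  have hc := hu.continuous
  rw [← lam_sum_right hv.continuous t hF fun i => (P_ker i hg).nice,
    ← lam_sum_left hc t (fun i => (P_ker i hg).nice) hF, ← hS]
  have h1 := hβ (fun z => P j f z * S m g (z - t • u z))
    (hF.meas.mul (hG.meas.comp (Continuous.measurable (by fun_prop))))
    ((lam_int hc t hG hF).congr (Eventually.of_forall fun z => mul_comm _ _))
  simp only [hinv] at h1
  rw [lam, h1, lam]
  simp only [mul_comm (P j f _)]

theorem off_low : ∃ C : ℝ≥0∞, C ≠ ⊤ ∧ ∀ v : ℂ → ℂ, LipschitzWith 1 v → ∀ t : ℝ, t ≠ 0 →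
    |t| ≤ 1 / 4 → ∀ f g : ℂ → ℂ, Nice f → Nice g → ∀ J : ℕ,
    ∑ j ∈ Finset.range J, ‖∑ i ∈ (Finset.range J).filter (fun i => i + 3 ≤ j),
      lam v t (P j f) (P i g)‖ₑ ≤ C * ENNReal.ofReal |t| * (n2 f + n2 g) := by
  obtain ⟨C₁, hC₁, h₁⟩ := off_up
  obtain ⟨C₂, hC₂, h₂⟩ := par
  refine ⟨C₁ + C₂ * 4, ENNReal.add_ne_top.2 ⟨hC₁, ENNReal.mul_ne_top hC₂ (by norm_num)⟩,
    fun v hv t ht0 ht f g hf hg J => ?_⟩
  obtain ⟨u, hu, hinv, -⟩ := exists_inv hv ht
  obtain ⟨β, b1, b2, b3⟩ := exists_jac hv ht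
  obtain ⟨T, hT⟩ : ∃ T : ℕ → ℝ≥0∞, T = fun j => if 3 ≤ j then
    ‖∫ z, (β z : ℂ) * (P j f z * S (j - 3) g (z - t • u z))‖ₑ else 0 := ⟨_, rfl⟩
  have h1 : ∀ j ∈ Finset.range J, ‖∑ i ∈ (Finset.range J).filter (fun i => i + 3 ≤ j),
      lam v t (P j f) (P i g)‖ₑ ≤ ∑ i ∈ (Finset.range J).filter (fun i => i + 3 ≤ j),
        ‖lam u t (P i g) (P j f)‖ₑ + T j := by
    intro j hj
    rw [Finset.mem_range] at hj
    by_cases h3 : 3 ≤ j
    · have e : (Finset.range J).filter (fun i => i + 3 ≤ j) = Finset.range (j - 3 + 1) := by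
        ext i
        simp only [Finset.mem_filter, Finset.mem_range]
        omega
      rw [e, off_one hv hu hinv b3 hf hg, hT]
      simp only [if_pos h3]
      exact (enorm_add_le _ _).trans (add_le_add (enorm_sum_le _ _) le_rfl)
    · have e : (Finset.range J).filter (fun i => i + 3 ≤ j) = ∅ :=
        Finset.filter_eq_empty_iff.2 fun i _ => by omega
      rw [e]
      simp
  have h2 : ∑ j ∈ Finset.range J, T j ≤ C₂ * ENNReal.ofReal (4 * |t|) * (n2 f + n2 g) := by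
    refine le_trans ?_ (h₂ u hu t ht β _ b1 (by positivity) b2 f g hf hg J)
    refine (Finset.sum_le_sum_of_subset (Finset.range_mono (Nat.le_add_left J 3))).trans ?_
    rw [Finset.sum_range_add, hT]
    refine le_of_eq ?_
    rw [Finset.sum_eq_zero fun j hj => if_neg (by have := Finset.mem_range.1 hj; omega), zero_add]
    refine Finset.sum_congr rfl fun i _ => ?_
    beta_reduce
    rw [if_pos (Nat.le_add_right 3 i), Nat.add_sub_cancel_left, add_comm 3 i]
  refine (Finset.sum_le_sum h1).trans ?_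
  rw [Finset.sum_add_distrib]
  refine (add_le_add (h₁ u hu t ht g f hg hf J) h2).trans_eq ?_
  rw [ENNReal.ofReal_mul (by norm_num), ENNReal.ofReal_ofNat]
  ring

end Vale.Agent.P112
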