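import Vale.Agent.P112.Base

/-!
The variation of the field. `IsCompact.exists_sSup_image_eq_and_ge`, `IsCompact.continuous_sSup` (for `s < 0` the set is empty, still compact), `le_csSup`.
`dbl`: `c` tends to zero, take `m` with `c m ^ 2 < 1`, `D = 2 ^ m`; with `t₀` from `om_eq` at `2 σ` the sublevel set has measure `< 2 σ = volume (Icc (-σ) σ)`, so some `t ∈ Icc (-σ) σ`
is outside. `Hi_disj`: for `k < l`, `sc a l ≤ sc a k / 2` and `om_mono`.
-/

open MeasureTheory Set Real Filter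
open scoped FourierTransform RealInnerProductSpace ContDiff ENNReal NNReal Topology

noncomputable section

namespace Vale.Agent.P112

open Vale.Agent.P117 (cv Ker Nice Sm Np)

variable {f g u v F κ q M : ℂ → ℂ} {G : ℂ → ℝ≥0∞} {ϑ : ℝ → ℂ} {c : ℕ → ℝ} {Ω E : Set ℂ}
  {a r s t δ B C D R : ℝ} {x y z : ℂ}

theorem le_om (hv : Continuous v) (x : ℂ) (ht : |t| ≤ s) : ‖v (x + t • v x) - v x‖ ≤ om v x s := by

  refine le_csSup (isCompact_Icc.image ?_).bddAbove ⟨t, abs_le.1 ht, rfl⟩
  fun_prop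

theorem om_eq (hv : Continuous v) (x : ℂ) (hs : 0 ≤ s) :
    ∃ t : ℝ, |t| ≤ s ∧ om v x s = ‖v (x + t • v x) - v x‖ := by

  have hc : Continuous fun t : ℝ => ‖v (x + t • v x) - v x‖ := by fun_prop
  obtain ⟨t, ht, e⟩ := (isCompact_Icc (a := -s) (b := s)).exists_sSup_image_eq
    (nonempty_Icc.2 (by linarith)) hc.continuousOn
  exact ⟨t, abs_le.2 ht, e⟩

theorem om_nonneg (hv : Continuous v) (x : ℂ) (hs : 0 ≤ s) : 0 ≤ om v x s := by

  obtain ⟨t, -, e⟩ := om_eq hv x hs
  rw [e]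
  exact norm_nonneg _

theorem om_mono (hv : Continuous v) (x : ℂ) (hs : 0 ≤ s) (h : s ≤ r) : om v x s ≤ om v x r := by

  obtain ⟨t, ht, e⟩ := om_eq hv x hs
  rw [e]
  exact le_om hv x (ht.trans h)

theorem om_le (hu : ∀ x, ‖v x‖ = 1) (hv : LipschitzWith 1 v) (x : ℂ) (hs : 0 ≤ s) :
    om v x s ≤ s := by

  obtain ⟨t, ht, e⟩ := om_eq hv.continuous x hs
  rw [e]
  have h := hv.dist_le_mul (x + t • v x) x
  rw [dist_eq_norm, dist_eq_norm, add_sub_cancel_left, norm_smul, hu, Real.norm_eq_abs] at h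
  simp only [NNReal.coe_one, one_mul, mul_one] at h
  exact h.trans ht

theorem om_cont (hv : Continuous v) (s : ℝ) : Continuous fun x => om v x s := by

  refine IsCompact.continuous_sSup (f := fun (x : ℂ) (t : ℝ) => ‖v (x + t • v x) - v x‖)
    isCompact_Icc ?_
  change Continuous fun p : ℂ × ℝ => ‖v (p.1 + p.2 • v p.1) - v p.1‖
  fun_prop

theorem dbl (hc : Summable c) : ∃ D : ℝ, ∀ v, Fld c v → Dbl D v := by

  have h1 : Tendsto (fun m => c m ^ 2) atTop (𝓝 0) := by
    simpa using hc.tendsto_atTop_zero.pow 2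
  obtain ⟨m, hm⟩ := (h1.eventually (gt_mem_nhds one_pos)).exists
  refine ⟨2 ^ m, fun v hv => ⟨one_le_pow₀ one_le_two, fun x σ h0 h2 => ?_⟩⟩
  have hv' := hv.lip.continuous
  obtain ⟨t₀, ht₀, e⟩ := om_eq hv' x (s := 2 * σ) (by linarith)
  have hs := hv.sub x (2 * σ) t₀ m (by linarith) h2 ht₀
  by_contra hlt
  rw [not_le, e, ← lt_div_iff₀' (by positivity)] at hlt
  have hsub : Icc (-σ) σ ⊆ {t : ℝ | |t| ≤ 2 * σ ∧
      ‖v (x + t • v x) - v x‖ < ‖v (x + t₀ • v x) - v x‖ / 2 ^ m} := fun t ht =>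
    ⟨(abs_le.2 ht).trans (by linarith), (le_om hv' x (abs_le.2 ht)).trans_lt hlt⟩
  have h3 := (measure_mono hsub).trans hs
  rw [Real.volume_Icc, ENNReal.ofReal_le_ofReal_iff (by positivity)] at h3
  nlinarith

theorem meas_Hi (hv : Continuous v) (δ s : ℝ) (m : ℕ) : MeasurableSet (Hi v δ s m) := by

  have h : Measurable fun x => s * om v x s := ((om_cont hv s).measurable).const_mul s
  exact (measurableSet_lt measurable_const h).inter (measurableSet_le h measurable_const)

theorem meas_Lo (hv : Continuous v) (δ a : ℝ) (k : ℕ) : MeasurableSet (Lo v δ a k) := by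

  have h : ∀ s, Measurable fun x => s * om v x s := fun s => ((om_cont hv s).measurable).const_mul s
  have e : Lo v δ a k = {x | sc a k * om v x (sc a k) ≤ 4 * δ} ∩
      ⋂ i, ⋂ (_ : i < k), {x | 4 * δ < sc a i * om v x (sc a i)} := by
    ext x
    simp [Lo]
  rw [e]
  exact (measurableSet_le (h _) measurable_const).inter (MeasurableSet.iInter fun i =>
    MeasurableSet.iInter fun _ => measurableSet_lt measurable_const (h _))

theorem Hi_disj (hv : Continuous v) (ha : 0 < a) (δ : ℝ) (m : ℕ) :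
    Pairwise (Function.onFun Disjoint fun k => Hi v δ (sc a k) m) := by

  have key : ∀ k l, k < l → Disjoint (Hi v δ (sc a k) m) (Hi v δ (sc a l) m) := by
    intro k l hkl
    rw [Set.disjoint_left]
    rintro x ⟨-, h1⟩ ⟨h2, -⟩
    have a1 : sc a l ≤ sc a (k + 1) :=
      div_le_div_of_nonneg_left ha.le (by positivity) (pow_le_pow_right₀ one_le_two hkl)
    have a2 := sc_succ a k
    have a3 := sc_pos ha l
    have a4 := om_mono hv x a3.le (r := sc a k) (by linarith)
    have a5 := om_nonneg hv x a3.le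
    have a6 : sc a l * om v x (sc a l) ≤ sc a (k + 1) * om v x (sc a k) :=
      mul_le_mul a1 a4 a5 (by linarith)
    have a7 : sc a k * om v x (sc a k) = 2 * (sc a (k + 1) * om v x (sc a k)) := by
      rw [← mul_assoc, ← a2]
    rw [pow_succ] at h1
    linarith
  intro k l hkl
  rcases lt_or_gt_of_ne hkl with h | h
  · exact key k l h
  · exact (key l k h).symm

theorem Lo_disj (v : ℂ → ℂ) (δ a : ℝ) : Pairwise (Function.onFun Disjoint (Lo v δ a)) := by

  have key : ∀ k l, k < l → Disjoint (Lo v δ a k) (Lo v δ a l) := by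
    intro k l hkl
    rw [Set.disjoint_left]
    rintro x ⟨h1, -⟩ ⟨-, h2⟩
    exact absurd (h2 k hkl) (not_lt.2 h1)
  intro k l hkl
  rcases lt_or_gt_of_ne hkl with h | h
  · exact key k l h
  · exact (key l k h).symm

theorem mem_Hi (hδ : 0 < δ) (h : 4 * δ < s * om v x s) : ∃ m, x ∈ Hi v δ s m := by

  have hex : ∃ n : ℕ, s * om v x s ≤ 2 ^ (n + 1) * (4 * δ) := by
    obtain ⟨n, hn⟩ := pow_unbounded_of_one_lt (s * om v x s / (4 * δ)) (one_lt_two (α := ℝ))
    rw [div_lt_iff₀ (by positivity)] at hn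
    refine ⟨n, hn.le.trans ?_⟩
    gcongr
    · exact one_le_two
    · omega
  classical
  refine ⟨Nat.find hex, ?_, Nat.find_spec hex⟩
  rcases Nat.eq_zero_or_pos (Nat.find hex) with h0 | h0
  · rw [h0, pow_zero, one_mul]
    exact h
  · have h1 := Nat.find_min hex (Nat.sub_one_lt_of_lt h0)
    rw [Nat.sub_add_cancel h0] at h1
    exact not_le.1 h1

end Vale.Agent.P112
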