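import Vale.Agent.P112.Rep

/-!
Fubini: `(z, y) ↦ β z * (qs q j (z - y) * w y * h z)` is integrable (`Integrable.convolution_integrand` or `integrable_prod_iff'`, bounded factors), so the integral is
`∫ y, w y * ∫ z, qs q j (z - y) * β z * h z`; write `h z = h y + (h z - h y)`; `enorm_integral_le_lintegral_enorm`, `qs_supp`, `qs_l1`, `lintegral_sub_right_eq_self`, `lintegral_add_right`.
-/

open MeasureTheory Set Real Filter
open scoped FourierTransform RealInnerProductSpace ContDiff ENNReal NNReal Topology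

noncomputable section

namespace Vale.Agent.P112

open Vale.Agent.P117 (cv Ker Nice Sm Np)

variable {f g u v F κ q M : ℂ → ℂ} {G : ℂ → ℝ≥0∞} {ϑ : ℝ → ℂ} {c : ℕ → ℝ} {Ω E : Set ℂ}
  {a r s t δ B C D R : ℝ} {x y z : ℂ}

theorem par_one (hq : QK C q) {β : ℂ → ℝ} (hβ : Measurable β) (hB : ∀ z, |β z| ≤ B) {w h : ℂ → ℂ}
    (hw : Nice w) (hh : Measurable h) (hb : ∃ K, ∀ z, ‖h z‖ ≤ K) {j : ℕ} {L : ℂ → ℝ≥0∞}
    (hm : Measurable L) (hL : ∀ y z, ‖z - y‖ < dl j → ‖h z - h y‖ₑ ≤ L y) :
    ‖∫ z, (β z : ℂ) * (cv (qs q j) w z * h z)‖ₑ ≤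
      (∫⁻ y, ‖w y‖ₑ * (‖h y‖ₑ * ‖∫ z, qs q j (z - y) * (β z : ℂ)‖ₑ)) +
        ENNReal.ofReal (B * C) * ∫⁻ y, ‖w y‖ₑ * L y := by
  obtain ⟨K, hK⟩ := hb
  have hk := qs_ker hq.ker j
  have B0 : 0 ≤ B := (abs_nonneg _).trans (hB 0)
  have hβ' : Measurable fun z => (β z : ℂ) := Complex.measurable_ofReal.comp hβ
  have hB' : ∀ z, ‖(β z : ℂ)‖ ≤ B := fun z => (Complex.norm_real _).trans_le (hB z)
  have h1 : Integrable (fun p : ℂ × ℂ => w p.2 * qs q j (p.1 - p.2) * (β p.1 * h p.1))
      (volume.prod volume) :=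
    (hw.int.convolution_integrand (ContinuousLinearMap.mul ℝ ℂ) hk.int).mul_bdd (c := B * K)
      ((hβ'.mul hh).comp measurable_fst).aestronglyMeasurable (Eventually.of_forall fun p =>
        (norm_mul_le _ _).trans (mul_le_mul (hB' _) (hK _) (norm_nonneg _) B0))
  have h2 : ∫ z, (β z : ℂ) * (cv (qs q j) w z * h z) = ∫ y, w y *
      (h y * (∫ z, qs q j (z - y) * (β z : ℂ)) + ∫ z, qs q j (z - y) * (β z * (h z - h y))) := by
    refine Eq.trans (integral_congr_ae (Eventually.of_forall fun z => ?_))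
      ((integral_integral_swap (f := fun z y => w y * qs q j (z - y) * (β z * h z)) h1).trans
        (integral_congr_ae (Eventually.of_forall fun y => ?_)))
    · simp only [integral_mul_const, cv, mul_comm (w _)]
      ring
    · have h3 := hk.int.comp_sub_right y
      have h4 : Integrable fun z => h y * (qs q j (z - y) * (β z : ℂ)) :=
        (h3.mul_bdd hβ'.aestronglyMeasurable (Eventually.of_forall hB')).const_mul _
      have h5 : Integrable fun z => qs q j (z - y) * (β z * (h z - h y)) :=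
        h3.mul_bdd (c := B * (K + K)) (hβ'.mul (hh.sub_const _)).aestronglyMeasurable
          (Eventually.of_forall fun z => (norm_mul_le _ _).trans (mul_le_mul (hB' _)
            ((norm_sub_le _ _).trans (add_le_add (hK _) (hK _))) (norm_nonneg _) B0))
      simp only []
      rw [← integral_const_mul, ← integral_add h4 h5, ← integral_const_mul]
      refine integral_congr_ae (Eventually.of_forall fun z => ?_)
      ring
  have h3 : ∀ y, ‖∫ z, qs q j (z - y) * (β z * (h z - h y))‖ₑ ≤ ENNReal.ofReal (B * C) * L y := by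
    intro y
    refine (enorm_integral_le_lintegral_enorm _).trans
      (le_trans (lintegral_mono (g := fun z => ‖qs q j (z - y)‖ₑ * (ENNReal.ofReal B * L y))
        fun z => ?_) ?_)
    · by_cases h4 : ‖z - y‖ < dl j
      · simp only [enorm_mul]
        exact mul_le_mul_right (mul_le_mul' ((ofReal_norm _).symm.trans_le
          (ENNReal.ofReal_le_ofReal (hB' z))) (hL y z h4)) _
      · simp [qs_supp hq (not_lt.1 h4)]
    · rw [lintegral_sub_right_eq_self (fun p => ‖qs q j p‖ₑ * (ENNReal.ofReal B * L y)) y,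
        lintegral_mul_const _ hk.cont.measurable.enorm, ENNReal.ofReal_mul B0, mul_comm,
        mul_right_comm]
      exact mul_le_mul_left (mul_le_mul_right (qs_l1 hq j) _) _
  have h4 : Measurable fun y => ‖w y‖ₑ * L y := hw.meas.enorm.mul hm
  rw [h2, ← lintegral_const_mul _ h4, ← lintegral_add_right _ (h4.const_mul _)]
  refine (enorm_integral_le_lintegral_enorm _).trans (lintegral_mono fun y => ?_)
  simp only [enorm_mul]
  rw [mul_left_comm (ENNReal.ofReal _), ← mul_add, ← enorm_mul (h y)]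
  exact mul_le_mul_right ((enorm_add_le _ _).trans (add_le_add le_rfl (h3 y))) _

end Vale.Agent.P112
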