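import Vale.Agent.P112.LPa

/-!
Scaling: `Measure.integral_comp_smul`, `Complex.finrank_real_complex`, `Integrable.comp_smul`. `rep`: `w 0 = 0`, `w (j+1) = cv (𝓕⁻ m) f` with `m ξ = pm (j+1) ξ / 𝓕 q (dl (j+1) • ξ)`. `Sm m`: at points of the
closed annulus `2 ^ j ≤ ‖ξ‖ ≤ 2 ^ (j+2)` the denominator is not zero (`hq.low`, `ContDiffAt.div`), off it `m` vanishes near the point (`pm_out`, `pm_in`). `‖m ξ‖ ≤ C ‖pm (j+1) ξ‖`.
Identity: both sides are `Ker` and have the same transform (`P117.fourier_cv`, `Sm.fourier_inv`, `qs_four`), which is integrable: `Continuous.fourierInv_fourier_eq`. Sum: `P117.cv_eq`, `n2_inv_le`, `pm_sq`.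
-/

open MeasureTheory Set Real Filter
open scoped FourierTransform RealInnerProductSpace ContDiff ENNReal NNReal Topology

noncomputable section

namespace Vale.Agent.P112

open Vale.Agent.P117 (cv Ker Nice Sm Np)

variable {f g u v F κ q M : ℂ → ℂ} {G : ℂ → ℝ≥0∞} {ϑ : ℝ → ℂ} {c : ℕ → ℝ} {Ω E : Set ℂ}
  {a r s t δ B C D R : ℝ} {x y z : ℂ}

theorem qs_ker (hq : Ker q) (j : ℕ) : Ker (qs q j) := by
  obtain ⟨B, hB⟩ := hq.bdd
  refine ⟨continuous_const.mul (hq.cont.comp (continuous_const_smul _)),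
    (hq.int.comp_smul (R := (2 : ℝ) ^ j) (by positivity)).const_mul _, 4 ^ j * B, fun x => ?_⟩
  rw [qs, norm_mul, Complex.norm_real, Real.norm_of_nonneg (by positivity)]
  exact mul_le_mul_of_nonneg_left (hB _) (by positivity)

theorem rep_abs (j : ℕ) : (4 : ℝ) ^ j * |(((2 : ℝ) ^ j) ^ Module.finrank ℝ ℂ)⁻¹| = 1 := by
  rw [Complex.finrank_real_complex, abs_of_nonneg (by positivity), ← pow_mul, mul_comm j 2, pow_mul,
    show (2 : ℝ) ^ 2 = 4 by norm_num]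
  exact mul_inv_cancel₀ (by positivity)

theorem qs_four (q : ℂ → ℂ) (j : ℕ) (ξ : ℂ) : 𝓕 (qs q j) ξ = 𝓕 q (dl j • ξ) := by
  have h := Measure.integral_comp_smul volume (fun u : ℂ => 𝐞 (-⟪u, dl j • ξ⟫) • q u) ((2 : ℝ) ^ j)
  have e : ∀ v : ℂ, 𝐞 (-⟪v, ξ⟫) • qs q j v = (4 : ℝ) ^ j •
      (𝐞 (-⟪((2 : ℝ) ^ j) • v, dl j • ξ⟫) • q ((2 : ℝ) ^ j • v)) := fun v => by
    rw [real_inner_smul_left, real_inner_smul_right, ← mul_assoc, dl,
      mul_inv_cancel₀ (by positivity), one_mul, qs, Circle.smul_def, Circle.smul_def]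
    simp only [smul_eq_mul, Complex.real_smul]
    ring
  rw [Real.fourier_eq, Real.fourier_eq]
  simp only [e]
  rw [integral_smul, h, smul_smul, rep_abs, one_smul]

theorem qs_supp (hq : QK C q) {j : ℕ} {p : ℂ} (h : dl j ≤ ‖p‖) : qs q j p = 0 := by
  rw [qs, hq.supp, mul_zero]
  rw [norm_smul, Real.norm_of_nonneg (by positivity)]
  calc (1 : ℝ) = 2 ^ j * dl j := (mul_inv_cancel₀ (by positivity)).symm
    _ ≤ _ := mul_le_mul_of_nonneg_left h (by positivity)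

theorem qs_l1 (hq : QK C q) (j : ℕ) : ∫⁻ p, ‖qs q j p‖ₑ ≤ ENNReal.ofReal C := by
  rw [← ofReal_integral_norm_eq_lintegral_enorm (qs_ker hq.ker j).int]
  refine ENNReal.ofReal_le_ofReal (le_trans (le_of_eq ?_) hq.l1)
  have h := Measure.integral_comp_smul volume (fun u : ℂ => ‖q u‖) ((2 : ℝ) ^ j)
  have e : ∀ v : ℂ, ‖qs q j v‖ = (4 : ℝ) ^ j * ‖q ((2 : ℝ) ^ j • v)‖ := fun v => by
    rw [qs, norm_mul, Complex.norm_real, Real.norm_of_nonneg (by positivity)]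
  simp only [e]
  rw [integral_const_mul, h, smul_eq_mul, ← mul_assoc, rep_abs, one_mul]

/-- The quotient multiplier. -/
def rep_m (q : ℂ → ℂ) : ℕ → ℂ → ℂ
  | 0 => fun _ => 0
  | j + 1 => fun ξ => pm (j + 1) ξ / 𝓕 q (dl (j + 1) • ξ)

theorem rep_low (hq : QK C q) {j : ℕ} {ξ : ℂ} (h1 : 2 ^ j ≤ ‖ξ‖) (h2 : ‖ξ‖ ≤ 2 ^ (j + 2)) :
    1 ≤ C * ‖𝓕 q (dl (j + 1) • ξ)‖ := by
  have h0 : (0 : ℝ) < 2 ^ (j + 1) := by positivity
  have e : ‖dl (j + 1) • ξ‖ = ‖ξ‖ / 2 ^ (j + 1) := by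
    rw [norm_smul, Real.norm_of_nonneg (dl_pos _).le, dl, div_eq_inv_mul]
  refine hq.low _ ?_ ?_
  · rw [e, le_div_iff₀ h0, pow_succ]
    linarith
  · rw [e, div_le_iff₀ h0]
    rw [pow_succ] at h2
    linarith

theorem rep_ne (hq : QK C q) {j : ℕ} {ξ : ℂ} (h1 : 2 ^ j ≤ ‖ξ‖) (h2 : ‖ξ‖ ≤ 2 ^ (j + 2)) :
    𝓕 q (dl (j + 1) • ξ) ≠ 0 := fun h => by
  have := rep_low hq h1 h2
  rw [h, norm_zero, mul_zero] at this
  linarith

theorem rep_sm (hq : QK C q) (j : ℕ) : Sm (rep_m q j) := by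
  cases j with
  | zero => exact ⟨contDiff_const, HasCompactSupport.zero⟩
  | succ j =>
    refine ⟨contDiff_iff_contDiffAt.2 fun ξ => ?_, (pm_sm (j + 1)).cs.mono fun ξ hξ h => ?_⟩
    · by_cases h : 2 ^ j ≤ ‖ξ‖ ∧ ‖ξ‖ ≤ 2 ^ (j + 2)
      · have h1 : ContDiff ℝ ∞ fun η : ℂ => dl (j + 1) • η := contDiff_const_smul (dl (j + 1))
        have h2 : ContDiff ℝ ∞ fun η : ℂ => 𝓕 q (dl (j + 1) • η) := hq.sm.comp h1
        have h3 := (pm_sm (j + 1)).smooth.contDiffAt.mul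
          ((h2.contDiffAt (x := ξ)).inv (rep_ne hq h.1 h.2))
        exact h3
      · have hc : IsClosed {ξ : ℂ | 2 ^ j ≤ ‖ξ‖ ∧ ‖ξ‖ ≤ 2 ^ (j + 2)} :=
          (isClosed_le continuous_const continuous_norm).inter
            (isClosed_le continuous_norm continuous_const)
        refine (contDiffAt_const (c := (0 : ℂ))).congr_of_eventuallyEq ?_
        filter_upwards [hc.isOpen_compl.mem_nhds h] with η hη
        by_contra h0
        have h3 : pm (j + 1) η ≠ 0 := fun h4 => h0 (by simp [rep_m, h4])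
        exact hη ⟨(pm_in h3).le, (pm_out h3).le⟩
    · exact hξ (by simp [rep_m, h])

theorem rep_norm (hq : QK C q) (j : ℕ) (ξ : ℂ) : ‖rep_m q j ξ‖ ≤ C * ‖pm j ξ‖ := by
  cases j with
  | zero => simpa [rep_m] using mul_nonneg hq.C0 (norm_nonneg _)
  | succ j =>
    by_cases h : pm (j + 1) ξ = 0
    · simp [rep_m, h]
    have h1 := rep_low hq (pm_in h).le (pm_out h).le
    have h2 := norm_pos_iff.2 (rep_ne hq (pm_in h).le (pm_out h).le)
    rw [rep_m, norm_div, div_le_iff₀ h2]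
    nlinarith [norm_nonneg (pm (j + 1) ξ)]

theorem rep_mul (hq : QK C q) (j : ℕ) (ξ : ℂ) :
    𝓕 q (dl (j + 1) • ξ) * rep_m q (j + 1) ξ = pm (j + 1) ξ := by
  by_cases h : pm (j + 1) ξ = 0
  · simp [rep_m, h]
  rw [rep_m, mul_div_cancel₀ _ (rep_ne hq (pm_in h).le (pm_out h).le)]

theorem rep (hq : QK C q) (hf : Nice f) : ∃ w : ℕ → ℂ → ℂ, (∀ j, Nice (w j)) ∧
    (∀ j, P (j + 1) f = cv (qs q (j + 1)) (w (j + 1))) ∧
    ∀ J : Finset ℕ, ∑ j ∈ J, n2 (w j) ≤ ENNReal.ofReal (C ^ 2) * n2 f := by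
  have hw : ∀ j, Ker (cv (𝓕⁻ (rep_m q j)) f) := fun j => P117.cv_ker (rep_sm hq j).ker_inv hf
  refine ⟨fun j => cv (𝓕⁻ (rep_m q j)) f, fun j => (hw j).nice, fun j => ?_, fun J => ?_⟩
  · have k2 := P117.cv_ker (qs_ker hq.ker (j + 1)) (hw (j + 1)).nice
    have e2 : 𝓕 (cv (qs q (j + 1)) (cv (𝓕⁻ (rep_m q (j + 1))) f)) =
        fun ξ => pm (j + 1) ξ * 𝓕 f ξ := by
      funext ξ
      rw [P117.fourier_cv (qs_ker hq.ker (j + 1)).int (hw (j + 1)).int,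
        P117.fourier_cv (rep_sm hq (j + 1)).ker_inv.int hf.int, (rep_sm hq (j + 1)).fourier_inv,
        qs_four, ← mul_assoc, rep_mul hq]
    have i2 := P117.integrable_mul_fourier (pm_sm (j + 1)).ker.int hf.int
    rw [P_eq _ hf.int, ← e2]
    exact k2.cont.fourierInv_fourier_eq k2.int (e2 ▸ i2)
  · have hF := (P117.continuous_fourier hf.int).measurable
    calc ∑ j ∈ J, n2 (cv (𝓕⁻ (rep_m q j)) f)
        ≤ ∑ j ∈ J, n2 fun ξ => rep_m q j ξ * 𝓕 f ξ := Finset.sum_le_sum fun j _ => by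
          rw [funext (P117.cv_eq (rep_sm hq j).ker.int hf.int)]
          exact n2_inv_le (P117.integrable_mul_fourier (rep_sm hq j).ker.int hf.int)
      _ = ∫⁻ ξ, ∑ j ∈ J, ‖rep_m q j ξ * 𝓕 f ξ‖ₑ ^ 2 :=
          (lintegral_finsetSum J fun j _ =>
            (((rep_sm hq j).ker.cont.measurable.mul hF).enorm.pow_const 2)).symm
      _ ≤ ∫⁻ ξ, ENNReal.ofReal (C ^ 2) * ‖𝓕 f ξ‖ₑ ^ 2 := lintegral_mono fun ξ => by
          simp only [enorm_mul, mul_pow]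
          rw [← Finset.sum_mul]
          refine mul_le_mul' ?_ le_rfl
          have h1 : ∑ j ∈ J, ‖rep_m q j ξ‖ ^ 2 ≤ C ^ 2 := by
            calc _ ≤ ∑ j ∈ J, C ^ 2 * ‖pm j ξ‖ ^ 2 := Finset.sum_le_sum fun j _ => by
                  rw [← mul_pow]
                  exact pow_le_pow_left₀ (norm_nonneg _) (rep_norm hq j ξ) 2
              _ ≤ C ^ 2 := by
                  rw [← Finset.mul_sum]
                  exact mul_le_of_le_one_right (sq_nonneg _) (pm_sq J ξ)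
          refine le_trans (le_of_eq ?_) (ENNReal.ofReal_le_ofReal h1)
          rw [ENNReal.ofReal_sum_of_nonneg fun j _ => sq_nonneg _]
          exact Finset.sum_congr rfl fun j _ => by
            rw [ENNReal.ofReal_pow (norm_nonneg _), ofReal_norm]
      _ = ENNReal.ofReal (C ^ 2) * n2 (𝓕 f) := lintegral_const_mul _ (hF.enorm.pow_const 2)
      _ ≤ _ := mul_le_mul' le_rfl (n2_fourier_le hf.int)

end Vale.Agent.P112
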