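import Vale.Agent.P112.Mink

/-!
For `σ ∈ Icc (a - s) (a + s)`: `y a = y σ - ∫ y'` (`intervalIntegral.integral_eq_sub_of_hasDerivAt`), so `‖y a‖ₑ ≤ ‖y σ‖ₑ + I` with `I ^ 2 ≤ ofReal s * ∫⁻ over Icc, ‖y'‖ₑ ^ 2`
(`csw` with `w = 1` on the interval `uIoc`, of length at most `s`). Then `‖y a‖ₑ ^ 2 ≤ 2 ‖y σ‖ₑ ^ 2 + 2 I²`; integrate over `σ` (length `2 s`) and cancel 2.
-/

open MeasureTheory Set Real Filter
open scoped FourierTransform RealInnerProductSpace ContDiff ENNReal NNReal Topology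

noncomputable section

namespace Vale.Agent.P112

open Vale.Agent.P117 (cv Ker Nice Sm Np)

variable {f g u v F κ q M : ℂ → ℂ} {G : ℂ → ℝ≥0∞} {ϑ : ℝ → ℂ} {c : ℕ → ℝ} {Ω E : Set ℂ}
  {a r s t δ B C D R : ℝ} {x y z : ℂ}

theorem sob_sq (X Y : ℝ≥0∞) : (X + Y) ^ 2 ≤ 2 * X ^ 2 + 2 * Y ^ 2 := by
  have h := ENNReal.rpow_add_le_mul_rpow_add_rpow X Y (p := 2) one_le_two
  rw [show (2 : ℝ) - 1 = 1 by norm_num, ENNReal.rpow_one, mul_add] at h
  simpa only [ENNReal.rpow_two] using h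

theorem sob1 {y y' : ℝ → ℂ} (h : ∀ σ, HasDerivAt y (y' σ) σ) (hc : Continuous y') (a : ℝ)
    (hs : 0 < s) : ENNReal.ofReal s * ‖y a‖ₑ ^ 2 ≤
      ∫⁻ σ in Icc (a - s) (a + s), (‖y σ‖ₑ ^ 2 + ENNReal.ofReal (2 * s ^ 2) * ‖y' σ‖ₑ ^ 2) := by
  have hy : Continuous y := continuous_iff_continuousAt.2 fun σ => (h σ).continuousAt
  have m1 : Measurable fun σ => ‖y σ‖ₑ ^ 2 := hy.measurable.enorm.pow_const 2
  have m2 : Measurable fun σ => ‖y' σ‖ₑ ^ 2 := hc.measurable.enorm.pow_const 2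
  set J := ∫⁻ σ in Icc (a - s) (a + s), ‖y' σ‖ₑ ^ 2 with hJ
  have hv : volume (Icc (a - s) (a + s)) = 2 * ENNReal.ofReal s := by
    rw [Real.volume_Icc, show a + s - (a - s) = 2 * s by ring, ENNReal.ofReal_mul two_pos.le,
      ENNReal.ofReal_ofNat]
  have key : ∀ σ ∈ Icc (a - s) (a + s),
      ‖y a‖ₑ ^ 2 ≤ 2 * ‖y σ‖ₑ ^ 2 + 2 * (ENNReal.ofReal s * J) := fun σ hσ => by
    have e : y a = y σ + ∫ t in σ..a, y' t := by
      rw [intervalIntegral.integral_eq_sub_of_hasDerivAt (fun t _ => h t)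
        (hc.intervalIntegrable _ _), add_sub_cancel]
    have h1 : ‖∫ t in σ..a, y' t‖ₑ ≤ ∫⁻ t in uIoc σ a, ‖y' t‖ₑ := by
      rw [← ofReal_norm, intervalIntegral.norm_integral_eq_norm_integral_uIoc, ofReal_norm]
      exact enorm_integral_le_lintegral_enorm _
    have h2 := csw (volume.restrict (uIoc σ a)) (w := fun _ => 1) measurable_const
      hc.measurable.enorm
    simp only [one_mul, lintegral_const, Measure.restrict_apply_univ] at h2
    have h3 : volume (uIoc σ a) ≤ ENNReal.ofReal s := by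
      rw [Real.volume_uIoc]
      exact ENNReal.ofReal_le_ofReal (abs_le.2 ⟨by linarith [hσ.2], by linarith [hσ.1]⟩)
    have h4 : ∫⁻ t in uIoc σ a, ‖y' t‖ₑ ^ 2 ≤ J :=
      lintegral_mono_set (uIoc_subset_uIcc.trans (uIcc_subset_Icc hσ ⟨by linarith, by linarith⟩))
    have h5 : ‖y a‖ₑ ≤ ‖y σ‖ₑ + ∫⁻ t in uIoc σ a, ‖y' t‖ₑ := by
      rw [e]
      exact (enorm_add_le _ _).trans (add_le_add_right h1 _)
    exact (pow_le_pow_left' h5 2).trans ((sob_sq _ _).trans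
      (add_le_add_right (mul_le_mul_right (h2.trans (mul_le_mul' h3 h4)) _) _))
  have h6 := setLIntegral_mono' (μ := volume) measurableSet_Icc key
  rw [lintegral_add_left (m1.const_mul 2), lintegral_const_mul _ m1, lintegral_const,
    lintegral_const, Measure.restrict_apply_univ, hv] at h6
  rw [lintegral_add_left m1, lintegral_const_mul _ m2, ← hJ, ENNReal.ofReal_mul two_pos.le,
    ENNReal.ofReal_ofNat, ENNReal.ofReal_pow hs.le]
  refine (ENNReal.mul_le_mul_iff_right two_ne_zero ENNReal.ofNat_ne_top).1 ?_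
  refine le_trans (le_of_eq (by ring)) (h6.trans (le_of_eq (by ring)))

end Vale.Agent.P112
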