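import Mathlib

/-! Definitions used in the statement for P112. The plane is the complex plane. -/

open MeasureTheory Filter Topology

noncomputable section

namespace Vale.Agent.P112

/-- The truncated directional Hilbert transform. -/
def trunc (v : ℂ → ℂ) (a ε : ℝ) (f : ℂ → ℂ) (x : ℂ) : ℂ :=
  ∫ t in {t : ℝ | ε < |t| ∧ |t| < a}, f (x - t • v x) / (t : ℂ)

/-- The principal value. -/
def hil (v : ℂ → ℂ) (a : ℝ) (f : ℂ → ℂ) (x : ℂ) : ℂ :=
  limUnder (𝓝[>] (0 : ℝ)) fun ε => trunc v a ε f x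

/-- The sublevel condition: on each segment of the field, the variation of the field is rarely much
smaller than its largest value. -/
def Sub (η : ℕ → ℝ) (v : ℂ → ℂ) : Prop :=
  ∀ (x : ℂ) (s t₀ : ℝ) (m : ℕ), 0 < s → s ≤ 1 → |t₀| ≤ s →
    volume {t : ℝ | |t| ≤ s ∧ ‖v (x + t • v x) - v x‖ < ‖v (x + t₀ • v x) - v x‖ / 2 ^ m} ≤
      ENNReal.ofReal (η m * s)

end Vale.Agent.P112
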