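import Vale.Agent.P112.LPa
import Vale.Agent.P112.Kern
import Vale.Agent.P112.KLip
import Vale.Agent.P112.Bil
import Vale.Agent.P112.Mink
import Vale.Agent.P112.Lin

/-!
Low frequency composed with the map against higher frequency. `orth`: with `K y = 𝓕⁻ (pm j) (-y) = 𝓕⁻ (fun ξ => pm j (-ξ)) y` the integral is `cv K (P i f) w`, `P117.cv_eq`, `P117.fourier_cv`,
`Sm.fourier_inv`, and `pm j (-ξ) * pm i ξ = 0` (`pm_out`, `pm_in`). `up`: `δ = dl i`, `δ' = dl j = dl (j - i) * δ`, `κ = 𝓕⁻ (pm j)`, `F = P i f`. Fubini: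
`lam = ∫ y, g y * ∫ x, κ (x - y) * F (x - t • u x)`; subtract `∫ x, κ (x - y) * F (x - t • u y) = 0` (`orth`, translate); `kc_lip` with centre `y - t • u y`, `R = 2 ‖x - y‖ / δ`,
`‖p - w‖ ≤ 2 |t| ‖x - y‖`, `‖x - y‖ / δ ≤ dl (j - i) (1 + ‖x - y‖ / δ')`, `(1 + R) ^ 5 ≤ 32 (1 + ‖x - y‖ / δ') ^ 5`; `kc_mom`; `amgm`, `Q_comp`, `wv_anti`, `wv_l2`.
-/

open MeasureTheory Set Real Filter
open scoped FourierTransform RealInnerProductSpace ContDiff ENNReal NNReal Topology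

noncomputable section

namespace Vale.Agent.P112

open Vale.Agent.P117 (cv Ker Nice Sm Np)

variable {f g u v F κ q M : ℂ → ℂ} {G : ℂ → ℝ≥0∞} {ϑ : ℝ → ℂ} {c : ℕ → ℝ} {Ω E : Set ℂ}
  {a r s t δ B C D R : ℝ} {x y z : ℂ}

theorem up_lp (j : ℕ) (ξ : ℂ) : lp j (-ξ) = lp j ξ := by
  simp only [lp, smul_neg, bmp.neg]

theorem up_even (j : ℕ) (ξ : ℂ) : pm j (-ξ) = pm j ξ := by
  cases j with
  | zero => exact up_lp 0 ξ
  | succ k => simp only [pm, up_lp]

theorem up_dis {i j : ℕ} (h : i + 2 ≤ j) (ξ : ℂ) : pm j ξ * pm i ξ = 0 := by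
  by_contra hne
  obtain ⟨h1, h2⟩ := mul_ne_zero_iff.1 hne
  obtain ⟨k, rfl⟩ : ∃ k, j = k + 1 := ⟨j - 1, by omega⟩
  have a := pm_in h1
  have b := pm_out h2
  have : (2 : ℝ) ^ (i + 1) ≤ 2 ^ k := pow_le_pow_right₀ one_le_two (by omega)
  linarith

theorem orth {i j : ℕ} (h : i + 2 ≤ j) (hf : Nice f) (w : ℂ) :
    ∫ p, 𝓕⁻ (pm j) p * P i f (p + w) = 0 := by
  have e : cv (𝓕⁻ (pm j)) (P i f) w = ∫ p, 𝓕⁻ (pm j) p * P i f (p + w) := by
    rw [P117.cv_comm, ← integral_neg_eq_self]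
    refine integral_congr_ae (Eventually.of_forall fun p => ?_)
    simp only [P117.inv_even (up_even j), sub_neg_eq_add, add_comm]
  rw [← e, P117.cv_eq (pm_sm j).ker.int (P_ker i hf).int]
  have z : (fun ξ => pm j ξ * 𝓕 (P i f) ξ) = fun ξ => (0 : ℂ) * pm j ξ := by
    funext ξ
    rw [show P i f = cv (𝓕⁻ (pm i)) f from rfl, P117.fourier_cv (pm_sm i).ker_inv.int hf.int,
      (pm_sm i).fourier_inv, ← mul_assoc, up_dis h, zero_mul, zero_mul]
  rw [z, P117.inv_const_mul, zero_mul]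

theorem up_fub (hu : Continuous u) (t : ℝ) (hF : Nice F) (hκ : Ker κ) (hg : Nice g) :
    lam u t F (cv κ g) = ∫ y, g y * ∫ x, κ (x - y) * F (x - t • u x) := by
  obtain ⟨B, hB⟩ := hF.bdd
  have m : Measurable fun p : ℂ × ℂ => F (p.1 - t • u p.1) :=
    hF.meas.comp (Continuous.measurable (by fun_prop))
  have i : Integrable (fun p : ℂ × ℂ => F (p.1 - t • u p.1) * (g p.2 * κ (p.1 - p.2)))
      (volume.prod volume) :=
    (hg.int.convolution_integrand (ContinuousLinearMap.mul ℂ ℂ) hκ.int).bdd_mul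
      m.aestronglyMeasurable (Eventually.of_forall fun p => hB _)
  have := integral_integral_swap (f := fun x y : ℂ => F (x - t • u x) * (g y * κ (x - y))) i
  unfold lam cv
  calc ∫ x, F (x - t • u x) * ∫ y, κ (x - y) * g y
      = ∫ x, ∫ y, F (x - t • u x) * (g y * κ (x - y)) := by
        refine integral_congr_ae (Eventually.of_forall fun x => ?_)
        simp only [← integral_const_mul, mul_comm (g _)]
    _ = _ := by
        rw [this]
        refine integral_congr_ae (Eventually.of_forall fun y => ?_)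
        simp only [← integral_const_mul]
        refine integral_congr_ae (Eventually.of_forall fun x => ?_)
        ring

theorem up_pt {κ' : ℂ → ℂ} {d : ℝ} (h : KC C δ κ') (hf : Nice f) (hu : LipschitzWith 2 u)
    (ht : |t| ≤ 1 / 4) (d0 : 0 < d) (d1 : d ≤ 1) (x y : ℂ) :
    ‖cv κ' f (x - t • u x) - cv κ' f (x - t • u y)‖ₑ ≤ ENNReal.ofReal (64 * C * |t| * d) *
      wv 5 δ (fun z => ‖f z‖ₑ) (y - t • u y) * ENNReal.ofReal (1 + ‖x - y‖ / (d * δ)) ^ 6 := by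
  have δ0 := h.d0
  have C0 := h.C0
  have l : ‖t • u x - t • u y‖ ≤ |t| * (2 * ‖x - y‖) := by
    rw [← smul_sub, norm_smul, Real.norm_eq_abs]
    refine mul_le_mul_of_nonneg_left ?_ (abs_nonneg _)
    have := hu.dist_le_mul x y
    simpa only [dist_eq_norm, NNReal.coe_ofNat] using this
  have n0 := norm_nonneg (x - y)
  have eR : 2 * ‖x - y‖ / δ * δ = 2 * ‖x - y‖ := by field_simp
  have hp : ‖x - t • u x - (y - t • u y)‖ ≤ 2 * ‖x - y‖ / δ * δ := by
    rw [eR, show x - t • u x - (y - t • u y) = (x - y) - (t • u x - t • u y) by ring]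
    refine (norm_sub_le _ _).trans ?_
    nlinarith [abs_nonneg t]
  have hw : ‖x - t • u y - (y - t • u y)‖ ≤ 2 * ‖x - y‖ / δ * δ := by
    rw [eR, show x - t • u y - (y - t • u y) = x - y by ring]
    linarith
  refine (kc_lip h hf.int hp hw).trans ?_
  rw [mul_right_comm (ENNReal.ofReal _), ← ENNReal.ofReal_pow (by positivity),
    ← ENNReal.ofReal_mul (by positivity)]
  refine mul_le_mul_left (ENNReal.ofReal_le_ofReal ?_) _
  set s := ‖x - y‖ / (d * δ) with hs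
  have s0 : 0 ≤ s := by positivity
  have e : ‖x - y‖ / δ = d * s := by rw [hs]; field_simp
  have a1 : ‖x - t • u x - (x - t • u y)‖ / δ ≤ 2 * |t| * d * (1 + s) := by
    rw [show x - t • u x - (x - t • u y) = -(t • u x - t • u y) by ring, norm_neg]
    refine (div_le_div_of_nonneg_right l δ0.le).trans ?_
    rw [show |t| * (2 * ‖x - y‖) / δ = 2 * |t| * (‖x - y‖ / δ) by ring, e, ← mul_assoc]
    exact mul_le_mul_of_nonneg_left (by linarith) (by positivity)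
  have a2 : 1 + 2 * ‖x - y‖ / δ ≤ 2 * (1 + s) := by
    rw [mul_div_assoc, e]
    nlinarith
  calc C * (‖x - t • u x - (x - t • u y)‖ / δ) * (1 + 2 * ‖x - y‖ / δ) ^ 5
      ≤ C * (2 * |t| * d * (1 + s)) * (2 * (1 + s)) ^ 5 := by gcongr
    _ = _ := by ring

theorem up_in {i j : ℕ} (h : i + 2 ≤ j) (hi : KC C (dl i) (𝓕⁻ (pm i)))
    (hj : KC C (dl j) (𝓕⁻ (pm j))) (hf : Nice f) (hu : LipschitzWith 2 u) (ht : |t| ≤ 1 / 4) (y : ℂ) :
    ‖∫ x, 𝓕⁻ (pm j) (x - y) * P i f (x - t • u x)‖ₑ ≤ ENNReal.ofReal (64 * C * |t| * dl (j - i)) *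
      wv 5 (dl i) (fun z => ‖f z‖ₑ) (y - t • u y) * (ENNReal.ofReal C * cW) := by
  have hc := hu.continuous
  obtain ⟨B, hB⟩ := (P_ker i hf).bdd
  have Fc := (P_ker i hf).cont
  have ki : Integrable fun x => 𝓕⁻ (pm j) (x - y) := hj.ker.int.comp_sub_right y
  have i1 : Integrable fun x => 𝓕⁻ (pm j) (x - y) * P i f (x - t • u x) :=
    ki.mul_bdd (Continuous.aestronglyMeasurable (by fun_prop)) (Eventually.of_forall fun _ => hB _)
  have i2 : Integrable fun x => 𝓕⁻ (pm j) (x - y) * P i f (x - t • u y) :=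
    ki.mul_bdd (Continuous.aestronglyMeasurable (by fun_prop)) (Eventually.of_forall fun _ => hB _)
  have z : ∫ x, 𝓕⁻ (pm j) (x - y) * P i f (x - t • u y) = 0 := by
    rw [← orth h hf (y - t • u y), ← integral_add_right_eq_self _ y]
    refine integral_congr_ae (Eventually.of_forall fun p => ?_)
    simp only [add_sub_cancel_right, add_sub_assoc]
  rw [← sub_zero (∫ x, _), ← z, ← integral_sub i1 i2]
  refine (enorm_integral_le_lintegral_enorm _).trans ?_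
  have ed : dl (j - i) * dl i = dl j := by rw [← dl_add]; congr 1; omega
  set L := ENNReal.ofReal (64 * C * |t| * dl (j - i)) * wv 5 (dl i) (fun z => ‖f z‖ₑ) (y - t • u y)
  have km : Measurable fun x => ‖𝓕⁻ (pm j) (x - y)‖ₑ * ENNReal.ofReal (1 + ‖x - y‖ / dl j) ^ 6 :=
    (hj.ker.cont.measurable.comp (measurable_sub_const y)).enorm.mul (by fun_prop)
  calc ∫⁻ x, ‖𝓕⁻ (pm j) (x - y) * P i f (x - t • u x) - 𝓕⁻ (pm j) (x - y) * P i f (x - t • u y)‖ₑ
      ≤ ∫⁻ x, L * (‖𝓕⁻ (pm j) (x - y)‖ₑ * ENNReal.ofReal (1 + ‖x - y‖ / dl j) ^ 6) := by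
        refine lintegral_mono fun x => ?_
        rw [← mul_sub, enorm_mul, mul_left_comm, ← ed]
        exact mul_le_mul_right (up_pt hi hf hu ht (dl_pos _) (dl_le_one _) x y) _
    _ = L * ∫⁻ p, ‖𝓕⁻ (pm j) p‖ₑ * ENNReal.ofReal (1 + ‖p‖ / dl j) ^ 6 := by
        rw [lintegral_const_mul _ km, lintegral_sub_right_eq_self
          (fun p => ‖𝓕⁻ (pm j) p‖ₑ * ENNReal.ofReal (1 + ‖p‖ / dl j) ^ 6) y]
    _ ≤ _ := mul_le_mul_right (kc_mom hj) _

theorem up : ∃ C : ℝ≥0∞, C ≠ ⊤ ∧ ∀ u : ℂ → ℂ, LipschitzWith 2 u → ∀ t : ℝ, |t| ≤ 1 / 4 →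
    ∀ i j : ℕ, i + 2 ≤ j → ∀ f g : ℂ → ℂ, Nice f → Nice g → ‖lam u t (P i f) (P j g)‖ₑ ≤
      C * ENNReal.ofReal |t| * (ENNReal.ofReal (dl (j - i)) * (n2 g + n2 f)) := by
  obtain ⟨C, hC⟩ := kern
  have C0 := (hC 0).1.C0
  have ct := cW_ne_top
  refine ⟨ENNReal.ofReal (64 * C) * (ENNReal.ofReal C * cW) * (1 + 4 * cW ^ 2), by finiteness, ?_⟩
  intro u hu t ht i j h f g hf hg
  rw [show P j g = cv (𝓕⁻ (pm j)) g from rfl,
    up_fub hu.continuous t (P_ker i hf).nice (hC j).1.ker hg]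
  refine (enorm_integral_le_lintegral_enorm _).trans ?_
  set L := ENNReal.ofReal (64 * C * |t| * dl (j - i)) * (ENNReal.ofReal C * cW) with hL
  have mw := meas_wv 3 (dl i) hf.meas.enorm
  have q : Q (fun y => wv 3 (dl i) (fun z => ‖f z‖ₑ) (y - t • u y)) ≤ 4 * (cW ^ 2 * n2 f) :=
    (Q_comp hu ht mw).trans (mul_le_mul_right (wv_l2 (dl_pos i) hf.meas.enorm) _)
  calc ∫⁻ y, ‖g y * ∫ x, 𝓕⁻ (pm j) (x - y) * P i f (x - t • u x)‖ₑ
      ≤ ∫⁻ y, L * (‖g y‖ₑ * wv 3 (dl i) (fun z => ‖f z‖ₑ) (y - t • u y)) := by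
        refine lintegral_mono fun y => ?_
        rw [enorm_mul, mul_left_comm]
        refine mul_le_mul_right ((up_in h (hC i).1 (hC j).1 hf hu ht y).trans ?_) _
        rw [hL, mul_right_comm]
        exact mul_le_mul_right (wv_anti (by norm_num) (dl_pos i) _ _) _
    _ = L * ∫⁻ y, ‖g y‖ₑ * wv 3 (dl i) (fun z => ‖f z‖ₑ) (y - t • u y) :=
        lintegral_const_mul' _ _ (by rw [hL]; finiteness)
    _ ≤ L * (n2 g + 4 * (cW ^ 2 * n2 f)) :=
        mul_le_mul_right ((amgm hg.meas.enorm _).trans (add_le_add le_rfl q)) _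
    _ ≤ L * ((1 + 4 * cW ^ 2) * (n2 g + n2 f)) := by
        refine mul_le_mul_right ?_ _
        rw [mul_add, ← mul_assoc]
        refine add_le_add ?_ (mul_le_mul_left le_add_self _)
        exact le_mul_of_one_le_left zero_le le_self_add
    _ = _ := by
        rw [hL, ENNReal.ofReal_mul (by positivity), ENNReal.ofReal_mul (by positivity)]
        ring

end Vale.Agent.P112
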